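import Vale.Agent.Lib.P237.Planar

/-!
# P237: two convex sets containing a planar set and two translates of a second planar set

If convex sets `C` and `C'` both contain `A`, and `C` contains the translate `B + w` while
`C'` contains the translate `B + w'`, then the sum of their areas exceeds the sum of the areas
of `A` and `B` by at least half the cross product of `w' - w` with the difference of any two
points of `A + B`.
-/

namespace Vale.Agent.Lib.P237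

open MeasureTheory Set Vale.Agent.Lib.P243

theorem exists_interp {lo hi y : ℝ} (h1 : lo ≤ y) (h2 : y ≤ hi) :
    ∃ μ : ℝ, 0 ≤ μ ∧ μ ≤ 1 ∧ (1 - μ) * lo + μ * hi = y := by
  rcases eq_or_lt_of_le (h1.trans h2) with h | h
  · refine ⟨0, le_rfl, zero_le_one, ?_⟩
    have hy : y = lo := le_antisymm (by rw [h]; exact h2) h1
    rw [hy]
    ring
  · have hpos : 0 < hi - lo := sub_pos.mpr h
    refine ⟨(y - lo) / (hi - lo), div_nonneg (sub_nonneg.mpr h1) hpos.le, ?_, ?_⟩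
    · rw [div_le_one hpos]
      linarith
    · field_simp
      ring

/-- Two points of a horizontal slice of a convex set bound its length from below. -/
theorem ofReal_sub_le_hslice {C : Set (ℝ × ℝ)} (hC : Convex ℝ C) {y x₁ x₂ : ℝ}
    (h₁ : (x₁, y) ∈ C) (h₂ : (x₂, y) ∈ C) :
    ENNReal.ofReal (x₂ - x₁) ≤ volume (hslice C y) := by
  rw [← Real.volume_Icc]
  exact measure_mono ((hslice_convex hC y).ordConnected.out h₁ h₂)

/-- A point at height `y` on the bridge between the two sets: it lies in `C₂`, and its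
translate by `t * θ` lies in `C₁`. -/
theorem anchor {C₁ C₂ : Set (ℝ × ℝ)} (hC₁ : Convex ℝ C₁) (hC₂ : Convex ℝ C₂) {t : ℝ}
    {p₁ p₂ q₁ q₂ : ℝ × ℝ} (hp₁ : p₁ ∈ C₁ ∩ C₂) (hp₂ : p₂ ∈ C₁ ∩ C₂)
    (hq₁ : q₁ ∈ C₂) (hq₂ : q₂ ∈ C₂) (hq₁' : (q₁.1 + t, q₁.2) ∈ C₁)
    (hq₂' : (q₂.1 + t, q₂.2) ∈ C₁) {θ y : ℝ} (hθ0 : 0 ≤ θ) (hθ1 : θ ≤ 1)
    (hlo : (1 - θ) * p₂.2 + θ * q₂.2 ≤ y) (hhi : y ≤ (1 - θ) * p₁.2 + θ * q₁.2) :
    ∃ x : ℝ, (x, y) ∈ C₂ ∧ (x + t * θ, y) ∈ C₁ := by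
  obtain ⟨μ, hμ0, hμ1, hμ⟩ := exists_interp hlo hhi
  have h1θ : 0 ≤ 1 - θ := sub_nonneg.mpr hθ1
  have h1μ : 0 ≤ 1 - μ := sub_nonneg.mpr hμ1
  refine ⟨(1 - μ) * ((1 - θ) * p₂.1 + θ * q₂.1) + μ * ((1 - θ) * p₁.1 + θ * q₁.1), ?_, ?_⟩
  · have h := hC₂ (hC₂ hp₂.2 hq₂ h1θ hθ0 (by ring)) (hC₂ hp₁.2 hq₁ h1θ hθ0 (by ring)) h1μ hμ0
      (by ring)
    convert h using 1
    refine Prod.ext ?_ ?_
    · simp only [Prod.fst_add, Prod.smul_fst, smul_eq_mul]
    · simp only [Prod.snd_add, Prod.smul_snd, smul_eq_mul]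
      exact hμ.symm
  · have h := hC₁ (hC₁ hp₂.1 hq₂' h1θ hθ0 (by ring)) (hC₁ hp₁.1 hq₁' h1θ hθ0 (by ring)) h1μ hμ0
      (by ring)
    convert h using 1
    refine Prod.ext ?_ ?_
    · simp only [Prod.fst_add, Prod.smul_fst, smul_eq_mul]
      ring
    · simp only [Prod.snd_add, Prod.smul_snd, smul_eq_mul]
      exact hμ.symm

/-- Two points of `C₂` at height `y` whose translates by a common shift lie in `C₁`, and which
bound the slice of `S` at height `y`: the end points of the slice if it is nonempty, and a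
given fallback point otherwise. -/
theorem anchor_pair {S C₁ C₂ : Set (ℝ × ℝ)} (hSc : IsCompact S) {s₀ : ℝ}
    (hS : ∀ x ∈ S, x ∈ C₂ ∧ (x.1 + s₀, x.2) ∈ C₁) {y z s' : ℝ}
    (hz₂ : (z, y) ∈ C₂) (hz₁ : (z + s', y) ∈ C₁) :
    ∃ x₁ x₂ s : ℝ, x₁ ≤ x₂ ∧ (x₁, y) ∈ C₂ ∧ (x₂, y) ∈ C₂ ∧ (x₁ + s, y) ∈ C₁ ∧
      (x₂ + s, y) ∈ C₁ ∧ volume (hslice S y) ≤ ENNReal.ofReal (x₂ - x₁) ∧ (s = s₀ ∨ s = s') := by
  by_cases hne : (hslice S y).Nonempty
  · have hc := hslice_isCompact hSc y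
    have m1 : (sInf (hslice S y), y) ∈ S := hc.sInf_mem hne
    have m2 : (sSup (hslice S y), y) ∈ S := hc.sSup_mem hne
    refine ⟨sInf (hslice S y), sSup (hslice S y), s₀, ?_, (hS _ m1).1, (hS _ m2).1, (hS _ m1).2,
      (hS _ m2).2, ?_, Or.inl rfl⟩
    · exact le_csSup hc.bddAbove (hc.sInf_mem hne)
    · rw [← Real.volume_Icc]
      exact measure_mono fun x hx => ⟨csInf_le hc.bddBelow hx, le_csSup hc.bddAbove hx⟩
  · refine ⟨z, z, s', le_rfl, hz₂, hz₂, hz₁, hz₁, ?_, Or.inr rfl⟩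
    rw [Set.not_nonempty_iff_eq_empty.mp hne, measure_empty]
    exact zero_le

/-- The band between two affine functions over the unit interval. -/
def band (a₀ a₁ b₀ b₁ : ℝ) : Set (ℝ × ℝ) :=
  {P | P.1 ∈ Icc (0 : ℝ) 1 ∧ (1 - P.1) * a₀ + P.1 * a₁ ≤ P.2 ∧
    P.2 ≤ (1 - P.1) * b₀ + P.1 * b₁}

theorem isClosed_band (a₀ a₁ b₀ b₁ : ℝ) : IsClosed (band a₀ a₁ b₀ b₁) := by
  have h1 : IsClosed {P : ℝ × ℝ | P.1 ∈ Icc (0 : ℝ) 1} := isClosed_Icc.preimage continuous_fst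
  have h2 : IsClosed {P : ℝ × ℝ | (1 - P.1) * a₀ + P.1 * a₁ ≤ P.2} :=
    isClosed_le (by fun_prop) (by fun_prop)
  have h3 : IsClosed {P : ℝ × ℝ | P.2 ≤ (1 - P.1) * b₀ + P.1 * b₁} :=
    isClosed_le (by fun_prop) (by fun_prop)
  exact h1.inter (h2.inter h3)

theorem lintegral_affine_ge (a b : ℝ) :
    ENNReal.ofReal ((a + b) / 2) ≤
      ∫⁻ θ in Icc (0 : ℝ) 1, ENNReal.ofReal ((1 - θ) * a + θ * b) := by
  have hcont : Continuous fun θ : ℝ => (1 - θ) * a + θ * b := by fun_prop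
  have hcont' : Continuous fun θ : ℝ => max ((1 - θ) * a + θ * b) 0 := by fun_prop
  have hint : IntegrableOn (fun θ : ℝ => (1 - θ) * a + θ * b) (Icc (0 : ℝ) 1) :=
    hcont.continuousOn.integrableOn_Icc
  have hint' : IntegrableOn (fun θ : ℝ => max ((1 - θ) * a + θ * b) 0) (Icc (0 : ℝ) 1) :=
    hcont'.continuousOn.integrableOn_Icc
  have e1 : ∫⁻ θ in Icc (0 : ℝ) 1, ENNReal.ofReal ((1 - θ) * a + θ * b) =
      ∫⁻ θ in Icc (0 : ℝ) 1, ENNReal.ofReal (max ((1 - θ) * a + θ * b) 0) := by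
    refine lintegral_congr fun θ => ?_
    rcases le_total ((1 - θ) * a + θ * b) 0 with h | h
    · rw [max_eq_right h, ENNReal.ofReal_of_nonpos h, ENNReal.ofReal_zero]
    · rw [max_eq_left h]
  rw [e1, ← ofReal_integral_eq_lintegral_ofReal hint'
    (Filter.Eventually.of_forall fun θ => le_max_right _ _)]
  refine ENNReal.ofReal_le_ofReal ?_
  have e2 : ∫ θ in Icc (0 : ℝ) 1, ((1 - θ) * a + θ * b) = (a + b) / 2 := by
    rw [integral_Icc_eq_integral_Ioc, ← intervalIntegral.integral_of_le zero_le_one]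
    have hderiv : ∀ θ ∈ uIcc (0 : ℝ) 1,
        HasDerivAt (fun θ : ℝ => a * θ + (b - a) * θ ^ 2 / 2) ((1 - θ) * a + θ * b) θ := by
      intro θ _
      have h1 : HasDerivAt (fun θ : ℝ => a * θ) (a * 1) θ := (hasDerivAt_id θ).const_mul a
      have h2 : HasDerivAt (fun θ : ℝ => (b - a) * θ ^ 2 / 2)
          ((b - a) * ((2 : ℕ) * θ ^ (2 - 1)) / 2) θ :=
        ((hasDerivAt_pow 2 θ).const_mul (b - a)).div_const 2
      exact (h1.add h2).congr_deriv (by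
        simp only [Nat.cast_ofNat]
        rw [show (2 - 1 : ℕ) = 1 from rfl]
        ring)
    rw [intervalIntegral.integral_eq_sub_of_hasDerivAt hderiv (hcont.intervalIntegrable _ _)]
    ring
  rw [← e2]
  exact integral_mono hint hint' (fun θ => le_max_left _ _)

theorem volume_band_ge (a₀ a₁ b₀ b₁ : ℝ) :
    ENNReal.ofReal (((b₀ - a₀) + (b₁ - a₁)) / 2) ≤ volume (band a₀ a₁ b₀ b₁) := by
  have hm : MeasurableSet (band a₀ a₁ b₀ b₁) := (isClosed_band _ _ _ _).measurableSet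
  have hprod : volume (band a₀ a₁ b₀ b₁) = ∫⁻ θ, volume (Prod.mk θ ⁻¹' band a₀ a₁ b₀ b₁) := by
    rw [Measure.volume_eq_prod]
    exact Measure.prod_apply hm
  rw [hprod]
  calc ENNReal.ofReal (((b₀ - a₀) + (b₁ - a₁)) / 2)
      ≤ ∫⁻ θ in Icc (0 : ℝ) 1, ENNReal.ofReal ((1 - θ) * (b₀ - a₀) + θ * (b₁ - a₁)) :=
        lintegral_affine_ge _ _
    _ = ∫⁻ θ in Icc (0 : ℝ) 1, volume (Prod.mk θ ⁻¹' band a₀ a₁ b₀ b₁) := by
        refine setLIntegral_congr_fun measurableSet_Icc ?_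
        intro θ hθ
        have e : Prod.mk θ ⁻¹' band a₀ a₁ b₀ b₁ =
            Icc ((1 - θ) * a₀ + θ * a₁) ((1 - θ) * b₀ + θ * b₁) := by
          ext y
          simp only [band, mem_preimage, Set.mem_ofPred_eq, mem_Icc]
          constructor
          · rintro ⟨_, h1, h2⟩
            exact ⟨h1, h2⟩
          · rintro ⟨h1, h2⟩
            exact ⟨hθ, h1, h2⟩
        show ENNReal.ofReal ((1 - θ) * (b₀ - a₀) + θ * (b₁ - a₁)) =
          volume (Prod.mk θ ⁻¹' band a₀ a₁ b₀ b₁)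
        rw [e, Real.volume_Icc]
        congr 1
        ring
    _ ≤ ∫⁻ θ, volume (Prod.mk θ ⁻¹' band a₀ a₁ b₀ b₁) := setLIntegral_le_lintegral _ _

/-- The slice inequality behind `hshift`. -/
theorem slice_ineq {A B C₁ C₂ : Set (ℝ × ℝ)} (hAc : IsCompact A) (hBc : IsCompact B)
    (hC₁ : Convex ℝ C₁) (hC₂ : Convex ℝ C₂) (hA₁ : A ⊆ C₁) (hA₂ : A ⊆ C₂) (hB₂ : B ⊆ C₂)
    {t : ℝ} (ht : 0 ≤ t) (hB₁ : ∀ x ∈ B, (x.1 + t, x.2) ∈ C₁) {p₁ p₂ q₁ q₂ : ℝ × ℝ}
    (hp₁ : p₁ ∈ A) (hp₂ : p₂ ∈ A) (hq₁ : q₁ ∈ B) (hq₂ : q₂ ∈ B) (y : ℝ) :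
    volume (hslice A y) + volume (hslice B y) +
      ENNReal.ofReal t * volume (hslice (band p₂.2 q₂.2 p₁.2 q₁.2) y) ≤
      volume (hslice C₁ y) + volume (hslice C₂ y) := by
  set Θ := hslice (band p₂.2 q₂.2 p₁.2 q₁.2) y with hΘ
  by_cases hne : Θ.Nonempty
  swap
  · rw [Set.not_nonempty_iff_eq_empty.mp hne, measure_empty, mul_zero, add_zero]
    exact add_le_add (measure_mono fun x hx => hA₁ hx) (measure_mono fun x hx => hB₂ hx)
  have hΘcl : IsClosed Θ := (isClosed_band _ _ _ _).preimage (by fun_prop)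
  have hΘsub : Θ ⊆ Icc (0 : ℝ) 1 := fun θ hθ => hθ.1
  have hΘc : IsCompact Θ := isCompact_Icc.of_isClosed_subset hΘcl hΘsub
  have h₁ : sInf Θ ∈ Θ := hΘc.sInf_mem hne
  have h₂ : sSup Θ ∈ Θ := hΘc.sSup_mem hne
  have hΘvol : volume Θ ≤ ENNReal.ofReal (sSup Θ - sInf Θ) := by
    rw [← Real.volume_Icc]
    exact measure_mono fun θ hθ => ⟨csInf_le hΘc.bddBelow hθ, le_csSup hΘc.bddAbove hθ⟩
  have hle12 : sInf Θ ≤ sSup Θ := le_csSup hΘc.bddAbove h₁
  set θ₁ := sInf Θ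
  set θ₂ := sSup Θ
  have h₁0 : 0 ≤ θ₁ := h₁.1.1
  have h₂1 : θ₂ ≤ 1 := h₂.1.2
  obtain ⟨Z₁, hZ₁2, hZ₁1⟩ := anchor hC₁ hC₂ ⟨hA₁ hp₁, hA₂ hp₁⟩ ⟨hA₁ hp₂, hA₂ hp₂⟩ (hB₂ hq₁)
    (hB₂ hq₂) (hB₁ q₁ hq₁) (hB₁ q₂ hq₂) h₁.1.1 h₁.1.2 h₁.2.1 h₁.2.2
  obtain ⟨Z₂, hZ₂2, hZ₂1⟩ := anchor hC₁ hC₂ ⟨hA₁ hp₁, hA₂ hp₁⟩ ⟨hA₁ hp₂, hA₂ hp₂⟩ (hB₂ hq₁)
    (hB₂ hq₂) (hB₁ q₁ hq₁) (hB₁ q₂ hq₂) h₂.1.1 h₂.1.2 h₂.2.1 h₂.2.2
  obtain ⟨a₁, a₂, sa, ha12, ha₁2, ha₂2, ha₁1, ha₂1, hvolA, hsa⟩ :=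
    anchor_pair hAc (s₀ := 0) (C₁ := C₁) (C₂ := C₂)
      (fun x hx => ⟨hA₂ hx, by simpa using hA₁ hx⟩) hZ₁2 hZ₁1
  obtain ⟨b₁, b₂, sb, hb12, hb₁2, hb₂2, hb₁1, hb₂1, hvolB, hsb⟩ :=
    anchor_pair hBc (s₀ := t) (C₁ := C₁) (C₂ := C₂) (fun x hx => ⟨hB₂ hx, hB₁ x hx⟩) hZ₂2 hZ₂1
  have hsa' : sa ≤ t * θ₁ := by
    rcases hsa with h | h
    · rw [h]
      exact mul_nonneg ht h₁0
    · rw [h]
  have hsb' : t * θ₂ ≤ sb := by
    rcases hsb with h | h
    · rw [h]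
      nlinarith
    · rw [h]
  have hc₁ := ofReal_sub_le_hslice hC₁ ha₁1 hb₂1
  have hc₂ := ofReal_sub_le_hslice hC₂ hb₁2 ha₂2
  calc volume (hslice A y) + volume (hslice B y) + ENNReal.ofReal t * volume Θ
      ≤ ENNReal.ofReal (a₂ - a₁) + ENNReal.ofReal (b₂ - b₁) +
          ENNReal.ofReal t * ENNReal.ofReal (θ₂ - θ₁) := by gcongr
    _ = ENNReal.ofReal ((a₂ - a₁) + (b₂ - b₁) + t * (θ₂ - θ₁)) := by
        rw [← ENNReal.ofReal_mul ht, ← ENNReal.ofReal_add (by linarith) (by linarith),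
          ← ENNReal.ofReal_add (by linarith) (mul_nonneg ht (by linarith))]
    _ ≤ ENNReal.ofReal (((b₂ + sb) - (a₁ + sa)) + (a₂ - b₁)) :=
        ENNReal.ofReal_le_ofReal (by nlinarith)
    _ ≤ ENNReal.ofReal ((b₂ + sb) - (a₁ + sa)) + ENNReal.ofReal (a₂ - b₁) :=
        ENNReal.ofReal_add_le
    _ ≤ _ := add_le_add hc₁ hc₂

/-- **The horizontal shift lemma.**  Let `C₁`, `C₂` be closed convex sets of the plane which
both contain `A`; let `C₂` contain `B` and `C₁` contain the translate of `B` by `(t, 0)`,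
`t ≥ 0`.  Then the areas of `C₁` and `C₂` add up to at least the areas of `A` and `B` plus
`t / 2` times the sum of the height differences of any two points of `A` and any two points
of `B`. -/
theorem hshift {A B C₁ C₂ : Set (ℝ × ℝ)} (hAc : IsCompact A) (hBc : IsCompact B)
    (hC₁ : Convex ℝ C₁) (hC₂ : Convex ℝ C₂) (hC₁cl : IsClosed C₁) (hC₂cl : IsClosed C₂)
    (hA₁ : A ⊆ C₁) (hA₂ : A ⊆ C₂) (hB₂ : B ⊆ C₂)
    {t : ℝ} (ht : 0 ≤ t) (hB₁ : ∀ x ∈ B, (x.1 + t, x.2) ∈ C₁) {p₁ p₂ q₁ q₂ : ℝ × ℝ}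
    (hp₁ : p₁ ∈ A) (hp₂ : p₂ ∈ A) (hq₁ : q₁ ∈ B) (hq₂ : q₂ ∈ B) :
    volume A + volume B + ENNReal.ofReal (t * (((p₁.2 - p₂.2) + (q₁.2 - q₂.2)) / 2)) ≤
      volume C₁ + volume C₂ := by
  set Ω := band p₂.2 q₂.2 p₁.2 q₁.2 with hΩ
  have hΩm : MeasurableSet Ω := (isClosed_band _ _ _ _).measurableSet
  have hAm : MeasurableSet A := hAc.isClosed.measurableSet
  have hBm : MeasurableSet B := hBc.isClosed.measurableSet
  have hC₁m : MeasurableSet C₁ := hC₁cl.measurableSet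
  have hC₂m : MeasurableSet C₂ := hC₂cl.measurableSet
  have hΩvol : ENNReal.ofReal (((p₁.2 - p₂.2) + (q₁.2 - q₂.2)) / 2) ≤ volume Ω :=
    volume_band_ge _ _ _ _
  have hmain : volume A + volume B + ENNReal.ofReal t * volume Ω ≤ volume C₁ + volume C₂ := by
    rw [volume_eq_lintegral_hslice hAm, volume_eq_lintegral_hslice hBm,
      volume_eq_lintegral_hslice hΩm, volume_eq_lintegral_hslice hC₁m,
      volume_eq_lintegral_hslice hC₂m, ← lintegral_const_mul _ (measurable_volume_hslice hΩm),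
      ← lintegral_add_left (measurable_volume_hslice hAm),
      ← lintegral_add_left (show Measurable fun y => volume (hslice A y) + volume (hslice B y)
        from (measurable_volume_hslice hAm).add (measurable_volume_hslice hBm)),
      ← lintegral_add_left (measurable_volume_hslice hC₁m)]
    exact lintegral_mono fun y =>
      slice_ineq hAc hBc hC₁ hC₂ hA₁ hA₂ hB₂ ht hB₁ hp₁ hp₂ hq₁ hq₂ y
  refine le_trans ?_ hmain
  rw [ENNReal.ofReal_mul ht]
  gcongr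

/-- The closure of a planar convex set has the same area as the set. -/
theorem volume_closure_convex {S : Set (ℝ × ℝ)} (hS : Convex ℝ S) :
    volume (closure S) = volume S := by
  refine le_antisymm ?_ (measure_mono subset_closure)
  rw [closure_eq_self_union_frontier]
  refine (measure_union_le _ _).trans ?_
  rw [hS.addHaar_frontier volume, add_zero]

/-- **The shift inequality.**  Let `C` and `C'` be bounded convex sets of the plane which both
contain `A`; let `C` contain the translate `B + w` and `C'` the translate `B + w'`.  Then the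
areas of `C` and `C'` add up to at least the areas of `A` and `B` plus half the cross product
of `w' - w` with the difference of the two points `p₁ + q₁` and `p₂ + q₂` of `A + B`. -/
theorem shift_general {A B C C' : Set (ℝ × ℝ)} (hAc : IsCompact A) (hBc : IsCompact B)
    (hC : Convex ℝ C) (hC' : Convex ℝ C') (hCb : Bornology.IsBounded C)
    (hCb' : Bornology.IsBounded C') (hAC : A ⊆ C) (hAC' : A ⊆ C') {w w' : ℝ × ℝ}
    (hBC : ∀ x ∈ B, x + w ∈ C) (hBC' : ∀ x ∈ B, x + w' ∈ C') {p₁ p₂ q₁ q₂ : ℝ × ℝ}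
    (hp₁ : p₁ ∈ A) (hp₂ : p₂ ∈ A) (hq₁ : q₁ ∈ B) (hq₂ : q₂ ∈ B) :
    volume A + volume B + ENNReal.ofReal (((w'.1 - w.1) * ((p₁.2 + q₁.2) - (p₂.2 + q₂.2)) -
      (w'.2 - w.2) * ((p₁.1 + q₁.1) - (p₂.1 + q₂.1))) / 2) ≤ volume C + volume C' := by
  set d : ℝ × ℝ := w' - w with hd
  have hd1 : d.1 = w'.1 - w.1 := rfl
  have hd2 : d.2 = w'.2 - w.2 := rfl
  rw [← hd1, ← hd2]
  set N := d.1 ^ 2 + d.2 ^ 2 with hN
  have hBw' : volume B ≤ volume C' := by
    have hsub : B ⊆ (fun x => x + w') ⁻¹' C' := fun x hx => hBC' x hx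
    calc volume B ≤ volume ((fun x => x + w') ⁻¹' C') := measure_mono hsub
      _ = volume C' := measure_preimage_add_right _ _ _
  by_cases hN0 : N = 0
  · have h1 : d.1 = 0 := by nlinarith [sq_nonneg d.1, sq_nonneg d.2]
    have h2 : d.2 = 0 := by nlinarith [sq_nonneg d.1, sq_nonneg d.2]
    rw [h1, h2]
    simp only [zero_mul, sub_zero, zero_div, ENNReal.ofReal_zero, add_zero]
    exact add_le_add (measure_mono hAC) hBw'
  have hNpos : 0 < N := lt_of_le_of_ne (by positivity) (Ne.symm hN0)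
  set L := lin2 (d.1 / N) (d.2 / N) (-d.2) d.1 with hL
  have hdet : |d.1 / N * d.1 - d.2 / N * -d.2| = 1 := by
    have : d.1 / N * d.1 - d.2 / N * -d.2 = 1 := by
      field_simp
      rw [hN]
      ring
    rw [this, abs_one]
  have hvol : ∀ P : Set (ℝ × ℝ), volume (L '' P) = volume P := by
    intro P
    rw [hL, volume_image_lin2, hdet, ENNReal.ofReal_one, one_mul]
  have hLd : L d = (1, 0) := by
    rw [hL, lin2_apply]
    refine Prod.ext ?_ ?_
    · show d.1 / N * d.1 + d.2 / N * d.2 = 1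
      field_simp
      rw [hN]
    · show -d.2 * d.1 + d.1 * d.2 = 0
      ring
  have hL2 : ∀ x : ℝ × ℝ, (L x).2 = -d.2 * x.1 + d.1 * x.2 := fun x => by
    rw [hL, lin2_apply]
  have hLcont : Continuous L := LinearMap.continuous_of_finiteDimensional L
  have hA'c : IsCompact (L '' A) := hAc.image hLcont
  have hB'c : IsCompact ((fun x => L (x + w)) '' B) :=
    hBc.image (hLcont.comp (continuous_id.add continuous_const))
  have hC₂c : IsCompact (L '' closure C) := hCb.isCompact_closure.image hLcont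
  have hC₁c : IsCompact (L '' closure C') := hCb'.isCompact_closure.image hLcont
  have key := hshift hA'c hB'c (hC'.closure.linear_image L) (hC.closure.linear_image L)
    hC₁c.isClosed hC₂c.isClosed (image_mono (hAC'.trans subset_closure))
    (image_mono (hAC.trans subset_closure))
    (by
      rintro _ ⟨x, hx, rfl⟩
      exact mem_image_of_mem L (subset_closure (hBC x hx)))
    zero_le_one
    (by
      rintro _ ⟨x, hx, rfl⟩
      refine ⟨x + w', subset_closure (hBC' x hx), ?_⟩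
      have e : x + w' = (x + w) + d := by
        rw [hd]
        abel
      rw [e, map_add, hLd]
      refine Prod.ext ?_ ?_ <;> simp)
    (mem_image_of_mem L hp₁) (mem_image_of_mem L hp₂)
    (mem_image_of_mem (fun x => L (x + w)) hq₁) (mem_image_of_mem (fun x => L (x + w)) hq₂)
  have hB'vol : volume ((fun x => L (x + w)) '' B) = volume B := by
    have e : (fun x => L (x + w)) '' B = L '' ((fun x => x + w) '' B) := by rw [image_image]
    rw [e, hvol, image_add_right, measure_preimage_add_right]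
  rw [hvol A, hB'vol, hvol (closure C'), hvol (closure C), volume_closure_convex hC',
    volume_closure_convex hC, add_comm (volume C'), hL2, hL2, hL2, hL2] at key
  refine le_trans (le_of_eq ?_) key
  congr 2
  simp only [Prod.fst_add, Prod.snd_add]
  ring

end Vale.Agent.Lib.P237
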