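import Vale.Agent.Lib.P237.Transport
import Vale.Agent.Lib.P237.Shift

/-!
# P237: the right boundary of a planar compact convex set and of a Minkowski sum

`rb M η` is the largest abscissa of the horizontal slice of `M` at height `η`.  For compact
convex `X`, `Y` every point `(rb (X + Y) η, η)` is a sum `p + q` with `p ∈ X`, `q ∈ Y`; taking
the smallest possible height of `p` gives a decomposition `η = u η + v η` in which both `u`
and `v` are nondecreasing (exchange argument).  Transport along this monotone curve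
(`Lib/P237/Transport.lean`) compares the integral of the right boundary of `l X + m Y` with
the integrals for `X`, `Y` and `X + Y`.
-/

namespace Vale.Agent.Lib.P237

open MeasureTheory Set Filter Topology Vale.Agent.Lib.P243
open scoped ENNReal NNReal Pointwise

/-- The right boundary function of a planar set. -/
noncomputable def rb (M : Set (ℝ × ℝ)) (η : ℝ) : ℝ := sSup (hslice M η)

theorem rb_mem {M : Set (ℝ × ℝ)} (hMc : IsCompact M) {η : ℝ} (hη : η ∈ Prod.snd '' M) :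
    (rb M η, η) ∈ M :=
  (hslice_isCompact hMc η).sSup_mem (hslice_nonempty_iff.mpr hη)

theorem le_rb {M : Set (ℝ × ℝ)} (hMc : IsCompact M) {x η : ℝ} (h : (x, η) ∈ M) :
    x ≤ rb M η :=
  le_csSup (hslice_isCompact hMc η).bddAbove h

theorem rb_eq_zero {M : Set (ℝ × ℝ)} {η : ℝ} (hη : η ∉ Prod.snd '' M) : rb M η = 0 := by
  have : hslice M η = ∅ :=
    Set.not_nonempty_iff_eq_empty.mp (fun h => hη (hslice_nonempty_iff.mp h))
  rw [rb, this, Real.sSup_empty]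

theorem measurable_rb {M : Set (ℝ × ℝ)} (hMc : IsCompact M) : Measurable (rb M) := by
  refine measurable_of_Ici fun a => ?_
  have hI : MeasurableSet (Prod.snd '' M) := (hMc.image continuous_snd).measurableSet
  have hJ : MeasurableSet (Prod.snd '' (M ∩ {p : ℝ × ℝ | a ≤ p.1})) :=
    ((hMc.inter_right (isClosed_le continuous_const continuous_fst)).image
      continuous_snd).measurableSet
  have key : ∀ η, η ∈ Prod.snd '' M →
      (a ≤ rb M η ↔ η ∈ Prod.snd '' (M ∩ {p : ℝ × ℝ | a ≤ p.1})) := by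
    intro η hη
    constructor
    · intro h
      exact ⟨(rb M η, η), ⟨rb_mem hMc hη, h⟩, rfl⟩
    · rintro ⟨⟨x, t⟩, ⟨hp, hx⟩, rfl⟩
      exact le_trans hx (le_rb hMc hp)
  by_cases ha : a ≤ 0
  · have e : rb M ⁻¹' Ici a = Prod.snd '' (M ∩ {p : ℝ × ℝ | a ≤ p.1}) ∪ (Prod.snd '' M)ᶜ := by
      ext η
      simp only [mem_preimage, mem_Ici, mem_union, mem_compl_iff]
      by_cases hη : η ∈ Prod.snd '' M
      · rw [key η hη]
        tauto
      · rw [rb_eq_zero hη]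
        tauto
    rw [e]
    exact hJ.union hI.compl
  · have e : rb M ⁻¹' Ici a = Prod.snd '' (M ∩ {p : ℝ × ℝ | a ≤ p.1}) := by
      ext η
      simp only [mem_preimage, mem_Ici]
      by_cases hη : η ∈ Prod.snd '' M
      · exact key η hη
      · rw [rb_eq_zero hη]
        constructor
        · intro h
          exact absurd h ha
        · rintro ⟨p, ⟨hp, _⟩, rfl⟩
          exact absurd ⟨p, hp, rfl⟩ hη
    rw [e]
    exact hJ

/-- The heights `t` at which a point of `X` can be placed so that, with a point of `Y`, it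
sums to the right boundary point of `X + Y` at height `η`. -/
def optSet (X Y : Set (ℝ × ℝ)) (η : ℝ) : Set ℝ :=
  {t | ∃ p ∈ X, ∃ q ∈ Y, p.2 = t ∧ p + q = (rb (X + Y) η, η)}

theorem isCompact_optSet {X Y : Set (ℝ × ℝ)} (hXc : IsCompact X) (hYc : IsCompact Y) (η : ℝ) :
    IsCompact (optSet X Y η) := by
  have h1 : IsCompact ((X ×ˢ Y) ∩ (fun w : (ℝ × ℝ) × (ℝ × ℝ) => w.1 + w.2) ⁻¹'
      {(rb (X + Y) η, η)}) :=
    (hXc.prod hYc).inter_right (isClosed_singleton.preimage (by fun_prop))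
  have e : optSet X Y η = (fun w : (ℝ × ℝ) × (ℝ × ℝ) => w.1.2) ''
      ((X ×ˢ Y) ∩ (fun w : (ℝ × ℝ) × (ℝ × ℝ) => w.1 + w.2) ⁻¹' {(rb (X + Y) η, η)}) := by
    ext t
    constructor
    · rintro ⟨p, hp, q, hq, rfl, hpq⟩
      exact ⟨(p, q), ⟨⟨hp, hq⟩, hpq⟩, rfl⟩
    · rintro ⟨⟨p, q⟩, ⟨⟨hp, hq⟩, hpq⟩, rfl⟩
      exact ⟨p, hp, q, hq, rfl, hpq⟩
  rw [e]
  exact h1.image (by fun_prop)

theorem optSet_nonempty {X Y : Set (ℝ × ℝ)} (hXc : IsCompact X) (hYc : IsCompact Y) {η : ℝ}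
    (hη : η ∈ Prod.snd '' (X + Y)) : (optSet X Y η).Nonempty := by
  have h := rb_mem (hXc.add hYc) hη
  obtain ⟨p, hp, q, hq, hpq⟩ := Set.mem_add.mp h
  exact ⟨p.2, p, hp, q, hq, rfl, hpq⟩

/-- The smallest admissible height. -/
noncomputable def usel (X Y : Set (ℝ × ℝ)) (η : ℝ) : ℝ := sInf (optSet X Y η)

theorem usel_mem {X Y : Set (ℝ × ℝ)} (hXc : IsCompact X) (hYc : IsCompact Y) {η : ℝ}
    (hη : η ∈ Prod.snd '' (X + Y)) : usel X Y η ∈ optSet X Y η :=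
  (isCompact_optSet hXc hYc η).sInf_mem (optSet_nonempty hXc hYc hη)

theorem usel_le {X Y : Set (ℝ × ℝ)} (hXc : IsCompact X) (hYc : IsCompact Y) {η t : ℝ}
    (ht : t ∈ optSet X Y η) : usel X Y η ≤ t :=
  csInf_le (isCompact_optSet hXc hYc η).bddBelow ht

theorem exists_affine {a b c : ℝ} (h : c ∈ uIcc a b) :
    ∃ θ : ℝ, 0 ≤ θ ∧ θ ≤ 1 ∧ c = (1 - θ) * a + θ * b := by
  rcases le_total a b with hab | hab
  · rw [uIcc_of_le hab] at h
    obtain ⟨μ, h0, h1, hμ⟩ := exists_interp h.1 h.2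
    exact ⟨μ, h0, h1, hμ.symm⟩
  · rw [uIcc_of_ge hab] at h
    obtain ⟨μ, h0, h1, hμ⟩ := exists_interp h.1 h.2
    exact ⟨1 - μ, by linarith, by linarith, by rw [← hμ]; ring⟩

/-- The exchange lemma: two optimal decompositions can be recombined. -/
theorem exchange {X Y : Set (ℝ × ℝ)} (hX : Convex ℝ X) (hY : Convex ℝ Y) (hXc : IsCompact X)
    (hYc : IsCompact Y) {η₁ η₂ t₁ t₂ t₃ : ℝ} (h₁ : t₁ ∈ optSet X Y η₁)
    (h₂ : t₂ ∈ optSet X Y η₂) (ht : t₃ ∈ uIcc t₁ t₂)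
    (hs : η₁ - t₃ ∈ uIcc (η₁ - t₁) (η₂ - t₂)) :
    t₃ ∈ optSet X Y η₁ ∧ t₁ + t₂ - t₃ ∈ optSet X Y η₂ := by
  obtain ⟨p₁, hp₁, q₁, hq₁, hpt₁, hpq₁⟩ := h₁
  obtain ⟨p₂, hp₂, q₂, hq₂, hpt₂, hpq₂⟩ := h₂
  obtain ⟨θ, hθ0, hθ1, hθ⟩ := exists_affine ht
  obtain ⟨φ, hφ0, hφ1, hφ⟩ := exists_affine hs
  have hWc : IsCompact (X + Y) := hXc.add hYc
  have e1a := congrArg Prod.fst hpq₁
  have e1b := congrArg Prod.snd hpq₁
  have e2a := congrArg Prod.fst hpq₂
  have e2b := congrArg Prod.snd hpq₂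
  simp only [Prod.fst_add, Prod.snd_add] at e1a e1b e2a e2b
  have hq1 : q₁.2 = η₁ - t₁ := by linarith
  have hq2 : q₂.2 = η₂ - t₂ := by linarith
  obtain ⟨p₃, hp₃⟩ : ∃ p₃ : ℝ × ℝ, p₃ = (1 - θ) • p₁ + θ • p₂ := ⟨_, rfl⟩
  obtain ⟨p₄, hp₄⟩ : ∃ p₄ : ℝ × ℝ, p₄ = θ • p₁ + (1 - θ) • p₂ := ⟨_, rfl⟩
  obtain ⟨q₃, hq₃⟩ : ∃ q₃ : ℝ × ℝ, q₃ = (1 - φ) • q₁ + φ • q₂ := ⟨_, rfl⟩
  obtain ⟨q₄, hq₄⟩ : ∃ q₄ : ℝ × ℝ, q₄ = φ • q₁ + (1 - φ) • q₂ := ⟨_, rfl⟩
  have hp₃X : p₃ ∈ X := hp₃ ▸ hX hp₁ hp₂ (by linarith) hθ0 (by ring)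
  have hp₄X : p₄ ∈ X := hp₄ ▸ hX hp₁ hp₂ hθ0 (by linarith) (by ring)
  have hq₃Y : q₃ ∈ Y := hq₃ ▸ hY hq₁ hq₂ (by linarith) hφ0 (by ring)
  have hq₄Y : q₄ ∈ Y := hq₄ ▸ hY hq₁ hq₂ hφ0 (by linarith) (by ring)
  have hp₃1 : p₃.1 = (1 - θ) * p₁.1 + θ * p₂.1 := by rw [hp₃]; simp
  have hp₃2 : p₃.2 = (1 - θ) * p₁.2 + θ * p₂.2 := by rw [hp₃]; simp
  have hp₄1 : p₄.1 = θ * p₁.1 + (1 - θ) * p₂.1 := by rw [hp₄]; simp
  have hp₄2 : p₄.2 = θ * p₁.2 + (1 - θ) * p₂.2 := by rw [hp₄]; simp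
  have hq₃1 : q₃.1 = (1 - φ) * q₁.1 + φ * q₂.1 := by rw [hq₃]; simp
  have hq₃2 : q₃.2 = (1 - φ) * q₁.2 + φ * q₂.2 := by rw [hq₃]; simp
  have hq₄1 : q₄.1 = φ * q₁.1 + (1 - φ) * q₂.1 := by rw [hq₄]; simp
  have hq₄2 : q₄.2 = φ * q₁.2 + (1 - φ) * q₂.2 := by rw [hq₄]; simp
  have hp₃t : p₃.2 = t₃ := by rw [hp₃2, hpt₁, hpt₂, hθ]
  have hp₄t : p₄.2 = t₁ + t₂ - t₃ := by rw [hp₄2, hpt₁, hpt₂, hθ]; ring
  have hq₃t : q₃.2 = η₁ - t₃ := by rw [hq₃2, hq1, hq2, hφ]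
  have hq₄t : q₄.2 = η₂ - (t₁ + t₂ - t₃) := by
    rw [hq₄2, hq1, hq2]
    linear_combination hφ
  have hsum3 : ((p₃ + q₃).1, η₁) ∈ X + Y := by
    have e : ((p₃ + q₃).1, η₁) = p₃ + q₃ := by
      refine Prod.ext rfl ?_
      simp only [Prod.snd_add]
      rw [hp₃t, hq₃t]
      ring
    rw [e]
    exact Set.add_mem_add hp₃X hq₃Y
  have hsum4 : ((p₄ + q₄).1, η₂) ∈ X + Y := by
    have e : ((p₄ + q₄).1, η₂) = p₄ + q₄ := by
      refine Prod.ext rfl ?_
      simp only [Prod.snd_add]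
      rw [hp₄t, hq₄t]
      ring
    rw [e]
    exact Set.add_mem_add hp₄X hq₄Y
  have hle3 := le_rb hWc hsum3
  have hle4 := le_rb hWc hsum4
  simp only [Prod.fst_add] at hle3 hle4
  have htot : (p₃.1 + q₃.1) + (p₄.1 + q₄.1) = rb (X + Y) η₁ + rb (X + Y) η₂ := by
    rw [hp₃1, hp₄1, hq₃1, hq₄1]
    linear_combination e1a + e2a
  have heq3 : p₃.1 + q₃.1 = rb (X + Y) η₁ := by linarith
  have heq4 : p₄.1 + q₄.1 = rb (X + Y) η₂ := by linarith
  refine ⟨⟨p₃, hp₃X, q₃, hq₃Y, hp₃t, Prod.ext ?_ ?_⟩, ⟨p₄, hp₄X, q₄, hq₄Y, hp₄t, Prod.ext ?_ ?_⟩⟩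
  · simpa using heq3
  · simp only [Prod.snd_add]
    rw [hp₃t, hq₃t]
    ring
  · simpa using heq4
  · simp only [Prod.snd_add]
    rw [hp₄t, hq₄t]
    ring

section selection

variable {X Y : Set (ℝ × ℝ)} (hX : Convex ℝ X) (hY : Convex ℝ Y) (hXc : IsCompact X)
  (hYc : IsCompact Y)

include hX hY hXc hYc in
theorem usel_mono {η η' : ℝ} (hη : η ∈ Prod.snd '' (X + Y)) (hη' : η' ∈ Prod.snd '' (X + Y))
    (h : η ≤ η') : usel X Y η ≤ usel X Y η' := by
  by_contra hcon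
  push Not at hcon
  have h₁ := usel_mem hXc hYc hη
  have h₂ := usel_mem hXc hYc hη'
  have hs : η - usel X Y η' ∈ uIcc (η - usel X Y η) (η' - usel X Y η') :=
    Set.mem_uIcc_of_le (by linarith) (by linarith)
  have := (exchange hX hY hXc hYc h₁ h₂ right_mem_uIcc hs).1
  have := usel_le hXc hYc this
  linarith

include hX hY hXc hYc in
theorem vsel_mono {η η' : ℝ} (hη : η ∈ Prod.snd '' (X + Y)) (hη' : η' ∈ Prod.snd '' (X + Y))
    (h : η ≤ η') : η - usel X Y η ≤ η' - usel X Y η' := by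
  by_contra hcon
  push Not at hcon
  have h₁ := usel_mem hXc hYc hη
  have h₂ := usel_mem hXc hYc hη'
  have ht : η - (η' - usel X Y η') ∈ uIcc (usel X Y η) (usel X Y η') :=
    Set.mem_uIcc_of_le (by linarith) (by linarith)
  have hs : η - (η - (η' - usel X Y η')) ∈ uIcc (η - usel X Y η) (η' - usel X Y η') := by
    have e : η - (η - (η' - usel X Y η')) = η' - usel X Y η' := by ring
    rw [e]
    exact right_mem_uIcc
  have := (exchange hX hY hXc hYc h₁ h₂ ht hs).2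
  have := usel_le hXc hYc this
  linarith

end selection

/-- Clamping to an interval. -/
noncomputable def clampR (η₀ η₁ x : ℝ) : ℝ := max η₀ (min x η₁)

theorem clampR_mem {η₀ η₁ : ℝ} (h : η₀ ≤ η₁) (x : ℝ) : clampR η₀ η₁ x ∈ Icc η₀ η₁ :=
  ⟨le_max_left _ _, max_le h (min_le_right _ _)⟩

theorem clampR_mono (η₀ η₁ : ℝ) : Monotone (clampR η₀ η₁) := fun _ _ h =>
  max_le_max le_rfl (min_le_min h le_rfl)

theorem clampR_lip (η₀ η₁ : ℝ) {x y : ℝ} (h : x ≤ y) :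
    clampR η₀ η₁ y - clampR η₀ η₁ x ≤ y - x := by
  simp only [clampR, max_def, min_def]
  split_ifs <;> linarith

theorem clampR_of_mem {η₀ η₁ x : ℝ} (hx : x ∈ Icc η₀ η₁) : clampR η₀ η₁ x = x := by
  rw [clampR, min_eq_left hx.2, max_eq_right hx.1]

theorem clampR_of_le {η₀ η₁ x : ℝ} (h : η₀ ≤ η₁) (hx : x ≤ η₀) :
    clampR η₀ η₁ x = clampR η₀ η₁ η₀ := by
  rw [clampR, clampR, min_eq_left (hx.trans h), max_eq_left hx, min_eq_left h, max_self]

theorem clampR_of_ge {η₀ η₁ x : ℝ} (_h : η₀ ≤ η₁) (hx : η₁ ≤ x) :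
    clampR η₀ η₁ x = clampR η₀ η₁ η₁ := by
  rw [clampR, clampR, min_eq_right hx, min_self]

theorem continuous_of_mono_lip {F : ℝ → ℝ} (hm : Monotone F)
    (hl : ∀ x y, x ≤ y → F y - F x ≤ y - x) : Continuous F := by
  have hL : LipschitzWith 1 F := by
    refine LipschitzWith.of_dist_le_mul fun x y => ?_
    rw [Real.dist_eq, Real.dist_eq, NNReal.coe_one, one_mul]
    rcases le_total x y with h | h
    · rw [abs_sub_comm, abs_of_nonneg (sub_nonneg.mpr (hm h)), abs_sub_comm,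
        abs_of_nonneg (sub_nonneg.mpr h)]
      exact hl x y h
    · rw [abs_of_nonneg (sub_nonneg.mpr (hm h)), abs_of_nonneg (sub_nonneg.mpr h)]
      exact hl y x h
  exact hL.continuous

/-- The heights of a Minkowski sum of two sets with interval height ranges. -/
theorem snd_image_add {X Y : Set (ℝ × ℝ)} {x₀ x₁ y₀ y₁ : ℝ} (hIX : Prod.snd '' X = Icc x₀ x₁)
    (hIY : Prod.snd '' Y = Icc y₀ y₁) (hx : x₀ ≤ x₁) (hy : y₀ ≤ y₁) :
    Prod.snd '' (X + Y) = Icc (x₀ + y₀) (x₁ + y₁) := by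
  ext η
  constructor
  · rintro ⟨_, ⟨p, hp, q, hq, rfl⟩, rfl⟩
    have h1 : p.2 ∈ Icc x₀ x₁ := hIX ▸ mem_image_of_mem _ hp
    have h2 : q.2 ∈ Icc y₀ y₁ := hIY ▸ mem_image_of_mem _ hq
    exact ⟨add_le_add h1.1 h2.1, add_le_add h1.2 h2.2⟩
  · intro hη
    have ht : max x₀ (η - y₁) ∈ Prod.snd '' X := by
      rw [hIX]
      exact ⟨le_max_left _ _, max_le hx (by linarith [hη.2])⟩
    have hs : η - max x₀ (η - y₁) ∈ Prod.snd '' Y := by
      rw [hIY]
      constructor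
      · have : max x₀ (η - y₁) ≤ η - y₀ := max_le (by linarith [hη.1]) (by linarith)
        linarith
      · have := le_max_right x₀ (η - y₁)
        linarith
    obtain ⟨p, hp, hp2⟩ := ht
    obtain ⟨q, hq, hq2⟩ := hs
    refine ⟨p + q, Set.add_mem_add hp hq, ?_⟩
    simp only [Prod.snd_add]
    rw [hp2, hq2]
    ring

/-- **Transport of right boundaries.**  There is a number `E` such that the integral of the
(shifted) right boundary of `X + Y` is the sum of those of `X` and `Y` plus `E`, while for all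
`l, m ≥ 0` the integral of the shifted right boundary of any compact set containing
`l X + m Y` is at least `l ^ 2` times that of `X` plus `m ^ 2` times that of `Y` plus
`l m E`. -/
theorem rb_transport {X Y : Set (ℝ × ℝ)} (hX : Convex ℝ X) (hY : Convex ℝ Y)
    (hXc : IsCompact X) (hYc : IsCompact Y) {x₀ x₁ y₀ y₁ : ℝ}
    (hIX : Prod.snd '' X = Icc x₀ x₁) (hIY : Prod.snd '' Y = Icc y₀ y₁) (hx : x₀ ≤ x₁)
    (hy : y₀ ≤ y₁) {cX cY : ℝ} (hcX : ∀ p ∈ X, 0 ≤ p.1 + cX) (hcY : ∀ q ∈ Y, 0 ≤ q.1 + cY) :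
    ∃ E : ℝ≥0∞,
      (∫⁻ η in Icc (x₀ + y₀) (x₁ + y₁), ENNReal.ofReal (rb (X + Y) η + (cX + cY))) =
        (∫⁻ t in Icc x₀ x₁, ENNReal.ofReal (rb X t + cX)) +
          (∫⁻ t in Icc y₀ y₁, ENNReal.ofReal (rb Y t + cY)) + E ∧
      ∀ (l m : ℝ≥0) (Z : Set (ℝ × ℝ)), IsCompact Z →
        (∀ p ∈ X, ∀ q ∈ Y, (l : ℝ) • p + (m : ℝ) • q ∈ Z) →
        (l : ℝ≥0∞) ^ 2 * (∫⁻ t in Icc x₀ x₁, ENNReal.ofReal (rb X t + cX)) +
            (m : ℝ≥0∞) ^ 2 * (∫⁻ t in Icc y₀ y₁, ENNReal.ofReal (rb Y t + cY)) + l * m * E ≤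
          ∫⁻ ζ in Icc (l * x₀ + m * y₀) (l * x₁ + m * y₁),
            ENNReal.ofReal (rb Z ζ + (l * cX + m * cY)) := by
  have hIW := snd_image_add hIX hIY hx hy
  set η₀ := x₀ + y₀ with hη₀
  set η₁ := x₁ + y₁ with hη₁
  have h01 : η₀ ≤ η₁ := add_le_add hx hy
  have hWc : IsCompact (X + Y) := hXc.add hYc
  have hcl : ∀ x, clampR η₀ η₁ x ∈ Prod.snd '' (X + Y) := fun x => by
    rw [hIW]
    exact clampR_mem h01 x
  -- the two monotone functions
  set uc : ℝ → ℝ := fun x => usel X Y (clampR η₀ η₁ x) with huc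
  set vc : ℝ → ℝ := fun x => clampR η₀ η₁ x - usel X Y (clampR η₀ η₁ x) with hvc
  have hum : Monotone uc := fun x y h =>
    usel_mono hX hY hXc hYc (hcl x) (hcl y) (clampR_mono η₀ η₁ h)
  have hvm : Monotone vc := fun x y h =>
    vsel_mono hX hY hXc hYc (hcl x) (hcl y) (clampR_mono η₀ η₁ h)
  have hul : ∀ x y, x ≤ y → uc y - uc x ≤ y - x := fun x y h => by
    have h1 := hvm h
    have h2 := clampR_lip η₀ η₁ h
    simp only [huc, hvc] at h1 ⊢
    linarith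
  have hvl : ∀ x y, x ≤ y → vc y - vc x ≤ y - x := fun x y h => by
    have h1 := hum h
    have h2 := clampR_lip η₀ η₁ h
    simp only [huc, hvc] at h1 ⊢
    linarith
  have hucont : Continuous uc := continuous_of_mono_lip hum hul
  have hvcont : Continuous vc := continuous_of_mono_lip hvm hvl
  set u : StieltjesFunction ℝ := ⟨uc, hum, fun _ => hucont.continuousWithinAt⟩ with hu
  set v : StieltjesFunction ℝ := ⟨vc, hvm, fun _ => hvcont.continuousWithinAt⟩ with hv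
  have hux : ∀ x, u x = usel X Y (clampR η₀ η₁ x) := fun x => rfl
  have hvx : ∀ x, v x = clampR η₀ η₁ x - usel X Y (clampR η₀ η₁ x) := fun x => rfl
  have hsum : ∀ x, u x + v x = max η₀ (min x η₁) := fun x => by
    rw [hux, hvx]
    simp only [clampR]
    ring
  have hulo : ∀ x, x ≤ η₀ → u x = u η₀ := fun x hx => by
    rw [hux, hux, clampR_of_le h01 hx]
  have huhi : ∀ x, η₁ ≤ x → u x = u η₁ := fun x hx => by
    rw [hux, hux, clampR_of_ge h01 hx]
  have hvlo : ∀ x, x ≤ η₀ → v x = v η₀ := fun x hx => by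
    rw [hvx, hvx, clampR_of_le h01 hx]
  have hvhi : ∀ x, η₁ ≤ x → v x = v η₁ := fun x hx => by
    rw [hvx, hvx, clampR_of_ge h01 hx]
  -- structure of the optimal decompositions
  have hdec : ∀ x, u x ∈ Icc x₀ x₁ ∧ v x ∈ Icc y₀ y₁ ∧
      rb X (u x) + rb Y (v x) = rb (X + Y) (clampR η₀ η₁ x) ∧
      0 ≤ rb X (u x) + cX ∧ 0 ≤ rb Y (v x) + cY := by
    intro x
    obtain ⟨p, hp, q, hq, hpt, hpq⟩ := usel_mem hXc hYc (hcl x)
    have ea := congrArg Prod.fst hpq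
    have eb := congrArg Prod.snd hpq
    simp only [Prod.fst_add, Prod.snd_add] at ea eb
    have hpu : p.2 = u x := by rw [hux]; exact hpt
    have hqv : q.2 = v x := by rw [hvx, ← hpt]; linarith
    have hp2 : p.2 ∈ Prod.snd '' X := mem_image_of_mem _ hp
    have hq2 : q.2 ∈ Prod.snd '' Y := mem_image_of_mem _ hq
    have h1 : p.1 ≤ rb X p.2 := le_rb hXc hp
    have h2 : q.1 ≤ rb Y q.2 := le_rb hYc hq
    have h3 : rb X p.2 + rb Y q.2 ≤ rb (X + Y) (clampR η₀ η₁ x) := by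
      have hmem : ((rb X p.2, p.2) : ℝ × ℝ) + (rb Y q.2, q.2) ∈ X + Y :=
        Set.add_mem_add (rb_mem hXc hp2) (rb_mem hYc hq2)
      have e : ((rb X p.2, p.2) : ℝ × ℝ) + (rb Y q.2, q.2) =
          (rb X p.2 + rb Y q.2, clampR η₀ η₁ x) := by
        refine Prod.ext rfl ?_
        simpa using eb
      rw [e] at hmem
      exact le_rb hWc hmem
    have h4 := hcX _ (rb_mem hXc hp2)
    have h5 := hcY _ (rb_mem hYc hq2)
    simp only at h4 h5
    rw [hpu] at hp2 h1 h3 h4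
    rw [hqv] at hq2 h2 h3 h5
    rw [hIX] at hp2
    rw [hIY] at hq2
    exact ⟨hp2, hq2, by linarith, h4, h5⟩
  have hu0 : u η₀ = x₀ := by
    have h := hdec η₀
    have hs := hsum η₀
    rw [min_eq_left h01, max_self] at hs
    have := h.1.1
    have := h.2.1.1
    linarith
  have hu1 : u η₁ = x₁ := by
    have h := hdec η₁
    have hs := hsum η₁
    rw [min_self, max_eq_right h01] at hs
    have := h.1.2
    have := h.2.1.2
    linarith
  have hv0 : v η₀ = y₀ := by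
    have hs := hsum η₀
    rw [min_eq_left h01, max_self] at hs
    linarith
  have hv1 : v η₁ = y₁ := by
    have hs := hsum η₁
    rw [min_self, max_eq_right h01] at hs
    linarith
  set f : ℝ → ℝ≥0∞ := fun t => ENNReal.ofReal (rb X t + cX) with hf
  set g : ℝ → ℝ≥0∞ := fun t => ENNReal.ofReal (rb Y t + cY) with hg
  have hfm : Measurable f := ((measurable_rb hXc).add_const cX).ennreal_ofReal
  have hgm : Measurable g := ((measurable_rb hYc).add_const cY).ennreal_ofReal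
  refine ⟨(∫⁻ η, f (u η) ∂v.measure) + ∫⁻ η, g (v η) ∂u.measure, ?_, ?_⟩
  · have key := transport_eq hucont hvcont h01 hsum hulo huhi hvlo hvhi hfm hgm
    rw [hu0, hu1, hv0, hv1] at key
    rw [← key]
    refine setLIntegral_congr_fun measurableSet_Icc ?_
    intro η hη
    obtain ⟨-, -, h3, h4, h5⟩ := hdec η
    rw [clampR_of_mem hη] at h3
    simp only [hf, hg]
    rw [← ENNReal.ofReal_add h4 h5]
    congr 1
    linarith
  · intro l m Z hZc hZ
    have hFm : Measurable fun ζ => ENNReal.ofReal (rb Z ζ + (l * cX + m * cY)) :=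
      ((measurable_rb hZc).add_const _).ennreal_ofReal
    have key := transport_ineq hucont hvcont h01 hulo huhi hvlo hvhi hfm hgm (l := l) (m := m)
      hFm ?_
    · rw [hu0, hu1, hv0, hv1] at key
      exact key
    · intro η
      obtain ⟨h1, h2, -, h4, h5⟩ := hdec η
      have hp2 : u η ∈ Prod.snd '' X := by rw [hIX]; exact h1
      have hq2 : v η ∈ Prod.snd '' Y := by rw [hIY]; exact h2
      have hmem := hZ _ (rb_mem hXc hp2) _ (rb_mem hYc hq2)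
      have e : (l : ℝ) • ((rb X (u η), u η) : ℝ × ℝ) + (m : ℝ) • ((rb Y (v η), v η) : ℝ × ℝ) =
          (l * rb X (u η) + m * rb Y (v η), l * u η + m * v η) := by
        refine Prod.ext ?_ ?_ <;> simp
      rw [e] at hmem
      have hle := le_rb hZc hmem
      simp only [hf, hg]
      have el : (l : ℝ≥0∞) = ENNReal.ofReal (l : ℝ) := (ENNReal.ofReal_coe_nnreal).symm
      have em : (m : ℝ≥0∞) = ENNReal.ofReal (m : ℝ) := (ENNReal.ofReal_coe_nnreal).symm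
      rw [el, em, ← ENNReal.ofReal_mul l.coe_nonneg, ← ENNReal.ofReal_mul m.coe_nonneg,
        ← ENNReal.ofReal_add (mul_nonneg l.coe_nonneg h4) (mul_nonneg m.coe_nonneg h5)]
      refine ENNReal.ofReal_le_ofReal ?_
      linarith

end Vale.Agent.Lib.P237
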