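import Vale.Agent.Lib.P237.Planar

/-!
# P237: a triangle and a region on the other side of one of its edges
-/

namespace Vale.Agent.Lib.P237

open MeasureTheory Set

/-- The open standard triangle `0 < s < 1`, `0 < t < 1 - s` has area `1/2`. -/
theorem volume_stdTriangle :
    volume (regionBetween (fun _ : ℝ => (0 : ℝ)) (fun s : ℝ => 1 - s) (Ioo (0 : ℝ) 1)) =
      ENNReal.ofReal (1 / 2) := by
  have hint : IntegrableOn (fun s : ℝ => 1 - s) (Ioo (0 : ℝ) 1) :=
    ((by fun_prop : Continuous fun s : ℝ => 1 - s).integrableOn_Icc).mono_set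
      Ioo_subset_Icc_self
  rw [Measure.volume_eq_prod, volume_regionBetween_eq_integral integrableOn_zero hint
    measurableSet_Ioo (fun x hx => by linarith [hx.2])]
  congr 1
  have e : ∫ y in (0 : ℝ)..1, (1 - y) = 1 / 2 := by
    rw [intervalIntegral.integral_sub intervalIntegrable_const
      intervalIntegral.intervalIntegrable_id, intervalIntegral.integral_const, integral_id]
    norm_num
  rw [← integral_Ioc_eq_integral_Ioo, ← intervalIntegral.integral_of_le zero_le_one]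
  simpa using e

/-- The open triangle with vertices `c`, `p`, `q`. -/
def openTri (c p q : ℝ × ℝ) : Set (ℝ × ℝ) :=
  (fun w : ℝ × ℝ => c + (w.1 • (p - c) + w.2 • (q - c))) ''
    regionBetween (fun _ : ℝ => (0 : ℝ)) (fun s : ℝ => 1 - s) (Ioo (0 : ℝ) 1)

theorem volume_openTri (c p q : ℝ × ℝ) :
    volume (openTri c p q) =
      ENNReal.ofReal (|(p.1 - c.1) * (q.2 - c.2) - (p.2 - c.2) * (q.1 - c.1)| / 2) := by
  have himg : openTri c p q = (fun x : ℝ × ℝ => c + x) ''
      (lin2 (p.1 - c.1) (q.1 - c.1) (p.2 - c.2) (q.2 - c.2) ''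
        regionBetween (fun _ : ℝ => (0 : ℝ)) (fun s : ℝ => 1 - s) (Ioo (0 : ℝ) 1)) := by
    rw [openTri, image_image]
    refine image_congr fun w _ => ?_
    rw [lin2_apply]
    refine Prod.ext ?_ ?_
    · simp only [Prod.fst_add, Prod.smul_fst, Prod.fst_sub, smul_eq_mul]
      ring
    · simp only [Prod.snd_add, Prod.smul_snd, Prod.snd_sub, smul_eq_mul]
      ring
  rw [himg, image_add_left, measure_preimage_add, volume_image_lin2, volume_stdTriangle,
    ← ENNReal.ofReal_mul (abs_nonneg _)]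
  congr 1
  have e : (p.1 - c.1) * (q.2 - c.2) - (q.1 - c.1) * (p.2 - c.2) =
      (p.1 - c.1) * (q.2 - c.2) - (p.2 - c.2) * (q.1 - c.1) := by ring
  rw [e]
  ring

theorem openTri_subset {W : Set (ℝ × ℝ)} (hW : Convex ℝ W) {c p q : ℝ × ℝ} (hc : c ∈ W)
    (hp : p ∈ W) (hq : q ∈ W) : openTri c p q ⊆ W := by
  rintro _ ⟨⟨s, t⟩, ⟨hs, ht⟩, rfl⟩
  simp only [mem_Ioo] at hs ht
  have h1 : 0 < 1 - t := by linarith [ht.2, hs.1]
  have hy : (1 - s / (1 - t)) • c + (s / (1 - t)) • p ∈ W := by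
    refine hW hc hp ?_ (div_nonneg hs.1.le h1.le) (by ring)
    rw [sub_nonneg, div_le_one h1]
    linarith [ht.2]
  have e : c + (s • (p - c) + t • (q - c)) =
      (1 - t) • ((1 - s / (1 - t)) • c + (s / (1 - t)) • p) + t • q := by
    refine Prod.ext ?_ ?_
    · simp only [Prod.fst_add, Prod.smul_fst, Prod.fst_sub, smul_eq_mul]
      field_simp
      ring
    · simp only [Prod.snd_add, Prod.smul_snd, Prod.snd_sub, smul_eq_mul]
      field_simp
      ring
  show c + (s • (p - c) + t • (q - c)) ∈ W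
  rw [e]
  exact hW hy hq h1.le ht.1.le (by ring)

/-- On the open triangle the affine function vanishing on the line through `p` and `q` has the
sign of its value at `c`. -/
theorem openTri_side {c p q : ℝ × ℝ} {s₀ : ℝ}
    (h : 0 < s₀ * ((p.1 - c.1) * (q.2 - c.2) - (p.2 - c.2) * (q.1 - c.1))) {x : ℝ × ℝ}
    (hx : x ∈ openTri c p q) :
    0 < s₀ * ((q.1 - p.1) * (x.2 - p.2) - (q.2 - p.2) * (x.1 - p.1)) := by
  obtain ⟨⟨s, t⟩, ⟨hs, ht⟩, rfl⟩ := hx
  simp only [mem_Ioo] at hs ht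
  have e : s₀ * ((q.1 - p.1) * ((c + (s • (p - c) + t • (q - c))).2 - p.2) -
      (q.2 - p.2) * ((c + (s • (p - c) + t • (q - c))).1 - p.1)) =
      (1 - s - t) * (s₀ * ((p.1 - c.1) * (q.2 - c.2) - (p.2 - c.2) * (q.1 - c.1))) := by
    simp only [Prod.fst_add, Prod.snd_add, Prod.smul_fst, Prod.smul_snd, Prod.fst_sub,
      Prod.snd_sub, smul_eq_mul]
    ring
  show 0 < s₀ * ((q.1 - p.1) * ((c + (s • (p - c) + t • (q - c))).2 - p.2) -
      (q.2 - p.2) * ((c + (s • (p - c) + t • (q - c))).1 - p.1))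
  rw [e]
  exact mul_pos (by linarith [ht.2]) h

/-- A convex set containing `c`, `p`, `q` has at least the area of the triangle. -/
theorem tri_le {W : Set (ℝ × ℝ)} (hW : Convex ℝ W) {c p q : ℝ × ℝ} (hc : c ∈ W)
    (hp : p ∈ W) (hq : q ∈ W) :
    ENNReal.ofReal (|(p.1 - c.1) * (q.2 - c.2) - (p.2 - c.2) * (q.1 - c.1)| / 2) ≤ volume W := by
  rw [← volume_openTri]
  exact measure_mono (openTri_subset hW hc hp hq)

/-- A convex set containing the triangle `c`, `p`, `q` and a set `G` lying on the side of the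
line through `p` and `q` opposite to `c` has at least the area of the triangle plus the outer
measure of `G`. -/
theorem tri_add_le {W G : Set (ℝ × ℝ)} (hW : Convex ℝ W) {c p q : ℝ × ℝ} (hc : c ∈ W)
    (hp : p ∈ W) (hq : q ∈ W) (hGW : G ⊆ W) {s₀ : ℝ}
    (h : 0 < s₀ * ((p.1 - c.1) * (q.2 - c.2) - (p.2 - c.2) * (q.1 - c.1)))
    (hG : ∀ y ∈ G, s₀ * ((q.1 - p.1) * (y.2 - p.2) - (q.2 - p.2) * (y.1 - p.1)) ≤ 0) :
    ENNReal.ofReal (|(p.1 - c.1) * (q.2 - c.2) - (p.2 - c.2) * (q.1 - c.1)| / 2) + volume G ≤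
      volume W := by
  set Hs : Set (ℝ × ℝ) :=
    {y | s₀ * ((q.1 - p.1) * (y.2 - p.2) - (q.2 - p.2) * (y.1 - p.1)) ≤ 0} with hHs
  have hHm : MeasurableSet Hs := measurableSet_le (by fun_prop) measurable_const
  have h1 : volume G ≤ volume (W ∩ Hs) := measure_mono fun y hy => ⟨hGW hy, hG y hy⟩
  have h2 : volume (openTri c p q) ≤ volume (W \ Hs) := by
    refine measure_mono fun x hx => ⟨openTri_subset hW hc hp hq hx, ?_⟩
    intro hxH
    have := openTri_side h hx
    exact absurd hxH (not_le.mpr this)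
  rw [← volume_openTri, ← measure_inter_add_diff W hHm, add_comm]
  exact add_le_add h1 h2

end Vale.Agent.Lib.P237
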