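import Vale.Agent.Lib.P237.Cylinder
import Vale.Agent.Lib.P237.Wedge

/-!
# P237: the projection body of a convex set containing a planar set and a point off its plane
-/

namespace Vale.Agent.Lib.P237

open MeasureTheory Set Vale.Agent.Lib.P243

theorem projBody_neg {K : Set (Fin 3 → ℝ)} {x : Fin 3 → ℝ} (hx : x ∈ projBody K) :
    -x ∈ projBody K := by
  intro u e f hu he hf hue huf hef
  have h := hx (-u) e f (by simpa using hu) he hf (by simpa using hue) (by simpa using huf) hef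
  have e1 : -x ⬝ᵥ u = x ⬝ᵥ -u := by rw [neg_dotProduct, dotProduct_neg]
  rw [e1]
  exact h

/-- If two points of the projection body lie on one vertical line, so do the points between
them. -/
theorem projBody_between {K : Set (Fin 3 → ℝ)} {X₁ X₂ P : Fin 3 → ℝ} (h₁ : X₁ ∈ projBody K)
    (h₂ : X₂ ∈ projBody K) (h0 : P 0 = X₁ 0) (h1 : P 1 = X₁ 1) (h0' : P 0 = X₂ 0)
    (h1' : P 1 = X₂ 1) (hlo : X₂ 2 ≤ P 2) (hhi : P 2 ≤ X₁ 2) : P ∈ projBody K := by
  intro u e f hu he hf hue huf hef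
  rcases le_total 0 (u 2) with h | h
  · refine le_trans (ENNReal.ofReal_le_ofReal ?_) (h₁ u e f hu he hf hue huf hef)
    simp only [dotProduct, Fin.sum_univ_three]
    rw [h0, h1]
    nlinarith
  · refine le_trans (ENNReal.ofReal_le_ofReal ?_) (h₂ u e f hu he hf hue huf hef)
    simp only [dotProduct, Fin.sum_univ_three]
    rw [h0', h1']
    nlinarith

theorem isClosed_projBody (K : Set (Fin 3 → ℝ)) : IsClosed (projBody K) := by
  have e : projBody K = ⋂ (u : Fin 3 → ℝ) (e : Fin 3 → ℝ) (f : Fin 3 → ℝ)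
      (_ : u ⬝ᵥ u = 1 ∧ e ⬝ᵥ e = 1 ∧ f ⬝ᵥ f = 1 ∧ u ⬝ᵥ e = 0 ∧ u ⬝ᵥ f = 0 ∧ e ⬝ᵥ f = 0),
      {x : Fin 3 → ℝ | ENNReal.ofReal (x ⬝ᵥ u) ≤
        volume ((fun p : Fin 3 → ℝ => (e ⬝ᵥ p, f ⬝ᵥ p)) '' K)} := by
    ext x
    simp only [projBody, mem_setOf_eq, mem_iInter]
    constructor
    · intro h u e f hh
      exact h u e f hh.1 hh.2.1 hh.2.2.1 hh.2.2.2.1 hh.2.2.2.2.1 hh.2.2.2.2.2
    · intro h u e f h1 h2 h3 h4 h5 h6
      exact h u e f ⟨h1, h2, h3, h4, h5, h6⟩
  rw [e]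
  refine isClosed_iInter fun u => isClosed_iInter fun e => isClosed_iInter fun f =>
    isClosed_iInter fun _ => ?_
  have hc : Continuous fun x : Fin 3 → ℝ => ENNReal.ofReal (x ⬝ᵥ u) :=
    ENNReal.continuous_ofReal.comp (continuous_id.dotProduct continuous_const)
  exact isClosed_le hc continuous_const

/-- The projection onto the coordinates `(e, f)` as a linear map. -/
def proj2 (e f : Fin 3 → ℝ) : (Fin 3 → ℝ) →ₗ[ℝ] ℝ × ℝ where
  toFun p := (e ⬝ᵥ p, f ⬝ᵥ p)
  map_add' x y := by simp [dotProduct_add]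
  map_smul' c x := by simp [dotProduct_smul]

theorem proj2_apply (e f p : Fin 3 → ℝ) : proj2 e f p = (e ⬝ᵥ p, f ⬝ᵥ p) := rfl

/-- The algebraic identity behind the wedge point: the dot product with `u` of the vector area
of the triangle `a`, `p`, `q` is, up to the orientation sign `σ` of the frame, the signed area
of the projected triangle. -/
theorem wedge_dot {u e f a : Fin 3 → ℝ} {σ : ℝ} (hσ : σ ^ 2 = 1)
    (hn0 : e 1 * f 2 - e 2 * f 1 = σ * u 0) (hn1 : e 2 * f 0 - e 0 * f 2 = σ * u 1)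
    (hn2 : e 0 * f 1 - e 1 * f 0 = σ * u 2) (p q : ℝ × ℝ) (κ : ℝ) :
    -(a 2 / 2) * (p.2 - q.2) * u 0 + a 2 / 2 * (p.1 - q.1) * u 1 +
      (((p.1 - a 0) * (q.2 - a 1) - (p.2 - a 1) * (q.1 - a 0)) / 2 + κ) * u 2 =
    σ * (((e 0 * p.1 + e 1 * p.2 - (e 0 * a 0 + e 1 * a 1 + e 2 * a 2)) *
        (f 0 * q.1 + f 1 * q.2 - (f 0 * a 0 + f 1 * a 1 + f 2 * a 2)) -
      (f 0 * p.1 + f 1 * p.2 - (f 0 * a 0 + f 1 * a 1 + f 2 * a 2)) *
        (e 0 * q.1 + e 1 * q.2 - (e 0 * a 0 + e 1 * a 1 + e 2 * a 2))) / 2) + u 2 * κ := by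
  linear_combination
    (-(1 / 2) * (-(a 2) * (p.2 - q.2) * u 0 + a 2 * (p.1 - q.1) * u 1 +
      ((p.1 - a 0) * (q.2 - a 1) - (p.2 - a 1) * (q.1 - a 0)) * u 2)) * hσ +
    (-(1 / 2) * σ * (-(a 2) * (p.2 - q.2))) * hn0 +
    (-(1 / 2) * σ * (a 2 * (p.1 - q.1))) * hn1 +
    (-(1 / 2) * σ * ((p.1 - a 0) * (q.2 - a 1) - (p.2 - a 1) * (q.1 - a 0))) * hn2

/-- **The wedge point.**  Let `K` be a convex set of three-space containing the planar set
`A` (placed in the plane `x 2 = 0`) and a point `a`.  For `p`, `q` in `A`, the sum of the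
vector area of the triangle `a`, `p`, `q` and of the vertical vector whose length is the area
of the part of `A` to the right of the directed line from `p` to `q` lies in the projection
body of `K`. -/
theorem mem_projBody_wedge {K : Set (Fin 3 → ℝ)} (hK : Convex ℝ K) {A : Set (ℝ × ℝ)}
    (hAfin : volume A ≠ ⊤) (hbase : ∀ x ∈ A, (![x.1, x.2, 0] : Fin 3 → ℝ) ∈ K)
    {a : Fin 3 → ℝ} (ha : a ∈ K) {p q : ℝ × ℝ} (hp : p ∈ A) (hq : q ∈ A) {X : Fin 3 → ℝ}
    (hX0 : X 0 = -(a 2 / 2) * (p.2 - q.2)) (hX1 : X 1 = a 2 / 2 * (p.1 - q.1))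
    (hX2 : X 2 = ((p.1 - a 0) * (q.2 - a 1) - (p.2 - a 1) * (q.1 - a 0)) / 2 +
      (volume (A ∩ {x : ℝ × ℝ | (q.1 - p.1) * (x.2 - p.2) - (q.2 - p.2) * (x.1 - p.1) ≤ 0})).toReal) :
    X ∈ projBody K := by
  intro u e f hu he hf hue huf hef
  obtain ⟨σ, hσ, hn0, hn1, hn2⟩ := frame_cross hu he hf hue huf hef
  have hσabs : |σ| = 1 := by
    have h1 := abs_nonneg σ
    have h2 : |σ| ^ 2 = 1 := by rw [sq_abs]; exact hσ
    nlinarith
  set cap : Set (ℝ × ℝ) :=
    A ∩ {x : ℝ × ℝ | (q.1 - p.1) * (x.2 - p.2) - (q.2 - p.2) * (x.1 - p.1) ≤ 0} with hcap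
  have hcapfin : volume cap ≠ ⊤ := ne_top_of_le_ne_top hAfin (measure_mono inter_subset_left)
  set κ := (volume cap).toReal with hκ
  have hκ0 : 0 ≤ κ := ENNReal.toReal_nonneg
  set W : Set (ℝ × ℝ) := (fun P : Fin 3 → ℝ => (e ⬝ᵥ P, f ⬝ᵥ P)) '' K with hWdef
  have hWconv : Convex ℝ W := hK.linear_image (proj2 e f)
  set c : ℝ × ℝ := (e ⬝ᵥ a, f ⬝ᵥ a) with hc
  set p' : ℝ × ℝ := (e 0 * p.1 + e 1 * p.2, f 0 * p.1 + f 1 * p.2) with hp'
  set q' : ℝ × ℝ := (e 0 * q.1 + e 1 * q.2, f 0 * q.1 + f 1 * q.2) with hq'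
  have hbaseW : ∀ x ∈ A, (e 0 * x.1 + e 1 * x.2, f 0 * x.1 + f 1 * x.2) ∈ W := by
    intro x hx
    refine ⟨![x.1, x.2, 0], hbase x hx, ?_⟩
    refine Prod.ext ?_ ?_ <;> simp [dotProduct, Fin.sum_univ_three]
  have hcW : c ∈ W := ⟨a, ha, rfl⟩
  have hpW : p' ∈ W := hbaseW p hp
  have hqW : q' ∈ W := hbaseW q hq
  set D := e 0 * f 1 - e 1 * f 0 with hD
  set G : Set (ℝ × ℝ) := lin2 (e 0) (e 1) (f 0) (f 1) '' cap with hG
  have hGW : G ⊆ W := by
    rintro _ ⟨x, hx, rfl⟩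
    rw [lin2_apply]
    exact hbaseW x hx.1
  have hGvol : volume G = ENNReal.ofReal (|D| * κ) := by
    rw [hG, volume_image_lin2, ENNReal.ofReal_mul (abs_nonneg _), hκ,
      ENNReal.ofReal_toReal hcapfin]
  have hGside : 0 < σ * D → ∀ y ∈ G,
      σ * ((q'.1 - p'.1) * (y.2 - p'.2) - (q'.2 - p'.2) * (y.1 - p'.1)) ≤ 0 := by
    intro hDpos
    rintro _ ⟨x, hx, rfl⟩
    rw [lin2_apply]
    have hx2 : (q.1 - p.1) * (x.2 - p.2) - (q.2 - p.2) * (x.1 - p.1) ≤ 0 := hx.2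
    have e1 : σ * ((q'.1 - p'.1) * ((e 0 * x.1 + e 1 * x.2, f 0 * x.1 + f 1 * x.2).2 - p'.2) -
        (q'.2 - p'.2) * ((e 0 * x.1 + e 1 * x.2, f 0 * x.1 + f 1 * x.2).1 - p'.1)) =
        σ * D * ((q.1 - p.1) * (x.2 - p.2) - (q.2 - p.2) * (x.1 - p.1)) := by
      simp only [hp', hq', hD]
      ring
    rw [e1]
    exact mul_nonpos_of_nonneg_of_nonpos hDpos.le hx2
  set Δ₀ := (p'.1 - c.1) * (q'.2 - c.2) - (p'.2 - c.2) * (q'.1 - c.1) with hΔ₀
  have hu2 : u 2 = σ * D := by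
    rw [hn2, ← mul_assoc, ← sq, hσ, one_mul]
  have hdot : X ⬝ᵥ u = σ * (Δ₀ / 2) + σ * D * κ := by
    have hraw := wedge_dot (a := a) hσ hn0 hn1 hn2 p q κ
    simp only [dotProduct, Fin.sum_univ_three]
    rw [hX0, hX1, hX2]
    simp only [hΔ₀, hc, hp', hq', dotProduct, Fin.sum_univ_three]
    linear_combination hraw + κ * hu2
  have hτabs : |σ * (Δ₀ / 2)| = |Δ₀| / 2 := by
    rw [abs_mul, hσabs, one_mul, abs_div, abs_two]
  have hDabs : |σ * D| = |D| := by rw [abs_mul, hσabs, one_mul]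
  rw [hdot]
  by_cases hD' : σ * D ≤ 0
  · calc ENNReal.ofReal (σ * (Δ₀ / 2) + σ * D * κ)
        ≤ ENNReal.ofReal (|Δ₀| / 2) := by
          refine ENNReal.ofReal_le_ofReal ?_
          have h1 : σ * D * κ ≤ 0 := mul_nonpos_of_nonpos_of_nonneg hD' hκ0
          have h2 : σ * (Δ₀ / 2) ≤ |Δ₀| / 2 := by rw [← hτabs]; exact le_abs_self _
          linarith
      _ ≤ volume W := tri_le hWconv hcW hpW hqW
  have hDpos : 0 < σ * D := not_le.mp hD'
  have hDeq : σ * D = |D| := by rw [← hDabs, abs_of_pos hDpos]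
  by_cases hτ' : σ * (Δ₀ / 2) ≤ 0
  · calc ENNReal.ofReal (σ * (Δ₀ / 2) + σ * D * κ)
        ≤ ENNReal.ofReal (|D| * κ) := by
          refine ENNReal.ofReal_le_ofReal ?_
          rw [hDeq]
          linarith
      _ = volume G := hGvol.symm
      _ ≤ volume W := measure_mono hGW
  have hτpos : 0 < σ * (Δ₀ / 2) := not_le.mp hτ'
  have hτeq : σ * (Δ₀ / 2) = |Δ₀| / 2 := by rw [← hτabs, abs_of_pos hτpos]
  have hside := hGside hDpos
  calc ENNReal.ofReal (σ * (Δ₀ / 2) + σ * D * κ)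
      = ENNReal.ofReal (|Δ₀| / 2) + ENNReal.ofReal (|D| * κ) := by
        rw [hτeq, hDeq, ENNReal.ofReal_add (by positivity) (by positivity)]
    _ = ENNReal.ofReal (|Δ₀| / 2) + volume G := by rw [hGvol]
    _ ≤ volume W := tri_add_le hWconv hcW hpW hqW hGW (s₀ := σ) (by
        have : σ * Δ₀ = 2 * (σ * (Δ₀ / 2)) := by ring
        rw [hΔ₀] at this
        rw [this]
        linarith) hside

/-- The coordinates of the inverse of the splitting of three-space into the last coordinate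
and the first two. -/
theorem piFinSuccAbove_symm_apply (z : ℝ) (g : Fin 2 → ℝ) :
    (MeasurableEquiv.piFinSuccAbove (fun _ : Fin 3 => ℝ) (2 : Fin 3)).symm (z, g) =
      ![g 0, g 1, z] := by
  rw [MeasurableEquiv.symm_apply_eq]
  simp only [MeasurableEquiv.piFinSuccAbove_apply, Fin.insertNthEquiv_symm_apply]
  refine Prod.ext ?_ ?_
  · simp
  · funext i
    fin_cases i <;> simp [Fin.removeNth, Fin.succAbove]

/-- A measurable set of three-space whose vertical fibres over a planar set `D` all contain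
a segment of length `α` has volume at least `α` times the area of `D`. -/
theorem volume_ge_of_fibers {S : Set (Fin 3 → ℝ)} (hS : MeasurableSet S) {D : Set (ℝ × ℝ)}
    (hD : MeasurableSet D) {α : ℝ}
    (h : ∀ y ∈ D, ∃ z₀ : ℝ, ∀ z ∈ Icc z₀ (z₀ + α), (![y.1, y.2, z] : Fin 3 → ℝ) ∈ S) :
    ENNReal.ofReal α * volume D ≤ volume S := by
  have h1 := volume_preserving_piFinSuccAbove (fun _ : Fin 3 => ℝ) (2 : Fin 3)
  have h2 := volume_preserving_finTwoArrow ℝ
  set Ψ := MeasurableEquiv.piFinSuccAbove (fun _ : Fin 3 => ℝ) (2 : Fin 3) with hΨ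
  set S' : Set (ℝ × (Fin 2 → ℝ)) := Ψ.symm ⁻¹' S with hS'
  have hS'm : MeasurableSet S' := Ψ.symm.measurable hS
  have hvol : volume S = volume S' := ((h1.symm Ψ).measure_preimage_equiv S).symm
  set E : Set (Fin 2 → ℝ) := MeasurableEquiv.finTwoArrow ⁻¹' D with hE
  have hEm : MeasurableSet E := MeasurableEquiv.finTwoArrow.measurable hD
  have hEvol : volume E = volume D := h2.measure_preimage_equiv D
  have hprod : volume S' = ∫⁻ g, volume ((fun x : ℝ => (x, g)) ⁻¹' S') := by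
    rw [Measure.volume_eq_prod]
    exact Measure.prod_apply_symm hS'm
  rw [hvol, hprod]
  calc ENNReal.ofReal α * volume D = ∫⁻ _ in E, ENNReal.ofReal α := by
        rw [setLIntegral_const, hEvol]
    _ ≤ ∫⁻ g in E, volume ((fun x : ℝ => (x, g)) ⁻¹' S') := by
        refine setLIntegral_mono' hEm ?_
        intro g hg
        obtain ⟨z₀, hz₀⟩ := h (g 0, g 1) hg
        have e1 : ENNReal.ofReal α = volume (Icc z₀ (z₀ + α)) := by
          rw [Real.volume_Icc]
          congr 1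
          ring
        rw [e1]
        refine measure_mono ?_
        intro z hz
        show Ψ.symm (z, g) ∈ S
        rw [hΨ, piFinSuccAbove_symm_apply]
        exact hz₀ z hz
    _ ≤ ∫⁻ g, volume ((fun x : ℝ => (x, g)) ⁻¹' S') := setLIntegral_le_lintegral _ _

/-- The half difference set of a planar compact convex set is compact and has at least the
area of the set (Brunn-Minkowski). -/
theorem volume_le_halfDiff {A : Set (ℝ × ℝ)} (hA : Convex ℝ A) (hAc : IsCompact A)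
    (hAne : A.Nonempty) :
    IsCompact {d : ℝ × ℝ | ∃ a ∈ A, ∃ a' ∈ A, d = ((a.1 - a'.1) / 2, (a.2 - a'.2) / 2)} ∧
    volume A ≤
      volume {d : ℝ × ℝ | ∃ a ∈ A, ∃ a' ∈ A, d = ((a.1 - a'.1) / 2, (a.2 - a'.2) / 2)} := by
  set α := (volume A).toReal with hα
  have hAfin : volume A ≠ ⊤ := hAc.measure_lt_top.ne
  have hAα : volume A = ENNReal.ofReal α := (ENNReal.ofReal_toReal hAfin).symm
  set D : Set (ℝ × ℝ) :=
    {d | ∃ a ∈ A, ∃ a' ∈ A, d = ((a.1 - a'.1) / 2, (a.2 - a'.2) / 2)} with hD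
  have hDc : IsCompact D := by
    have himg : D = (fun w : (ℝ × ℝ) × (ℝ × ℝ) =>
        ((w.1.1 - w.2.1) / 2, (w.1.2 - w.2.2) / 2)) '' (A ×ˢ A) := by
      ext d
      constructor
      · rintro ⟨a, ha, a', ha', rfl⟩
        exact ⟨(a, a'), ⟨ha, ha'⟩, rfl⟩
      · rintro ⟨⟨a, a'⟩, ⟨ha, ha'⟩, rfl⟩
        exact ⟨a, ha, a', ha', rfl⟩
    rw [himg]
    exact (hAc.prod hAc).image (by fun_prop)
  refine ⟨hDc, ?_⟩
  set B := lin2 (-1) 0 0 (-1) '' A with hB
  have hBc : IsCompact B := hAc.image (LinearMap.continuous_of_finiteDimensional _)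
  have hBvol : volume B = volume A := by
    rw [hB, volume_image_lin2]
    norm_num
  have hbm := bm_planar hA (hA.linear_image (lin2 (-1) 0 0 (-1))) hAc.isClosed.measurableSet
    hBc.isClosed.measurableSet hDc.isClosed.measurableSet hAc.isBounded hBc.isBounded
    hDc.isBounded hAne (hAne.image _) (u := 1 / 2) (v := 1 / 2) (by norm_num) (by norm_num)
    (by norm_num)
    (by
      rintro p hp _ ⟨a', ha', rfl⟩
      refine ⟨p, hp, a', ha', ?_⟩
      rw [lin2_apply]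
      refine Prod.ext ?_ ?_
      · simp
        ring
      · simp
        ring)
  rw [hBvol] at hbm
  have hAD : α ≤ (volume D).toReal := by
    have h1 : √α ≤ √(volume D).toReal := by linarith
    exact (Real.sqrt_le_sqrt_iff ENNReal.toReal_nonneg).mp h1
  rw [hAα, ← ENNReal.ofReal_toReal hDc.measure_lt_top.ne]
  exact ENNReal.ofReal_le_ofReal hAD

/-- **A projection inequality from one planar section and one point.**  If a convex set `K`
of three-space contains a planar compact convex set `A` (placed in the plane `x 2 = 0`) and a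
point `a`, then the volume of the projection body of `K` is at least the square of the
height `a 2` times the square of the area of `A`. -/
theorem petty_wedge {K : Set (Fin 3 → ℝ)} (hK : Convex ℝ K) {A : Set (ℝ × ℝ)}
    (hA : Convex ℝ A) (hAc : IsCompact A)
    (hbase : ∀ x ∈ A, (![x.1, x.2, 0] : Fin 3 → ℝ) ∈ K) {a : Fin 3 → ℝ} (ha : a ∈ K) :
    ENNReal.ofReal (a 2 ^ 2) * volume A ^ 2 ≤ volume (projBody K) := by
  rcases A.eq_empty_or_nonempty with hAe | hAne
  · rw [hAe, measure_empty]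
    simp
  set α := (volume A).toReal with hα
  have hAfin : volume A ≠ ⊤ := hAc.measure_lt_top.ne
  have hAα : volume A = ENNReal.ofReal α := (ENNReal.ofReal_toReal hAfin).symm
  obtain ⟨hDc, hAD⟩ := volume_le_halfDiff hA hAc hAne
  set D : Set (ℝ × ℝ) :=
    {d | ∃ a ∈ A, ∃ a' ∈ A, d = ((a.1 - a'.1) / 2, (a.2 - a'.2) / 2)} with hD
  set G := lin2 0 (-(a 2)) (a 2) 0 with hG
  have hGD : IsCompact (G '' D) := hDc.image (LinearMap.continuous_of_finiteDimensional _)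
  have hfib : ∀ y ∈ G '' D, ∃ z₀ : ℝ, ∀ z ∈ Icc z₀ (z₀ + α),
      (![y.1, y.2, z] : Fin 3 → ℝ) ∈ projBody K := by
    rintro _ ⟨_, ⟨p, hp, q, hq, rfl⟩, rfl⟩
    set S₁ : Set (ℝ × ℝ) :=
      A ∩ {x : ℝ × ℝ | (q.1 - p.1) * (x.2 - p.2) - (q.2 - p.2) * (x.1 - p.1) ≤ 0} with hS₁
    set S₂ : Set (ℝ × ℝ) :=
      A ∩ {x : ℝ × ℝ | (p.1 - q.1) * (x.2 - q.2) - (p.2 - q.2) * (x.1 - q.1) ≤ 0} with hS₂
    set T := ((p.1 - a 0) * (q.2 - a 1) - (p.2 - a 1) * (q.1 - a 0)) / 2 with hT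
    have hf1 : volume S₁ ≠ ⊤ := ne_top_of_le_ne_top hAfin (measure_mono inter_subset_left)
    have hf2 : volume S₂ ≠ ⊤ := ne_top_of_le_ne_top hAfin (measure_mono inter_subset_left)
    have hcc : α ≤ (volume S₁).toReal + (volume S₂).toReal := by
      have hsub : A ⊆ S₁ ∪ S₂ := by
        intro x hx
        by_cases h : (q.1 - p.1) * (x.2 - p.2) - (q.2 - p.2) * (x.1 - p.1) ≤ 0
        · exact Or.inl ⟨hx, h⟩
        · refine Or.inr ⟨hx, ?_⟩
          show (p.1 - q.1) * (x.2 - q.2) - (p.2 - q.2) * (x.1 - q.1) ≤ 0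
          have h' := not_le.mp h
          nlinarith
      have h1 : volume A ≤ volume S₁ + volume S₂ :=
        (measure_mono hsub).trans (measure_union_le S₁ S₂)
      rw [hα, ← ENNReal.toReal_add hf1 hf2]
      exact ENNReal.toReal_mono (ENNReal.add_ne_top.mpr ⟨hf1, hf2⟩) h1
    have hX₁ : (![-(a 2 / 2) * (p.2 - q.2), a 2 / 2 * (p.1 - q.1),
        T + (volume S₁).toReal] : Fin 3 → ℝ) ∈ projBody K :=
      mem_projBody_wedge hK hAfin hbase ha hp hq (by simp) (by simp) (by simp [hT, hS₁])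
    have hX₂' : (![-(a 2 / 2) * (q.2 - p.2), a 2 / 2 * (q.1 - p.1),
        -T + (volume S₂).toReal] : Fin 3 → ℝ) ∈ projBody K :=
      mem_projBody_wedge hK hAfin hbase ha hq hp (by simp) (by simp) (by
        simp only [hT, hS₂]
        simp
        ring)
    have hX₂ := projBody_neg hX₂'
    refine ⟨T - (volume S₂).toReal, fun z hz => ?_⟩
    refine projBody_between hX₁ hX₂ ?_ ?_ ?_ ?_ ?_ ?_
    · simp [hG, lin2_apply]
      ring
    · simp [hG, lin2_apply]
      ring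
    · simp [hG, lin2_apply]
      ring
    · simp [hG, lin2_apply]
      ring
    · have := hz.1
      simp
      linarith
    · have := hz.2
      simp
      linarith
  have hmain := volume_ge_of_fibers (isClosed_projBody K).measurableSet
    hGD.isClosed.measurableSet hfib
  have hGvol : volume (G '' D) = ENNReal.ofReal (a 2 ^ 2) * volume D := by
    rw [hG, volume_image_lin2]
    have e1 : |0 * 0 - -(a 2) * a 2| = a 2 ^ 2 := by
      rw [abs_of_nonneg (by nlinarith [sq_nonneg (a 2)])]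
      ring
    rw [e1]
  calc ENNReal.ofReal (a 2 ^ 2) * volume A ^ 2
      = ENNReal.ofReal α * (ENNReal.ofReal (a 2 ^ 2) * volume A) := by
        rw [hAα]
        ring
    _ ≤ ENNReal.ofReal α * (ENNReal.ofReal (a 2 ^ 2) * volume D) := by gcongr
    _ = ENNReal.ofReal α * volume (G '' D) := by rw [hGvol]
    _ ≤ _ := hmain

end Vale.Agent.Lib.P237
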