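import Vale.Agent.Lib.P237.Cone

/-!
# P237: cones over planar convex bodies
-/

namespace Vale.Agent.Lib.P237

open MeasureTheory Set

/-- The cone with base `A` (placed in the plane `x 2 = 0` of three-space) and apex `a`: the
convex hull of the apex and of the base. -/
def coneOver (A : Set (ℝ × ℝ)) (a : Fin 3 → ℝ) : Set (Fin 3 → ℝ) :=
  convexHull ℝ (insert a ((fun x : ℝ × ℝ => (![x.1, x.2, 0] : Fin 3 → ℝ)) '' A))

/-- The cone as the set of points on the segments from the base to the apex. -/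
def conePar (A : Set (ℝ × ℝ)) (a : Fin 3 → ℝ) : Set (Fin 3 → ℝ) :=
  {P | ∃ x ∈ A, ∃ t ∈ Icc (0 : ℝ) 1,
    P = ![(1 - t) * x.1 + t * a 0, (1 - t) * x.2 + t * a 1, t * a 2]}

theorem convex_conePar {A : Set (ℝ × ℝ)} (hA : Convex ℝ A) (a : Fin 3 → ℝ) :
    Convex ℝ (conePar A a) := by
  rintro _ ⟨x, hx, u, hu, rfl⟩ _ ⟨y, hy, v, hv, rfl⟩ s t hs ht hst
  have hu0 := hu.1
  have hu1 := hu.2
  have hv0 := hv.1
  have hv1 := hv.2
  have hw0 : 0 ≤ s * u + t * v := by positivity
  have hw1 : s * u + t * v ≤ 1 := by nlinarith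
  have hl0 : 0 ≤ s * (1 - u) := mul_nonneg hs (sub_nonneg.mpr hu1)
  have hm0 : 0 ≤ t * (1 - v) := mul_nonneg ht (sub_nonneg.mpr hv1)
  rcases eq_or_lt_of_le hw1 with h1 | h1
  · have hl : s * (1 - u) = 0 := by nlinarith
    have hm : t * (1 - v) = 0 := by nlinarith
    refine ⟨x, hx, 1, ⟨zero_le_one, le_rfl⟩, ?_⟩
    funext i
    fin_cases i
    · simp
      linear_combination x.1 * hl + y.1 * hm + a 0 * h1
    · simp
      linear_combination x.2 * hl + y.2 * hm + a 1 * h1
    · simp
      linear_combination a 2 * h1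
  · have hpos : 0 < 1 - (s * u + t * v) := by linarith
    refine ⟨(s * (1 - u) / (1 - (s * u + t * v))) • x + (t * (1 - v) / (1 - (s * u + t * v))) • y,
      hA hx hy (by positivity) (by positivity) (by field_simp; linarith), s * u + t * v,
      ⟨hw0, hw1⟩, ?_⟩
    funext i
    fin_cases i
    · simp
      field_simp
      ring
    · simp
      field_simp
      ring
    · simp
      ring

theorem coneOver_subset_conePar {A : Set (ℝ × ℝ)} (hA : Convex ℝ A) (hAne : A.Nonempty)
    (a : Fin 3 → ℝ) : coneOver A a ⊆ conePar A a := by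
  refine convexHull_min ?_ (convex_conePar hA a)
  rintro P (rfl | ⟨x, hx, rfl⟩)
  · obtain ⟨x, hx⟩ := hAne
    refine ⟨x, hx, 1, ⟨zero_le_one, le_rfl⟩, ?_⟩
    funext i
    fin_cases i <;> simp
  · refine ⟨x, hx, 0, ⟨le_rfl, zero_le_one⟩, ?_⟩
    funext i
    fin_cases i <;> simp

theorem isCompact_conePar {A : Set (ℝ × ℝ)} (hAc : IsCompact A) (a : Fin 3 → ℝ) :
    IsCompact (conePar A a) := by
  have himg : conePar A a = (fun w : (ℝ × ℝ) × ℝ =>
      (![(1 - w.2) * w.1.1 + w.2 * a 0, (1 - w.2) * w.1.2 + w.2 * a 1, w.2 * a 2] :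
        Fin 3 → ℝ)) '' (A ×ˢ Icc (0 : ℝ) 1) := by
    ext P
    constructor
    · rintro ⟨x, hx, t, ht, rfl⟩
      exact ⟨(x, t), ⟨hx, ht⟩, rfl⟩
    · rintro ⟨⟨x, t⟩, ⟨hx, ht⟩, rfl⟩
      exact ⟨x, hx, t, ht, rfl⟩
  rw [himg]
  refine (hAc.prod isCompact_Icc).image ?_
  refine continuous_pi fun i => ?_
  fin_cases i
  · simp only [Fin.zero_eta, Matrix.cons_val_zero]
    fun_prop
  · simp only [Fin.mk_one, Matrix.cons_val_one, Matrix.cons_val_zero]
    fun_prop
  · simp only [Fin.reduceFinMk, Matrix.cons_val_two, Matrix.tail_cons, Matrix.head_cons]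
    fun_prop

/-- The integral of `(1 - z / H) ^ 2` over `[0, H]`. -/
theorem lintegral_sq_slice {H : ℝ} (hH : 0 < H) :
    ∫⁻ z in Icc (0 : ℝ) H, ENNReal.ofReal ((1 - z / H) ^ 2) = ENNReal.ofReal (H / 3) := by
  have hcont : Continuous fun z : ℝ => (1 - z / H) ^ 2 := by fun_prop
  have hint : IntegrableOn (fun z : ℝ => (1 - z / H) ^ 2) (Icc (0 : ℝ) H) :=
    hcont.continuousOn.integrableOn_Icc
  rw [← ofReal_integral_eq_lintegral_ofReal hint
    (Filter.Eventually.of_forall fun z => sq_nonneg _)]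
  congr 1
  rw [integral_Icc_eq_integral_Ioc, ← intervalIntegral.integral_of_le hH.le]
  have hderiv : ∀ z ∈ uIcc (0 : ℝ) H,
      HasDerivAt (fun z : ℝ => -(H / 3) * (1 - z / H) ^ 3) ((1 - z / H) ^ 2) z := by
    intro z _
    have h1 : HasDerivAt (fun z : ℝ => 1 - z / H) (0 - 1 / H) z :=
      (hasDerivAt_const z (1 : ℝ)).sub ((hasDerivAt_id z).div_const H)
    have hne : H ≠ 0 := hH.ne'
    have h2 := ((h1.pow 3).const_mul (-(H / 3))).congr_deriv (g' := (1 - z / H) ^ 2) (by
      simp only [Nat.cast_ofNat]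
      rw [show (3 - 1 : ℕ) = 2 from rfl]
      generalize 1 - z / H = w
      field_simp
      ring)
    exact h2
  rw [intervalIntegral.integral_eq_sub_of_hasDerivAt hderiv (hcont.intervalIntegrable _ _)]
  have hne : H ≠ 0 := hH.ne'
  field_simp
  ring

/-- The volume of the cone over `A` with apex `a` is at most a third of the height times the
area of the base. -/
theorem volume_conePar_le {A : Set (ℝ × ℝ)} (hAc : IsCompact A) {a : Fin 3 → ℝ}
    (ha : 0 < a 2) : volume (conePar A a) ≤ ENNReal.ofReal (a 2 / 3) * volume A := by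
  have h1 := volume_preserving_piFinSuccAbove (fun _ : Fin 3 => ℝ) (2 : Fin 3)
  have h2 := volume_preserving_finTwoArrow ℝ
  set Ψ := MeasurableEquiv.piFinSuccAbove (fun _ : Fin 3 => ℝ) (2 : Fin 3) with hΨ
  set S' : Set (ℝ × (Fin 2 → ℝ)) := Ψ.symm ⁻¹' conePar A a with hS'
  have hS'm : MeasurableSet S' :=
    Ψ.symm.measurable (isCompact_conePar hAc a).isClosed.measurableSet
  have hvol : volume (conePar A a) = volume S' :=
    ((h1.symm Ψ).measure_preimage_equiv (conePar A a)).symm
  have hprod : volume S' = ∫⁻ z, volume (Prod.mk z ⁻¹' S') := by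
    rw [Measure.volume_eq_prod]
    exact Measure.prod_apply hS'm
  have hslice : ∀ z : ℝ, volume (Prod.mk z ⁻¹' S') ≤
      (Icc (0 : ℝ) (a 2)).indicator (fun z => ENNReal.ofReal ((1 - z / a 2) ^ 2) * volume A) z := by
    intro z
    by_cases hz : z ∈ Icc (0 : ℝ) (a 2)
    · rw [indicator_of_mem hz]
      set t := z / a 2 with ht
      have hsub : Prod.mk z ⁻¹' S' ⊆ MeasurableEquiv.finTwoArrow ⁻¹'
          ((fun y : ℝ × ℝ => (t * a 0, t * a 1) + y) '' (lin2 (1 - t) 0 0 (1 - t) '' A)) := by
        intro g hg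
        have hg' : Ψ.symm (z, g) ∈ conePar A a := hg
        rw [hΨ, piFinSuccAbove_symm_apply] at hg'
        obtain ⟨x, hx, s, hs, hP⟩ := hg'
        have e0 := congrFun hP 0
        have e1 := congrFun hP 1
        have e2 := congrFun hP 2
        simp at e0 e1 e2
        have hst : s = t := by
          rw [ht, e2]
          field_simp
        refine ⟨lin2 (1 - t) 0 0 (1 - t) x, mem_image_of_mem _ hx, ?_⟩
        rw [lin2_apply]
        refine Prod.ext ?_ ?_
        · simp
          rw [e0, hst]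
          ring
        · simp
          rw [e1, hst]
          ring
      calc volume (Prod.mk z ⁻¹' S')
          ≤ volume (MeasurableEquiv.finTwoArrow ⁻¹'
            ((fun y : ℝ × ℝ => (t * a 0, t * a 1) + y) '' (lin2 (1 - t) 0 0 (1 - t) '' A))) :=
            measure_mono hsub
        _ = volume ((fun y : ℝ × ℝ => (t * a 0, t * a 1) + y) ''
            (lin2 (1 - t) 0 0 (1 - t) '' A)) := h2.measure_preimage_equiv _
        _ = volume (lin2 (1 - t) 0 0 (1 - t) '' A) := by
            rw [image_add_left, measure_preimage_add]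
        _ = ENNReal.ofReal ((1 - t) ^ 2) * volume A := by
            rw [volume_image_lin2]
            have e1 : |(1 - t) * (1 - t) - 0 * 0| = (1 - t) ^ 2 := by
              rw [abs_of_nonneg (by nlinarith [sq_nonneg (1 - t)])]
              ring
            rw [e1]
    · rw [indicator_of_notMem hz]
      have hempty : Prod.mk z ⁻¹' S' = ∅ := by
        ext g
        simp only [mem_preimage, mem_empty_iff_false, iff_false]
        intro hg
        have hg' : Ψ.symm (z, g) ∈ conePar A a := hg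
        rw [hΨ, piFinSuccAbove_symm_apply] at hg'
        obtain ⟨x, hx, s, hs, hP⟩ := hg'
        have e2 := congrFun hP 2
        simp at e2
        apply hz
        rw [e2]
        exact ⟨mul_nonneg hs.1 ha.le, by nlinarith [hs.2]⟩
      rw [hempty, measure_empty]
  calc volume (conePar A a) = ∫⁻ z, volume (Prod.mk z ⁻¹' S') := by rw [hvol, hprod]
    _ ≤ ∫⁻ z, (Icc (0 : ℝ) (a 2)).indicator
          (fun z => ENNReal.ofReal ((1 - z / a 2) ^ 2) * volume A) z := lintegral_mono hslice
    _ = ∫⁻ z in Icc (0 : ℝ) (a 2), ENNReal.ofReal ((1 - z / a 2) ^ 2) * volume A :=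
        lintegral_indicator measurableSet_Icc _
    _ = (∫⁻ z in Icc (0 : ℝ) (a 2), ENNReal.ofReal ((1 - z / a 2) ^ 2)) * volume A := by
        rw [lintegral_mul_const]
        fun_prop
    _ = ENNReal.ofReal (a 2 / 3) * volume A := by rw [lintegral_sq_slice ha]

/-- **Petty's conjectured projection inequality for cones in three-space**, with the
constant `9`. -/
theorem petty_cone {A : Set (ℝ × ℝ)} (hA : Convex ℝ A) (hAc : IsCompact A) {a : Fin 3 → ℝ}
    (ha : 0 < a 2) :
    volume (coneOver A a) ≤ ENNReal.ofReal (a 2 / 3) * volume A ∧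
    9 * volume (coneOver A a) ^ 2 ≤ volume (projBody (coneOver A a)) := by
  have hvolK : volume (coneOver A a) ≤ ENNReal.ofReal (a 2 / 3) * volume A := by
    rcases A.eq_empty_or_nonempty with hAe | hAne
    · have e1 : coneOver A a = {a} := by
        rw [coneOver, hAe, image_empty]
        simp
      rw [e1]
      simp
    · exact (measure_mono (coneOver_subset_conePar hA hAne a)).trans (volume_conePar_le hAc ha)
  refine ⟨hvolK, ?_⟩
  have hbase : ∀ x ∈ A, (![x.1, x.2, 0] : Fin 3 → ℝ) ∈ coneOver A a := fun x hx =>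
    subset_convexHull ℝ _ (mem_insert_of_mem _ (mem_image_of_mem _ hx))
  have hapex : a ∈ coneOver A a := subset_convexHull ℝ _ (mem_insert _ _)
  have hw := petty_wedge (convex_convexHull ℝ _) hA hAc hbase hapex
  calc 9 * volume (coneOver A a) ^ 2
      ≤ 9 * (ENNReal.ofReal (a 2 / 3) * volume A) ^ 2 := by gcongr
    _ = ENNReal.ofReal (a 2 ^ 2) * volume A ^ 2 := by
        have e9 : (9 : ENNReal) = ENNReal.ofReal 9 := by norm_num
        rw [mul_pow, ← mul_assoc, e9, ← ENNReal.ofReal_pow (by positivity),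
          ← ENNReal.ofReal_mul (by norm_num)]
        congr 2
        ring
    _ ≤ _ := hw

end Vale.Agent.Lib.P237
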