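import Vale.Agent.Lib.P243.Slices

/-!
# P237: sweeping a planar compact convex set along a segment
-/

namespace Vale.Agent.Lib.P237

open MeasureTheory Set Vale.Agent.Lib.P243

/-- The linear map of the plane with matrix `!![a, b; c, d]`. -/
noncomputable def lin2 (a b c d : ℝ) : ℝ × ℝ →ₗ[ℝ] ℝ × ℝ :=
  Matrix.toLin (Module.Basis.finTwoProd ℝ) (Module.Basis.finTwoProd ℝ) !![a, b; c, d]

theorem lin2_apply (a b c d : ℝ) (x : ℝ × ℝ) :
    lin2 a b c d x = (a * x.1 + b * x.2, c * x.1 + d * x.2) :=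
  Matrix.toLin_finTwoProd_apply a b c d x

theorem det_lin2 (a b c d : ℝ) : LinearMap.det (lin2 a b c d) = a * d - b * c := by
  rw [lin2, LinearMap.det_toLin, Matrix.det_fin_two_of]

theorem volume_image_lin2 (a b c d : ℝ) (S : Set (ℝ × ℝ)) :
    volume (lin2 a b c d '' S) = ENNReal.ofReal |a * d - b * c| * volume S := by
  rw [Measure.addHaar_image_linearMap, det_lin2]

/-- Sweeping a compact convex set horizontally through distance `h` adds at least `h` times
the height difference of any two of its points to the area. -/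
theorem sweep_horizontal {T : Set (ℝ × ℝ)} (hTc : IsCompact T) (hT : Convex ℝ T) {h : ℝ}
    (hh : 0 ≤ h) {p q : ℝ × ℝ} (hp : p ∈ T) (hq : q ∈ T) :
    volume T + ENNReal.ofReal (h * (p.2 - q.2)) ≤
      volume {z : ℝ × ℝ | ∃ y ∈ T, ∃ s ∈ Icc (0 : ℝ) h, z = (y.1 + s, y.2)} := by
  set T' : Set (ℝ × ℝ) := {z : ℝ × ℝ | ∃ y ∈ T, ∃ s ∈ Icc (0 : ℝ) h, z = (y.1 + s, y.2)}
    with hT'
  have hT'c : IsCompact T' := by
    have himg : T' = (fun w : (ℝ × ℝ) × ℝ => (w.1.1 + w.2, w.1.2)) '' (T ×ˢ Icc (0 : ℝ) h) := by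
      ext z
      constructor
      · rintro ⟨y, hy, s, hs, rfl⟩
        exact ⟨(y, s), ⟨hy, hs⟩, rfl⟩
      · rintro ⟨⟨y, s⟩, ⟨hy, hs⟩, rfl⟩
        exact ⟨y, hy, s, hs, rfl⟩
    rw [himg]
    exact (hTc.prod isCompact_Icc).image (by fun_prop)
  have hTm : MeasurableSet T := hTc.isClosed.measurableSet
  have hT'm : MeasurableSet T' := hT'c.isClosed.measurableSet
  rw [volume_eq_lintegral_hslice hT'm, volume_eq_lintegral_hslice hTm]
  have hind : ENNReal.ofReal (h * (p.2 - q.2)) =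
      ∫⁻ t, (Icc q.2 p.2).indicator (fun _ => ENNReal.ofReal h) t := by
    rw [lintegral_indicator measurableSet_Icc, lintegral_const, Measure.restrict_apply_univ,
      Real.volume_Icc, ← ENNReal.ofReal_mul hh]
  rw [hind, ← lintegral_add_left (measurable_volume_hslice hTm)]
  refine lintegral_mono fun t => ?_
  by_cases ht : t ∈ Icc q.2 p.2
  · rw [indicator_of_mem ht]
    have hconv : Convex ℝ (Prod.snd '' T) :=
      hT.linear_image (LinearMap.snd ℝ ℝ ℝ)
    have hmem : t ∈ Prod.snd '' T :=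
      hconv.ordConnected.out ⟨q, hq, rfl⟩ ⟨p, hp, rfl⟩ ht
    have hne : (hslice T t).Nonempty := hslice_nonempty_iff.mpr hmem
    have hIcc := hslice_eq_Icc hTc hT hne
    set a := sInf (hslice T t)
    set b := sSup (hslice T t)
    have hab : a ≤ b := by
      obtain ⟨x, hx⟩ := hne
      rw [hIcc] at hx
      exact hx.1.trans hx.2
    have hsub : Icc a (b + h) ⊆ hslice T' t := by
      intro x hx
      by_cases hxb : x ≤ b
      · have : x ∈ hslice T t := by rw [hIcc]; exact ⟨hx.1, hxb⟩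
        exact ⟨(x, t), this, 0, ⟨le_refl _, hh⟩, by simp⟩
      · have hbm : b ∈ hslice T t := by rw [hIcc]; exact ⟨hab, le_refl _⟩
        refine ⟨(b, t), hbm, x - b, ⟨by linarith [not_le.mp hxb], by linarith [hx.2]⟩, ?_⟩
        simp
    calc volume (hslice T t) + ENNReal.ofReal h
        = ENNReal.ofReal (b - a) + ENNReal.ofReal h := by
          rw [volume_hslice hTc hT hne]
      _ = ENNReal.ofReal (b + h - a) := by
          rw [← ENNReal.ofReal_add (by linarith) hh]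
          congr 1
          ring
      _ = volume (Icc a (b + h)) := by rw [Real.volume_Icc]
      _ ≤ volume (hslice T' t) := measure_mono hsub
  · rw [indicator_of_notMem ht, add_zero]
    refine measure_mono fun x hx => ?_
    exact ⟨(x, t), hx, 0, ⟨le_refl _, hh⟩, by simp⟩

/-- Sweeping a compact convex set `S` along the segment from `0` to `h • c` adds at least
`h` times the difference of the values of `z ↦ c.1 * z.2 - c.2 * z.1` at any two points of
`S` to the area. -/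
theorem sweep_general {S : Set (ℝ × ℝ)} (hSc : IsCompact S) (hS : Convex ℝ S) {h : ℝ}
    (hh : 0 ≤ h) (c : ℝ × ℝ) {p q : ℝ × ℝ} (hp : p ∈ S) (hq : q ∈ S) :
    volume S + ENNReal.ofReal (h * ((c.1 * p.2 - c.2 * p.1) - (c.1 * q.2 - c.2 * q.1))) ≤
      volume {z : ℝ × ℝ | ∃ y ∈ S, ∃ s ∈ Icc (0 : ℝ) h, z = y + s • c} := by
  set S' : Set (ℝ × ℝ) := {z : ℝ × ℝ | ∃ y ∈ S, ∃ s ∈ Icc (0 : ℝ) h, z = y + s • c} with hS'
  have hsub : S ⊆ S' := fun y hy => ⟨y, hy, 0, ⟨le_refl _, hh⟩, by simp⟩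
  by_cases hle : (c.1 * p.2 - c.2 * p.1) - (c.1 * q.2 - c.2 * q.1) ≤ 0
  · rw [ENNReal.ofReal_of_nonpos (mul_nonpos_of_nonneg_of_nonpos hh hle), add_zero]
    exact measure_mono hsub
  have hlt := not_le.mp hle
  have hN : 0 < c.1 ^ 2 + c.2 ^ 2 := by
    by_contra hN
    have h0 : c.1 ^ 2 + c.2 ^ 2 = 0 := le_antisymm (not_lt.mp hN) (by positivity)
    have h1 : c.1 = 0 := by nlinarith [sq_nonneg c.1, sq_nonneg c.2]
    have h2 : c.2 = 0 := by nlinarith [sq_nonneg c.1, sq_nonneg c.2]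
    rw [h1, h2] at hlt
    simp at hlt
  set N := c.1 ^ 2 + c.2 ^ 2 with hNdef
  set L := lin2 (c.1 / N) (c.2 / N) (-c.2) c.1 with hL
  have hdet : |c.1 / N * c.1 - c.2 / N * -c.2| = 1 := by
    have : c.1 / N * c.1 - c.2 / N * -c.2 = 1 := by
      field_simp
      rw [hNdef]
      ring
    rw [this, abs_one]
  have hvol : ∀ P : Set (ℝ × ℝ), volume (L '' P) = volume P := by
    intro P
    rw [hL, volume_image_lin2, hdet, ENNReal.ofReal_one, one_mul]
  have hLc : L c = (1, 0) := by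
    rw [hL, lin2_apply]
    refine Prod.ext ?_ ?_
    · show c.1 / N * c.1 + c.2 / N * c.2 = 1
      field_simp
      rw [hNdef]
    · show -c.2 * c.1 + c.1 * c.2 = 0
      ring
  have hTc : IsCompact (L '' S) := hSc.image (LinearMap.continuous_of_finiteDimensional L)
  have hT : Convex ℝ (L '' S) := hS.linear_image L
  have hkey := sweep_horizontal hTc hT hh (mem_image_of_mem L hp) (mem_image_of_mem L hq)
  have himg : {z : ℝ × ℝ | ∃ y ∈ L '' S, ∃ s ∈ Icc (0 : ℝ) h, z = (y.1 + s, y.2)} = L '' S' := by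
    ext z
    constructor
    · rintro ⟨_, ⟨y, hy, rfl⟩, s, hs, rfl⟩
      refine ⟨y + s • c, ⟨y, hy, s, hs, rfl⟩, ?_⟩
      rw [map_add, map_smul, hLc]
      refine Prod.ext ?_ ?_ <;> simp
    · rintro ⟨_, ⟨y, hy, s, hs, rfl⟩, rfl⟩
      refine ⟨L y, mem_image_of_mem L hy, s, hs, ?_⟩
      rw [map_add, map_smul, hLc]
      refine Prod.ext ?_ ?_ <;> simp
  rw [himg, hvol, hvol] at hkey
  refine le_trans (le_of_eq ?_) hkey
  congr 2
  rw [hL, lin2_apply, lin2_apply]
  show h * (c.1 * p.2 - c.2 * p.1 - (c.1 * q.2 - c.2 * q.1)) =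
    h * ((-c.2 * p.1 + c.1 * p.2) - (-c.2 * q.1 + c.1 * q.2))
  ring

end Vale.Agent.Lib.P237
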