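import Vale.Agent.Lib.P237.Defs
import Vale.Agent.Lib.P237.Planar
import Vale.Agent.Lib.P243.BM2

/-!
# P237: the projection body of a right cylinder over a planar convex body
-/

namespace Vale.Agent.Lib.P237

open MeasureTheory Set Vale.Agent.Lib.P243

/-- For an orthonormal triple `u`, `e`, `f` the cross product of `e` and `f` is `u` or
`-u`. -/
theorem frame_cross {u e f : Fin 3 → ℝ} (hu : u ⬝ᵥ u = 1) (he : e ⬝ᵥ e = 1) (hf : f ⬝ᵥ f = 1)
    (hue : u ⬝ᵥ e = 0) (huf : u ⬝ᵥ f = 0) (hef : e ⬝ᵥ f = 0) :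
    ∃ σ : ℝ, σ ^ 2 = 1 ∧ e 1 * f 2 - e 2 * f 1 = σ * u 0 ∧ e 2 * f 0 - e 0 * f 2 = σ * u 1 ∧
      e 0 * f 1 - e 1 * f 0 = σ * u 2 := by
  simp only [dotProduct, Fin.sum_univ_three] at hu he hf hue huf hef
  have hA : (e 1 * f 2 - e 2 * f 1) ^ 2 + (e 2 * f 0 - e 0 * f 2) ^ 2 +
      (e 0 * f 1 - e 1 * f 0) ^ 2 = 1 := by
    linear_combination (f 0 * f 0 + f 1 * f 1 + f 2 * f 2) * he + hf -
      (e 0 * f 0 + e 1 * f 1 + e 2 * f 2) * hef
  have hB0 : u 1 * (e 0 * f 1 - e 1 * f 0) - u 2 * (e 2 * f 0 - e 0 * f 2) = 0 := by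
    linear_combination e 0 * huf - f 0 * hue
  have hB1 : u 2 * (e 1 * f 2 - e 2 * f 1) - u 0 * (e 0 * f 1 - e 1 * f 0) = 0 := by
    linear_combination e 1 * huf - f 1 * hue
  have hB2 : u 0 * (e 2 * f 0 - e 0 * f 2) - u 1 * (e 1 * f 2 - e 2 * f 1) = 0 := by
    linear_combination e 2 * huf - f 2 * hue
  refine ⟨u 0 * (e 1 * f 2 - e 2 * f 1) + u 1 * (e 2 * f 0 - e 0 * f 2) +
    u 2 * (e 0 * f 1 - e 1 * f 0), ?_, ?_, ?_, ?_⟩
  · linear_combination ((e 1 * f 2 - e 2 * f 1) ^ 2 + (e 2 * f 0 - e 0 * f 2) ^ 2 +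
      (e 0 * f 1 - e 1 * f 0) ^ 2) * hu + hA -
      (u 1 * (e 0 * f 1 - e 1 * f 0) - u 2 * (e 2 * f 0 - e 0 * f 2)) * hB0 -
      (u 2 * (e 1 * f 2 - e 2 * f 1) - u 0 * (e 0 * f 1 - e 1 * f 0)) * hB1 -
      (u 0 * (e 2 * f 0 - e 0 * f 2) - u 1 * (e 1 * f 2 - e 2 * f 1)) * hB2
  · linear_combination (-(e 1 * f 2 - e 2 * f 1)) * hu - u 1 * hB2 + u 2 * hB1
  · linear_combination (-(e 2 * f 0 - e 0 * f 2)) * hu - u 2 * hB0 + u 0 * hB2
  · linear_combination (-(e 0 * f 1 - e 1 * f 0)) * hu - u 0 * hB1 + u 1 * hB0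

/-- The volume of a set of three-space cut out by a condition on the first two coordinates
and a condition on the third. -/
theorem volume_cyl (D : Set (ℝ × ℝ)) (I : Set ℝ) :
    volume {p : Fin 3 → ℝ | (p 0, p 1) ∈ D ∧ p 2 ∈ I} = volume D * volume I := by
  have h1 := volume_preserving_piFinSuccAbove (fun _ : Fin 3 => ℝ) (2 : Fin 3)
  have h2 := volume_preserving_finTwoArrow ℝ
  have hset : {p : Fin 3 → ℝ | (p 0, p 1) ∈ D ∧ p 2 ∈ I} =
      (MeasurableEquiv.piFinSuccAbove (fun _ : Fin 3 => ℝ) (2 : Fin 3)) ⁻¹'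
        (I ×ˢ (MeasurableEquiv.finTwoArrow ⁻¹' D)) := by
    ext p
    simp only [mem_setOf_eq, mem_preimage, mem_prod, MeasurableEquiv.piFinSuccAbove_apply,
      Fin.insertNthEquiv_symm_apply, MeasurableEquiv.finTwoArrow_apply]
    constructor
    · rintro ⟨hD, hI⟩
      exact ⟨hI, hD⟩
    · rintro ⟨hI, hD⟩
      exact ⟨hD, hI⟩
  rw [hset, h1.measure_preimage_equiv, Measure.volume_eq_prod, Measure.prod_prod,
    h2.measure_preimage_equiv, mul_comm]

/-- A point whose first two coordinates are `h` times a quarter-turn of a difference of two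
points of `A`, and whose third coordinate is at most the area of `A` in absolute value, lies
in the projection body of the cylinder over `A` of height `h`. -/
theorem mem_projBody_cylinder {A : Set (ℝ × ℝ)} (hA : Convex ℝ A) (hAc : IsCompact A) {h : ℝ}
    (hh : 0 < h) {x : Fin 3 → ℝ} {a a' : ℝ × ℝ} (ha : a ∈ A) (ha' : a' ∈ A)
    (hx0 : x 0 = -(h * (a.2 - a'.2))) (hx1 : x 1 = h * (a.1 - a'.1))
    (hx2 : |x 2| ≤ (volume A).toReal) :
    x ∈ projBody {p : Fin 3 → ℝ | (p 0, p 1) ∈ A ∧ p 2 ∈ Icc (0 : ℝ) h} := by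
  intro u e f hu he hf hue huf hef
  obtain ⟨σ, hσ, hn0, hn1, hn2⟩ := frame_cross hu he hf hue huf hef
  have hσabs : |σ| = 1 := by
    have h1 := abs_nonneg σ
    have h2 : |σ| ^ 2 = 1 := by rw [sq_abs]; exact hσ
    nlinarith
  set K : Set (Fin 3 → ℝ) := {p : Fin 3 → ℝ | (p 0, p 1) ∈ A ∧ p 2 ∈ Icc (0 : ℝ) h} with hK
  set M := lin2 (e 0) (e 1) (f 0) (f 1) with hM
  set S := M '' A with hS
  have hSc : IsCompact S := hAc.image (LinearMap.continuous_of_finiteDimensional M)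
  have hSconv : Convex ℝ S := hA.linear_image M
  set c : ℝ × ℝ := (e 2, f 2) with hc
  have hsubset : {z : ℝ × ℝ | ∃ y ∈ S, ∃ s ∈ Icc (0 : ℝ) h, z = y + s • c} ⊆
      (fun p : Fin 3 → ℝ => (e ⬝ᵥ p, f ⬝ᵥ p)) '' K := by
    rintro z ⟨_, ⟨b, hb, rfl⟩, s, hs, rfl⟩
    refine ⟨![b.1, b.2, s], ⟨by simpa using hb, by simpa using hs⟩, ?_⟩
    rw [hM, lin2_apply]
    refine Prod.ext ?_ ?_
    · simp [dotProduct, Fin.sum_univ_three, hc]
      ring
    · simp [dotProduct, Fin.sum_univ_three, hc]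
      ring
  have hAfin : volume A ≠ ⊤ := hAc.measure_lt_top.ne
  have hvolS : volume S = ENNReal.ofReal (|u 2| * (volume A).toReal) := by
    rw [hS, hM, volume_image_lin2, hn2, abs_mul, hσabs, one_mul,
      ENNReal.ofReal_mul (abs_nonneg _), ENNReal.ofReal_toReal hAfin]
  set Δ := (a.1 - a'.1) * u 1 - (a.2 - a'.2) * u 0 with hΔ
  have key : ∀ b b' : ℝ × ℝ, (c.1 * (M b).2 - c.2 * (M b).1) -
      (c.1 * (M b').2 - c.2 * (M b').1) = σ * ((b.1 - b'.1) * u 1 - (b.2 - b'.2) * u 0) := by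
    intro b b'
    rw [hM, lin2_apply, lin2_apply]
    show e 2 * (f 0 * b.1 + f 1 * b.2) - f 2 * (e 0 * b.1 + e 1 * b.2) -
      (e 2 * (f 0 * b'.1 + f 1 * b'.2) - f 2 * (e 0 * b'.1 + e 1 * b'.2)) = _
    linear_combination (b.1 - b'.1) * hn1 - (b.2 - b'.2) * hn0
  have hsweep : volume S + ENNReal.ofReal (h * |Δ|) ≤
      volume {z : ℝ × ℝ | ∃ y ∈ S, ∃ s ∈ Icc (0 : ℝ) h, z = y + s • c} := by
    have habs : |Δ| = |σ * Δ| := by rw [abs_mul, hσabs, one_mul]
    rcases le_total 0 (σ * Δ) with hs | hs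
    · have h1 := sweep_general hSc hSconv hh.le c (mem_image_of_mem M ha)
        (mem_image_of_mem M ha')
      rw [key] at h1
      rw [habs, abs_of_nonneg hs]
      exact h1
    · have h1 := sweep_general hSc hSconv hh.le c (mem_image_of_mem M ha')
        (mem_image_of_mem M ha)
      rw [key] at h1
      rw [habs, abs_of_nonpos hs]
      have e1 : σ * ((a'.1 - a.1) * u 1 - (a'.2 - a.2) * u 0) = -(σ * Δ) := by
        rw [hΔ]
        ring
      rw [e1] at h1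
      exact h1
  have hdot : x ⬝ᵥ u ≤ |u 2| * (volume A).toReal + h * |Δ| := by
    have e1 : x ⬝ᵥ u = h * Δ + x 2 * u 2 := by
      simp only [dotProduct, Fin.sum_univ_three]
      rw [hx0, hx1, hΔ]
      ring
    have e2 : x 2 * u 2 ≤ |u 2| * (volume A).toReal := by
      calc x 2 * u 2 ≤ |x 2 * u 2| := le_abs_self _
        _ = |u 2| * |x 2| := by rw [abs_mul, mul_comm]
        _ ≤ |u 2| * (volume A).toReal := mul_le_mul_of_nonneg_left hx2 (abs_nonneg _)
    have e3 : h * Δ ≤ h * |Δ| := mul_le_mul_of_nonneg_left (le_abs_self _) hh.le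
    linarith
  calc ENNReal.ofReal (x ⬝ᵥ u)
      ≤ ENNReal.ofReal (|u 2| * (volume A).toReal + h * |Δ|) := ENNReal.ofReal_le_ofReal hdot
    _ = ENNReal.ofReal (|u 2| * (volume A).toReal) + ENNReal.ofReal (h * |Δ|) :=
        ENNReal.ofReal_add (mul_nonneg (abs_nonneg _) ENNReal.toReal_nonneg)
          (mul_nonneg hh.le (abs_nonneg _))
    _ = volume S + ENNReal.ofReal (h * |Δ|) := by rw [hvolS]
    _ ≤ volume {z : ℝ × ℝ | ∃ y ∈ S, ∃ s ∈ Icc (0 : ℝ) h, z = y + s • c} := hsweep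
    _ ≤ volume ((fun p : Fin 3 → ℝ => (e ⬝ᵥ p, f ⬝ᵥ p)) '' K) := measure_mono hsubset

/-- **Petty's conjectured projection inequality for right cylinders in three-space**, with
the constant `8`. -/
theorem petty_cylinder {A : Set (ℝ × ℝ)} (hA : Convex ℝ A) (hAc : IsCompact A) {h : ℝ}
    (hh : 0 < h) :
    8 * volume {p : Fin 3 → ℝ | (p 0, p 1) ∈ A ∧ p 2 ∈ Icc (0 : ℝ) h} ^ 2 ≤
      volume (projBody {p : Fin 3 → ℝ | (p 0, p 1) ∈ A ∧ p 2 ∈ Icc (0 : ℝ) h}) := by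
  rw [volume_cyl, Real.volume_Icc, sub_zero]
  rcases A.eq_empty_or_nonempty with hAe | hAne
  · rw [hAe, measure_empty, zero_mul]
    simp
  set α := (volume A).toReal with hα
  have hAfin : volume A ≠ ⊤ := hAc.measure_lt_top.ne
  have hAα : volume A = ENNReal.ofReal α := (ENNReal.ofReal_toReal hAfin).symm
  have hα0 : 0 ≤ α := ENNReal.toReal_nonneg
  set D : Set (ℝ × ℝ) :=
    {d | ∃ a ∈ A, ∃ a' ∈ A, d = ((a.1 - a'.1) / 2, (a.2 - a'.2) / 2)} with hD
  have hDc : IsCompact D := by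
    have himg : D = (fun w : (ℝ × ℝ) × (ℝ × ℝ) =>
        ((w.1.1 - w.2.1) / 2, (w.1.2 - w.2.2) / 2)) '' (A ×ˢ A) := by
      ext d
      constructor
      · rintro ⟨a, ha, a', ha', rfl⟩
        exact ⟨(a, a'), ⟨ha, ha'⟩, rfl⟩
      · rintro ⟨⟨a, a'⟩, ⟨ha, ha'⟩, rfl⟩
        exact ⟨a, ha, a', ha', rfl⟩
    rw [himg]
    exact (hAc.prod hAc).image (by fun_prop)
  set B := lin2 (-1) 0 0 (-1) '' A with hB
  have hBc : IsCompact B := hAc.image (LinearMap.continuous_of_finiteDimensional _)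
  have hBvol : volume B = volume A := by
    rw [hB, volume_image_lin2]
    norm_num
  have hbm := bm_planar hA (hA.linear_image (lin2 (-1) 0 0 (-1))) hAc.isClosed.measurableSet
    hBc.isClosed.measurableSet hDc.isClosed.measurableSet hAc.isBounded hBc.isBounded
    hDc.isBounded hAne (hAne.image _) (u := 1 / 2) (v := 1 / 2) (by norm_num) (by norm_num)
    (by norm_num)
    (by
      rintro p hp _ ⟨a', ha', rfl⟩
      refine ⟨p, hp, a', ha', ?_⟩
      rw [lin2_apply]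
      refine Prod.ext ?_ ?_
      · simp
        ring
      · simp
        ring)
  rw [hBvol] at hbm
  have hAD : α ≤ (volume D).toReal := by
    have h1 : √α ≤ √(volume D).toReal := by linarith
    exact (Real.sqrt_le_sqrt_iff ENNReal.toReal_nonneg).mp h1
  have hADe : ENNReal.ofReal α ≤ volume D := by
    rw [← ENNReal.ofReal_toReal hDc.measure_lt_top.ne]
    exact ENNReal.ofReal_le_ofReal hAD
  set G := lin2 0 (-(2 * h)) (2 * h) 0 with hG
  set Z : Set (Fin 3 → ℝ) := {x | (x 0, x 1) ∈ G '' D ∧ x 2 ∈ Icc (-α) α} with hZ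
  have hZsub : Z ⊆ projBody {p : Fin 3 → ℝ | (p 0, p 1) ∈ A ∧ p 2 ∈ Icc (0 : ℝ) h} := by
    rintro x ⟨⟨_, ⟨a, ha, a', ha', rfl⟩, hx⟩, hx2⟩
    rw [hG, lin2_apply] at hx
    have hx0 : x 0 = -(h * (a.2 - a'.2)) := by
      have h1 := congrArg Prod.fst hx
      simp only at h1
      rw [← h1]
      ring
    have hx1 : x 1 = h * (a.1 - a'.1) := by
      have h1 := congrArg Prod.snd hx
      simp only at h1
      rw [← h1]
      ring
    exact mem_projBody_cylinder hA hAc hh ha ha' hx0 hx1 (abs_le.mpr hx2)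
  have hZvol : volume Z = ENNReal.ofReal (4 * h ^ 2) * volume D * ENNReal.ofReal (2 * α) := by
    rw [hZ, volume_cyl, hG, volume_image_lin2, Real.volume_Icc]
    have e1 : |0 * 0 - -(2 * h) * (2 * h)| = 4 * h ^ 2 := by
      rw [abs_of_nonneg (by nlinarith)]
      ring
    have e2 : α - -α = 2 * α := by ring
    rw [e1, e2]
  calc 8 * (volume A * ENNReal.ofReal h) ^ 2
      = ENNReal.ofReal (4 * h ^ 2) * ENNReal.ofReal α * ENNReal.ofReal (2 * α) := by
        have e8 : (8 : ENNReal) = ENNReal.ofReal 8 := by norm_num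
        rw [hAα, e8, ← ENNReal.ofReal_mul hα0, ← ENNReal.ofReal_pow (by positivity),
          ← ENNReal.ofReal_mul (by norm_num), ← ENNReal.ofReal_mul (by positivity),
          ← ENNReal.ofReal_mul (by positivity)]
        congr 1
        ring
    _ ≤ ENNReal.ofReal (4 * h ^ 2) * volume D * ENNReal.ofReal (2 * α) := by gcongr
    _ = volume Z := hZvol.symm
    _ ≤ _ := measure_mono hZsub

end Vale.Agent.Lib.P237
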