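import Mathlib

/-!
# P237: the projection body of a set in three-space

Three-space is `Fin 3 → ℝ` with the dot product `⬝ᵥ`.
-/

namespace Vale.Agent.Lib.P237

open MeasureTheory

/-- The projection body of a set `K` of three-space `Fin 3 → ℝ`.

For an orthonormal triple `u`, `e`, `f` the map `p ↦ (e ⬝ᵥ p, f ⬝ᵥ p)` is the orthogonal
projection onto the plane orthogonal to `u`, written in the orthonormal coordinates `(e, f)`
of that plane.  So the planar Lebesgue measure of the image of `K` under this map is the area
of the orthogonal projection of `K` onto the plane orthogonal to `u`, which is the value at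
`u` of the support function of the projection body.  The projection body is the set of all
`x` whose dot product with every unit vector `u` is at most that area (for every choice of
the orthonormal coordinates `e`, `f`; the area does not depend on the choice). -/
def projBody (K : Set (Fin 3 → ℝ)) : Set (Fin 3 → ℝ) :=
  {x | ∀ u e f : Fin 3 → ℝ, u ⬝ᵥ u = 1 → e ⬝ᵥ e = 1 → f ⬝ᵥ f = 1 →
    u ⬝ᵥ e = 0 → u ⬝ᵥ f = 0 → e ⬝ᵥ f = 0 →
    ENNReal.ofReal (x ⬝ᵥ u) ≤ volume ((fun p : Fin 3 → ℝ => (e ⬝ᵥ p, f ⬝ᵥ p)) '' K)}

end Vale.Agent.Lib.P237
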