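import Vale.Agent.Lib.P237.TwoBase
import Vale.Agent.Lib.P237.ConeVolume

/-!
# P237: frusta over planar convex bodies
-/

namespace Vale.Agent.Lib.P237

open MeasureTheory Set
open scoped Pointwise

/-- The frustum with bottom base `A` (placed in the plane `x 2 = 0` of three-space) and top
base the homothetic copy `r • A + c` (placed in the plane `x 2 = h`): the convex hull of the
two bases. -/
def frustumOver (A : Set (ℝ × ℝ)) (r h : ℝ) (c : ℝ × ℝ) : Set (Fin 3 → ℝ) :=
  convexHull ℝ ((fun x : ℝ × ℝ => (![x.1, x.2, 0] : Fin 3 → ℝ)) '' A ∪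
    (fun x : ℝ × ℝ => (![r * x.1 + c.1, r * x.2 + c.2, h] : Fin 3 → ℝ)) '' A)

/-- The frustum as the set of points on the segments joining corresponding points of the two
bases. -/
def frPar (A : Set (ℝ × ℝ)) (r h : ℝ) (c : ℝ × ℝ) : Set (Fin 3 → ℝ) :=
  {P | ∃ x ∈ A, ∃ t ∈ Icc (0 : ℝ) 1,
    P = ![(1 - t + t * r) * x.1 + t * c.1, (1 - t + t * r) * x.2 + t * c.2, t * h]}

theorem convex_frPar {A : Set (ℝ × ℝ)} (hA : Convex ℝ A) {r : ℝ} (hr : 0 ≤ r) (h : ℝ)
    (c : ℝ × ℝ) : Convex ℝ (frPar A r h c) := by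
  rintro _ ⟨x, hx, u, hu, rfl⟩ _ ⟨y, hy, v, hv, rfl⟩ s t hs ht hst
  have hu0 := hu.1
  have hu1 := hu.2
  have hv0 := hv.1
  have hv1 := hv.2
  have hlu : 0 ≤ 1 - u + u * r := by nlinarith [mul_nonneg hu0 hr]
  have hlv : 0 ≤ 1 - v + v * r := by nlinarith [mul_nonneg hv0 hr]
  have hw0 : 0 ≤ s * u + t * v := by positivity
  have hw1 : s * u + t * v ≤ 1 := by nlinarith
  obtain ⟨Λ, hΛ⟩ : ∃ Λ : ℝ, Λ = s * (1 - u + u * r) + t * (1 - v + v * r) := ⟨_, rfl⟩
  have hΛ0 : 0 ≤ Λ := by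
    rw [hΛ]
    positivity
  have hΛeq : Λ = 1 - (s * u + t * v) + (s * u + t * v) * r := by
    rw [hΛ]
    linear_combination hst
  rcases eq_or_lt_of_le hΛ0 with h0 | hpos
  · have hl : s * (1 - u + u * r) = 0 := by
      nlinarith [mul_nonneg hs hlu, mul_nonneg ht hlv]
    have hm : t * (1 - v + v * r) = 0 := by
      nlinarith [mul_nonneg hs hlu, mul_nonneg ht hlv]
    have hΛ' : 1 - (s * u + t * v) + (s * u + t * v) * r = 0 := by
      rw [← hΛeq]
      exact h0.symm
    refine ⟨x, hx, s * u + t * v, ⟨hw0, hw1⟩, ?_⟩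
    funext i
    fin_cases i
    · simp
      linear_combination x.1 * hl + y.1 * hm - x.1 * hΛ'
    · simp
      linear_combination x.2 * hl + y.2 * hm - x.2 * hΛ'
    · simp
      ring
  · obtain ⟨w₁, hw₁d⟩ : ∃ w₁ : ℝ, w₁ = s * (1 - u + u * r) / Λ := ⟨_, rfl⟩
    obtain ⟨w₂, hw₂d⟩ : ∃ w₂ : ℝ, w₂ = t * (1 - v + v * r) / Λ := ⟨_, rfl⟩
    have hw₁ : Λ * w₁ = s * (1 - u + u * r) := by
      rw [hw₁d]
      field_simp
    have hw₂ : Λ * w₂ = t * (1 - v + v * r) := by
      rw [hw₂d]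
      field_simp
    have hw₁0 : 0 ≤ w₁ := by
      rw [hw₁d]
      exact div_nonneg (mul_nonneg hs hlu) hΛ0
    have hw₂0 : 0 ≤ w₂ := by
      rw [hw₂d]
      exact div_nonneg (mul_nonneg ht hlv) hΛ0
    have hw12 : w₁ + w₂ = 1 := by
      rw [hw₁d, hw₂d, ← add_div, ← hΛ, div_self hpos.ne']
    refine ⟨w₁ • x + w₂ • y, hA hx hy hw₁0 hw₂0 hw12, s * u + t * v, ⟨hw0, hw1⟩, ?_⟩
    funext i
    fin_cases i
    · simp
      linear_combination (-x.1) * hw₁ + (-y.1) * hw₂ + (w₁ * x.1 + w₂ * y.1) * hΛeq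
    · simp
      linear_combination (-x.2) * hw₁ + (-y.2) * hw₂ + (w₁ * x.2 + w₂ * y.2) * hΛeq
    · simp
      ring

theorem frustumOver_subset_frPar {A : Set (ℝ × ℝ)} (hA : Convex ℝ A) {r : ℝ} (hr : 0 ≤ r)
    (h : ℝ) (c : ℝ × ℝ) : frustumOver A r h c ⊆ frPar A r h c := by
  refine convexHull_min ?_ (convex_frPar hA hr h c)
  rintro P (⟨x, hx, rfl⟩ | ⟨x, hx, rfl⟩)
  · refine ⟨x, hx, 0, ⟨le_rfl, zero_le_one⟩, ?_⟩
    funext i
    fin_cases i <;> simp
  · refine ⟨x, hx, 1, ⟨zero_le_one, le_rfl⟩, ?_⟩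
    funext i
    fin_cases i <;> simp

theorem isCompact_frPar {A : Set (ℝ × ℝ)} (hAc : IsCompact A) (r h : ℝ) (c : ℝ × ℝ) :
    IsCompact (frPar A r h c) := by
  have himg : frPar A r h c = (fun w : (ℝ × ℝ) × ℝ =>
      (![(1 - w.2 + w.2 * r) * w.1.1 + w.2 * c.1, (1 - w.2 + w.2 * r) * w.1.2 + w.2 * c.2,
        w.2 * h] : Fin 3 → ℝ)) '' (A ×ˢ Icc (0 : ℝ) 1) := by
    ext P
    constructor
    · rintro ⟨x, hx, t, ht, rfl⟩
      exact ⟨(x, t), ⟨hx, ht⟩, rfl⟩
    · rintro ⟨⟨x, t⟩, ⟨hx, ht⟩, rfl⟩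
      exact ⟨x, hx, t, ht, rfl⟩
  rw [himg]
  refine (hAc.prod isCompact_Icc).image ?_
  refine continuous_pi fun i => ?_
  fin_cases i
  · simp only [Fin.zero_eta, Matrix.cons_val_zero]
    fun_prop
  · simp only [Fin.mk_one, Matrix.cons_val_one, Matrix.cons_val_zero]
    fun_prop
  · simp only [Fin.reduceFinMk, Matrix.cons_val_two, Matrix.tail_cons, Matrix.head_cons]
    fun_prop

/-- The integral of `(1 - z / H + (z / H) * r) ^ 2` over `[0, H]`. -/
theorem lintegral_sq_frustum {H : ℝ} (hH : 0 < H) (r : ℝ) :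
    ∫⁻ z in Icc (0 : ℝ) H, ENNReal.ofReal ((1 - z / H + z / H * r) ^ 2) =
      ENNReal.ofReal (H * (1 + r + r ^ 2) / 3) := by
  have hcont : Continuous fun z : ℝ => (1 - z / H + z / H * r) ^ 2 := by fun_prop
  have hint : IntegrableOn (fun z : ℝ => (1 - z / H + z / H * r) ^ 2) (Icc (0 : ℝ) H) :=
    hcont.continuousOn.integrableOn_Icc
  rw [← ofReal_integral_eq_lintegral_ofReal hint
    (Filter.Eventually.of_forall fun z => sq_nonneg _)]
  congr 1
  rw [integral_Icc_eq_integral_Ioc, ← intervalIntegral.integral_of_le hH.le]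
  have hne : H ≠ 0 := hH.ne'
  obtain ⟨κ, hκ⟩ : ∃ κ : ℝ, κ = (r - 1) / H := ⟨_, rfl⟩
  have hderiv : ∀ z ∈ uIcc (0 : ℝ) H,
      HasDerivAt (fun z : ℝ => z + κ * z ^ 2 + κ ^ 2 / 3 * z ^ 3)
        ((1 - z / H + z / H * r) ^ 2) z := by
    intro z _
    have h1 : HasDerivAt (fun z : ℝ => z) 1 z := hasDerivAt_id z
    have h2 : HasDerivAt (fun z : ℝ => κ * z ^ 2) (κ * ((2 : ℕ) * z ^ (2 - 1))) z :=
      (hasDerivAt_pow 2 z).const_mul κ
    have h3 : HasDerivAt (fun z : ℝ => κ ^ 2 / 3 * z ^ 3)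
        (κ ^ 2 / 3 * ((3 : ℕ) * z ^ (3 - 1))) z :=
      (hasDerivAt_pow 3 z).const_mul (κ ^ 2 / 3)
    exact ((h1.add h2).add h3).congr_deriv (by
      simp only [Nat.cast_ofNat]
      rw [show (2 - 1 : ℕ) = 1 from rfl, show (3 - 1 : ℕ) = 2 from rfl, hκ]
      field_simp
      ring)
  rw [intervalIntegral.integral_eq_sub_of_hasDerivAt hderiv (hcont.intervalIntegrable _ _), hκ]
  field_simp
  ring

/-- The volume of the frustum is at most `h (1 + r + r ^ 2) / 3` times the area of the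
bottom base. -/
theorem volume_frPar_le {A : Set (ℝ × ℝ)} (hAc : IsCompact A) {h : ℝ} (hh : 0 < h) (r : ℝ)
    (c : ℝ × ℝ) :
    volume (frPar A r h c) ≤ ENNReal.ofReal (h * (1 + r + r ^ 2) / 3) * volume A := by
  have h1 := volume_preserving_piFinSuccAbove (fun _ : Fin 3 => ℝ) (2 : Fin 3)
  have h2 := volume_preserving_finTwoArrow ℝ
  set Ψ := MeasurableEquiv.piFinSuccAbove (fun _ : Fin 3 => ℝ) (2 : Fin 3) with hΨ
  set S' : Set (ℝ × (Fin 2 → ℝ)) := Ψ.symm ⁻¹' frPar A r h c with hS'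
  have hS'm : MeasurableSet S' :=
    Ψ.symm.measurable (isCompact_frPar hAc r h c).isClosed.measurableSet
  have hvol : volume (frPar A r h c) = volume S' :=
    ((h1.symm Ψ).measure_preimage_equiv (frPar A r h c)).symm
  have hprod : volume S' = ∫⁻ z, volume (Prod.mk z ⁻¹' S') := by
    rw [Measure.volume_eq_prod]
    exact Measure.prod_apply hS'm
  have hslice : ∀ z : ℝ, volume (Prod.mk z ⁻¹' S') ≤
      (Icc (0 : ℝ) h).indicator
        (fun z => ENNReal.ofReal ((1 - z / h + z / h * r) ^ 2) * volume A) z := by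
    intro z
    by_cases hz : z ∈ Icc (0 : ℝ) h
    · rw [indicator_of_mem hz]
      set t := z / h with ht
      set l := 1 - t + t * r with hl
      have hsub : Prod.mk z ⁻¹' S' ⊆ MeasurableEquiv.finTwoArrow ⁻¹'
          ((fun y : ℝ × ℝ => (t * c.1, t * c.2) + y) '' (lin2 l 0 0 l '' A)) := by
        intro g hg
        have hg' : Ψ.symm (z, g) ∈ frPar A r h c := hg
        rw [hΨ, piFinSuccAbove_symm_apply] at hg'
        obtain ⟨x, hx, s, hs, hP⟩ := hg'
        have e0 := congrFun hP 0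
        have e1 := congrFun hP 1
        have e2 := congrFun hP 2
        simp at e0 e1 e2
        have hst : s = t := by
          rw [ht, e2]
          field_simp
        refine ⟨lin2 l 0 0 l x, mem_image_of_mem _ hx, ?_⟩
        rw [lin2_apply]
        refine Prod.ext ?_ ?_
        · simp
          rw [e0, hst, hl]
          ring
        · simp
          rw [e1, hst, hl]
          ring
      calc volume (Prod.mk z ⁻¹' S')
          ≤ volume (MeasurableEquiv.finTwoArrow ⁻¹'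
            ((fun y : ℝ × ℝ => (t * c.1, t * c.2) + y) '' (lin2 l 0 0 l '' A))) :=
            measure_mono hsub
        _ = volume ((fun y : ℝ × ℝ => (t * c.1, t * c.2) + y) '' (lin2 l 0 0 l '' A)) :=
            h2.measure_preimage_equiv _
        _ = volume (lin2 l 0 0 l '' A) := by
            rw [image_add_left, measure_preimage_add]
        _ = ENNReal.ofReal (l ^ 2) * volume A := by
            rw [volume_image_lin2]
            have e1 : |l * l - 0 * 0| = l ^ 2 := by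
              rw [abs_of_nonneg (by nlinarith [sq_nonneg l])]
              ring
            rw [e1]
    · rw [indicator_of_notMem hz]
      have hempty : Prod.mk z ⁻¹' S' = ∅ := by
        ext g
        simp only [mem_preimage, mem_empty_iff_false, iff_false]
        intro hg
        have hg' : Ψ.symm (z, g) ∈ frPar A r h c := hg
        rw [hΨ, piFinSuccAbove_symm_apply] at hg'
        obtain ⟨x, hx, s, hs, hP⟩ := hg'
        have e2 := congrFun hP 2
        simp at e2
        apply hz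
        rw [e2]
        exact ⟨mul_nonneg hs.1 hh.le, by nlinarith [hs.2]⟩
      rw [hempty, measure_empty]
  calc volume (frPar A r h c) = ∫⁻ z, volume (Prod.mk z ⁻¹' S') := by rw [hvol, hprod]
    _ ≤ ∫⁻ z, (Icc (0 : ℝ) h).indicator
          (fun z => ENNReal.ofReal ((1 - z / h + z / h * r) ^ 2) * volume A) z :=
        lintegral_mono hslice
    _ = ∫⁻ z in Icc (0 : ℝ) h, ENNReal.ofReal ((1 - z / h + z / h * r) ^ 2) * volume A :=
        lintegral_indicator measurableSet_Icc _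
    _ = (∫⁻ z in Icc (0 : ℝ) h, ENNReal.ofReal ((1 - z / h + z / h * r) ^ 2)) * volume A := by
        rw [lintegral_mul_const]
        fun_prop
    _ = ENNReal.ofReal (h * (1 + r + r ^ 2) / 3) * volume A := by
        rw [lintegral_sq_frustum hh]

/-- **Petty's conjectured projection inequality for frusta in three-space**, with the
constant `8`. -/
theorem petty_frustum {A : Set (ℝ × ℝ)} (hA : Convex ℝ A) (hAc : IsCompact A) {r h : ℝ}
    (hr : 0 ≤ r) (hh : 0 < h) (c : ℝ × ℝ) :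
    volume (frustumOver A r h c) ≤ ENNReal.ofReal (h * (1 + r + r ^ 2) / 3) * volume A ∧
    8 * volume (frustumOver A r h c) ^ 2 ≤ volume (projBody (frustumOver A r h c)) := by
  have hvolK : volume (frustumOver A r h c) ≤
      ENNReal.ofReal (h * (1 + r + r ^ 2) / 3) * volume A :=
    (measure_mono (frustumOver_subset_frPar hA hr h c)).trans (volume_frPar_le hAc hh r c)
  refine ⟨hvolK, ?_⟩
  set B : Set (ℝ × ℝ) := (fun x : ℝ × ℝ => (r * x.1 + c.1, r * x.2 + c.2)) '' A with hB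
  have hBc : IsCompact B := hAc.image (by fun_prop)
  have hBconv : Convex ℝ B := by
    rintro _ ⟨x, hx, rfl⟩ _ ⟨y, hy, rfl⟩ s t hs ht hst
    refine ⟨s • x + t • y, hA hx hy hs ht hst, ?_⟩
    refine Prod.ext ?_ ?_
    · simp only [Prod.fst_add, Prod.smul_fst, smul_eq_mul]
      linear_combination (-c.1) * hst
    · simp only [Prod.snd_add, Prod.smul_snd, smul_eq_mul]
      linear_combination (-c.2) * hst
  have hbase : ∀ x ∈ A, (![x.1, x.2, 0] : Fin 3 → ℝ) ∈ frustumOver A r h c := fun x hx =>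
    subset_convexHull ℝ _ (Or.inl (mem_image_of_mem _ hx))
  have htop : ∀ x ∈ B, (![x.1, x.2, h] : Fin 3 → ℝ) ∈ frustumOver A r h c := by
    rintro _ ⟨x, hx, rfl⟩
    exact subset_convexHull ℝ _ (Or.inr ⟨x, hx, rfl⟩)
  have hmain := petty_two_sections (convex_convexHull ℝ _) hA hAc hBconv hBc hbase htop
  have hBvol : volume B = ENNReal.ofReal (r ^ 2) * volume A := by
    have e : B = (fun y : ℝ × ℝ => c + y) '' (lin2 r 0 0 r '' A) := by
      rw [hB, image_image]
      refine image_congr fun x _ => ?_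
      rw [lin2_apply]
      refine Prod.ext ?_ ?_
      · simp
        ring
      · simp
        ring
    rw [e, image_add_left, measure_preimage_add, volume_image_lin2]
    have e1 : |r * r - 0 * 0| = r ^ 2 := by
      rw [abs_of_nonneg (by nlinarith [sq_nonneg r])]
      ring
    rw [e1]
  have hsum : ENNReal.ofReal ((1 + r) ^ 2) * volume A ≤ volume (A + B) := by
    have hsub : (fun y : ℝ × ℝ => c + y) '' (lin2 (1 + r) 0 0 (1 + r) '' A) ⊆ A + B := by
      rintro _ ⟨_, ⟨x, hx, rfl⟩, rfl⟩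
      refine Set.mem_add.mpr ⟨x, hx, (r * x.1 + c.1, r * x.2 + c.2), mem_image_of_mem _ hx, ?_⟩
      rw [lin2_apply]
      refine Prod.ext ?_ ?_
      · simp
        ring
      · simp
        ring
    refine le_trans (le_of_eq ?_) (measure_mono hsub)
    rw [image_add_left, measure_preimage_add, volume_image_lin2]
    have e1 : |(1 + r) * (1 + r) - 0 * 0| = (1 + r) ^ 2 := by
      rw [abs_of_nonneg (by nlinarith [sq_nonneg (1 + r)])]
      ring
    rw [e1]
  rw [hBvol] at hmain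
  have hreal : 8 * (h * (1 + r + r ^ 2) / 3) ^ 2 ≤ h ^ 2 * (1 + r ^ 2) * (1 + r) ^ 2 := by
    have h0 : 0 ≤ h ^ 2 * ((1 - r) ^ 2 * (1 + 4 * r + r ^ 2)) := by positivity
    nlinarith
  calc 8 * volume (frustumOver A r h c) ^ 2
      ≤ 8 * (ENNReal.ofReal (h * (1 + r + r ^ 2) / 3) * volume A) ^ 2 := by gcongr
    _ = ENNReal.ofReal (8 * (h * (1 + r + r ^ 2) / 3) ^ 2) * volume A ^ 2 := by
        have e8 : (8 : ENNReal) = ENNReal.ofReal 8 := by norm_num
        rw [mul_pow, ← mul_assoc, e8, ← ENNReal.ofReal_pow (by positivity),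
          ← ENNReal.ofReal_mul (by norm_num)]
    _ ≤ ENNReal.ofReal (h ^ 2 * (1 + r ^ 2) * (1 + r) ^ 2) * volume A ^ 2 := by
        gcongr
    _ = ENNReal.ofReal (h ^ 2) * (volume A + ENNReal.ofReal (r ^ 2) * volume A) *
          (ENNReal.ofReal ((1 + r) ^ 2) * volume A) := by
        rw [ENNReal.ofReal_mul (by positivity), ENNReal.ofReal_mul (by positivity),
          ENNReal.ofReal_add zero_le_one (by positivity), ENNReal.ofReal_one]
        ring
    _ ≤ ENNReal.ofReal (h ^ 2) * (volume A + ENNReal.ofReal (r ^ 2) * volume A) *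
          volume (A + B) := by gcongr
    _ ≤ _ := hmain

end Vale.Agent.Lib.P237
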