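import Vale.Agent.Lib.P237.Boundary

/-!
# P237: the Steiner polynomial of two planar compact convex sets

For nonempty compact convex `X`, `Y` in the plane and `l, m ≥ 0`,
`area (l X + m Y) = l ^ 2 area X + m ^ 2 area Y + l m (area (X + Y) - area X - area Y)`.
The inequality `≥` comes from the transport of the right and left boundaries
(`Lib/P237/Boundary.lean`); `≤` follows by applying `≥` to `l X`, `m Y` and `1 / l`, `1 / m`.
Consequences: the mixed term `area (X + Y) - area X - area Y` is monotone in `X`, and it is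
at most twice the area of any convex set containing `X` and `Y`.
-/

namespace Vale.Agent.Lib.P237

open MeasureTheory Set Filter Topology Vale.Agent.Lib.P243
open scoped ENNReal NNReal Pointwise

/-- Reflection in the vertical axis. -/
def flipX (p : ℝ × ℝ) : ℝ × ℝ := (-p.1, p.2)

theorem continuous_flipX : Continuous flipX := by
  unfold flipX
  fun_prop

theorem flipX_add (p q : ℝ × ℝ) : flipX (p + q) = flipX p + flipX q := by
  refine Prod.ext ?_ ?_
  · simp only [flipX, Prod.fst_add]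
    ring
  · simp only [flipX, Prod.snd_add]

theorem flipX_smul (c : ℝ) (p : ℝ × ℝ) : flipX (c • p) = c • flipX p := by
  refine Prod.ext ?_ ?_ <;> simp [flipX]

theorem convex_flipX {X : Set (ℝ × ℝ)} (hX : Convex ℝ X) : Convex ℝ (flipX '' X) := by
  rintro _ ⟨p, hp, rfl⟩ _ ⟨q, hq, rfl⟩ a b ha hb hab
  refine ⟨a • p + b • q, hX hp hq ha hb hab, ?_⟩
  rw [flipX_add, flipX_smul, flipX_smul]

theorem snd_image_flipX (X : Set (ℝ × ℝ)) : Prod.snd '' (flipX '' X) = Prod.snd '' X := by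
  rw [image_image]
  rfl

theorem flipX_image_add (X Y : Set (ℝ × ℝ)) : flipX '' (X + Y) = flipX '' X + flipX '' Y := by
  ext z
  constructor
  · rintro ⟨_, ⟨p, hp, q, hq, rfl⟩, rfl⟩
    rw [flipX_add]
    exact Set.add_mem_add (mem_image_of_mem _ hp) (mem_image_of_mem _ hq)
  · rintro ⟨_, ⟨p, hp, rfl⟩, _, ⟨q, hq, rfl⟩, rfl⟩
    show flipX p + flipX q ∈ flipX '' (X + Y)
    rw [← flipX_add]
    exact mem_image_of_mem _ (Set.add_mem_add hp hq)

theorem rb_flipX (X : Set (ℝ × ℝ)) (η : ℝ) : rb (flipX '' X) η = -sInf (hslice X η) := by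
  have e : hslice (flipX '' X) η = -hslice X η := by
    ext x
    simp only [mem_hslice, Set.mem_neg]
    constructor
    · rintro ⟨p, hp, hpe⟩
      have h1 : -p.1 = x := congrArg Prod.fst hpe
      have h2 : p.2 = η := congrArg Prod.snd hpe
      have e' : p = (-x, η) := Prod.ext (by simp only; linarith) h2
      rw [← e']
      exact hp
    · intro h
      exact ⟨(-x, η), h, by simp [flipX]⟩
  rw [rb, e, Real.sInf_def, neg_neg]

theorem lintegral_hslice_Icc {X : Set (ℝ × ℝ)} (hXm : MeasurableSet X) {x₀ x₁ : ℝ}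
    (hIX : Prod.snd '' X = Icc x₀ x₁) :
    ∫⁻ t in Icc x₀ x₁, volume (hslice X t) = volume X := by
  rw [volume_eq_lintegral_hslice hXm, ← lintegral_indicator measurableSet_Icc]
  congr 1
  funext t
  by_cases ht : t ∈ Icc x₀ x₁
  · rw [indicator_of_mem ht]
  · rw [indicator_of_notMem ht]
    have : hslice X t = ∅ :=
      Set.not_nonempty_iff_eq_empty.mp (fun h => ht (hIX ▸ hslice_nonempty_iff.mp h))
    rw [this, measure_empty]

/-- The area of a compact convex set in a vertical strip `|x| ≤ c`, in terms of the integrals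
of its shifted right and (reflected) left boundaries. -/
theorem area_split {X : Set (ℝ × ℝ)} (hX : Convex ℝ X) (hXc : IsCompact X) {x₀ x₁ : ℝ}
    (hIX : Prod.snd '' X = Icc x₀ x₁) {c : ℝ} (hc : ∀ p ∈ X, |p.1| ≤ c) :
    (∫⁻ t in Icc x₀ x₁, ENNReal.ofReal (rb X t + c)) +
      (∫⁻ t in Icc x₀ x₁, ENNReal.ofReal (rb (flipX '' X) t + c)) =
    volume X + ENNReal.ofReal (2 * c) * ENNReal.ofReal (x₁ - x₀) := by
  have hm1 : Measurable fun t => ENNReal.ofReal (rb X t + c) :=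
    ((measurable_rb hXc).add_const c).ennreal_ofReal
  rw [← lintegral_add_left hm1]
  have hpt : ∀ t ∈ Icc x₀ x₁,
      ENNReal.ofReal (rb X t + c) + ENNReal.ofReal (rb (flipX '' X) t + c) =
      volume (hslice X t) + ENNReal.ofReal (2 * c) := by
    intro t ht
    have htI : t ∈ Prod.snd '' X := by rw [hIX]; exact ht
    have hne := hslice_nonempty_iff.mpr htI
    have hcomp := hslice_isCompact hXc t
    have m1 : (sSup (hslice X t), t) ∈ X := hcomp.sSup_mem hne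
    have m2 : (sInf (hslice X t), t) ∈ X := hcomp.sInf_mem hne
    have b1 := abs_le.mp (hc _ m1)
    have b2 := abs_le.mp (hc _ m2)
    simp only at b1 b2
    have hle : sInf (hslice X t) ≤ sSup (hslice X t) := by
      obtain ⟨x, hx⟩ := hne
      exact (csInf_le hcomp.bddBelow hx).trans (le_csSup hcomp.bddAbove hx)
    rw [rb_flipX, volume_hslice hXc hX hne, rb,
      ← ENNReal.ofReal_add (by linarith) (by linarith),
      ← ENNReal.ofReal_add (by linarith) (by linarith)]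
    congr 1
    ring
  rw [setLIntegral_congr_fun measurableSet_Icc hpt,
    lintegral_add_left (measurable_volume_hslice hXc.isClosed.measurableSet),
    lintegral_hslice_Icc hXc.isClosed.measurableSet hIX, setLIntegral_const, Real.volume_Icc]

theorem exists_strip {X : Set (ℝ × ℝ)} (hX : Convex ℝ X) (hXc : IsCompact X)
    (hXne : X.Nonempty) : ∃ x₀ x₁ : ℝ, x₀ ≤ x₁ ∧ Prod.snd '' X = Icc x₀ x₁ := by
  have hc : IsCompact (Prod.snd '' X) := hXc.image continuous_snd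
  have hconv : Convex ℝ (Prod.snd '' X) := by
    have h := hX.linear_image (LinearMap.snd ℝ ℝ ℝ)
    rwa [LinearMap.coe_snd] at h
  have e := eq_Icc_of_connected_compact ⟨hXne.image _, hconv.isPreconnected⟩ hc
  refine ⟨sInf (Prod.snd '' X), sSup (Prod.snd '' X), ?_, e⟩
  obtain ⟨t, ht⟩ := hXne.image Prod.snd
  exact (csInf_le hc.bddBelow ht).trans (le_csSup hc.bddAbove ht)

theorem exists_absbound {X : Set (ℝ × ℝ)} (hXc : IsCompact X) :
    ∃ c : ℝ, ∀ p ∈ X, |p.1| ≤ c := by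
  obtain ⟨C, hC⟩ := hXc.exists_bound_of_continuousOn (f := Prod.fst)
    continuous_fst.continuousOn
  exact ⟨C, fun p hp => by simpa [Real.norm_eq_abs] using hC p hp⟩

theorem snd_image_smul {X : Set (ℝ × ℝ)} {x₀ x₁ : ℝ} (hIX : Prod.snd '' X = Icc x₀ x₁)
    (hx : x₀ ≤ x₁) {l : ℝ} (hl : 0 ≤ l) : Prod.snd '' (l • X) = Icc (l * x₀) (l * x₁) := by
  ext ζ
  constructor
  · rintro ⟨_, ⟨p, hp, rfl⟩, rfl⟩
    have h1 : p.2 ∈ Icc x₀ x₁ := hIX ▸ mem_image_of_mem _ hp
    exact ⟨mul_le_mul_of_nonneg_left h1.1 hl, mul_le_mul_of_nonneg_left h1.2 hl⟩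
  · intro hζ
    rcases hl.eq_or_lt with h0 | h0
    · have hx0 : x₀ ∈ Prod.snd '' X := by rw [hIX]; exact ⟨le_rfl, hx⟩
      obtain ⟨p, hp, hp2⟩ := hx0
      refine ⟨l • p, Set.smul_mem_smul_set hp, ?_⟩
      rw [← h0] at hζ ⊢
      simp only [zero_mul, mem_Icc] at hζ
      simp only [zero_smul, Prod.snd_zero]
      linarith [hζ.1, hζ.2]
    · have ht : ζ / l ∈ Prod.snd '' X := by
        rw [hIX]
        exact ⟨by rw [le_div_iff₀ h0]; linarith [hζ.1], by rw [div_le_iff₀ h0]; linarith [hζ.2]⟩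
      obtain ⟨p, hp, hp2⟩ := ht
      refine ⟨l • p, Set.smul_mem_smul_set hp, ?_⟩
      simp only [Prod.smul_snd, smul_eq_mul]
      rw [hp2]
      field_simp

theorem volume_smul_planar (l : ℝ) (X : Set (ℝ × ℝ)) :
    volume (l • X) = ENNReal.ofReal (l ^ 2) * volume X := by
  have e : l • X = lin2 l 0 0 l '' X := by
    rw [← Set.image_smul]
    refine image_congr fun p _ => ?_
    rw [lin2_apply]
    refine Prod.ext ?_ ?_ <;> simp
  rw [e, volume_image_lin2]
  have e1 : |l * l - 0 * 0| = l ^ 2 := by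
    rw [abs_of_nonneg (by nlinarith [sq_nonneg l])]
    ring
  rw [e1]

theorem split_real {a b v : ℝ≥0∞} {x y : ℝ} (hx : 0 ≤ x) (hy : 0 ≤ y) (hv : v ≠ ⊤)
    (h : a + b = v + ENNReal.ofReal x * ENNReal.ofReal y) :
    a ≠ ⊤ ∧ b ≠ ⊤ ∧ a.toReal + b.toReal = v.toReal + x * y := by
  have hxy : ENNReal.ofReal x * ENNReal.ofReal y ≠ ⊤ :=
    ENNReal.mul_ne_top ENNReal.ofReal_ne_top ENNReal.ofReal_ne_top
  have hfin : a + b ≠ ⊤ := by
    rw [h]
    exact ENNReal.add_ne_top.mpr ⟨hv, hxy⟩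
  obtain ⟨ha, hb⟩ := ENNReal.add_ne_top.mp hfin
  refine ⟨ha, hb, ?_⟩
  have h' := congrArg ENNReal.toReal h
  rw [ENNReal.toReal_add ha hb, ENNReal.toReal_add hv hxy, ENNReal.toReal_mul,
    ENNReal.toReal_ofReal hx, ENNReal.toReal_ofReal hy] at h'
  exact h'

theorem ineq_real {l m : ℝ≥0} {a b e z : ℝ≥0∞} (ha : a ≠ ⊤) (hb : b ≠ ⊤) (he : e ≠ ⊤)
    (hz : z ≠ ⊤) (h : (l : ℝ≥0∞) ^ 2 * a + (m : ℝ≥0∞) ^ 2 * b + l * m * e ≤ z) :
    (l : ℝ) ^ 2 * a.toReal + (m : ℝ) ^ 2 * b.toReal + l * m * e.toReal ≤ z.toReal := by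
  have h' := ENNReal.toReal_mono hz h
  have f1 : (l : ℝ≥0∞) ^ 2 * a ≠ ⊤ :=
    ENNReal.mul_ne_top (ENNReal.pow_ne_top ENNReal.coe_ne_top) ha
  have f2 : (m : ℝ≥0∞) ^ 2 * b ≠ ⊤ :=
    ENNReal.mul_ne_top (ENNReal.pow_ne_top ENNReal.coe_ne_top) hb
  have f3 : (l : ℝ≥0∞) * m * e ≠ ⊤ :=
    ENNReal.mul_ne_top (ENNReal.mul_ne_top ENNReal.coe_ne_top ENNReal.coe_ne_top) he
  rw [ENNReal.toReal_add (ENNReal.add_ne_top.mpr ⟨f1, f2⟩) f3, ENNReal.toReal_add f1 f2,
    ENNReal.toReal_mul, ENNReal.toReal_mul, ENNReal.toReal_mul, ENNReal.toReal_mul,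
    ENNReal.toReal_pow, ENNReal.toReal_pow, ENNReal.coe_toReal, ENNReal.coe_toReal] at h'
  exact h'

theorem eq_real {a b e w : ℝ≥0∞} (hw : w ≠ ⊤) (h : w = a + b + e) :
    e ≠ ⊤ ∧ w.toReal = a.toReal + b.toReal + e.toReal := by
  have h1 : a + b + e ≠ ⊤ := h ▸ hw
  obtain ⟨hab, he⟩ := ENNReal.add_ne_top.mp h1
  obtain ⟨ha, hb⟩ := ENNReal.add_ne_top.mp hab
  exact ⟨he, by rw [h, ENNReal.toReal_add hab he, ENNReal.toReal_add ha hb]⟩

theorem steiner_algebra {l m cX cY x₀ x₁ y₀ y₁ rX lX rY lY rW lW rZ lZ eR eL vX vY vW vZ : ℝ}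
    (h1 : rX + lX = vX + 2 * cX * (x₁ - x₀)) (h2 : rY + lY = vY + 2 * cY * (y₁ - y₀))
    (h3 : rW + lW = vW + 2 * (cX + cY) * (x₁ + y₁ - (x₀ + y₀)))
    (h4 : rZ + lZ = vZ + 2 * (l * cX + m * cY) * (l * x₁ + m * y₁ - (l * x₀ + m * y₀)))
    (h5 : rW = rX + rY + eR) (h6 : lW = lX + lY + eL)
    (h7 : l ^ 2 * rX + m ^ 2 * rY + l * m * eR ≤ rZ)
    (h8 : l ^ 2 * lX + m ^ 2 * lY + l * m * eL ≤ lZ) :
    l ^ 2 * vX + m ^ 2 * vY + l * m * (vW - vX - vY) ≤ vZ := by
  have key : vZ - (l ^ 2 * vX + m ^ 2 * vY + l * m * (vW - vX - vY)) =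
      (rZ - (l ^ 2 * rX + m ^ 2 * rY + l * m * eR)) +
        (lZ - (l ^ 2 * lX + m ^ 2 * lY + l * m * eL)) := by
    linear_combination (-1 : ℝ) * h4 + l ^ 2 * h1 + m ^ 2 * h2 +
      l * m * (h3 - h5 - h6 - h1 - h2)
  linarith [sub_nonneg.mpr h7, sub_nonneg.mpr h8]

/-- **Steiner polynomial, lower bound.** -/
theorem steiner_ge {X Y : Set (ℝ × ℝ)} (hX : Convex ℝ X) (hY : Convex ℝ Y)
    (hXc : IsCompact X) (hYc : IsCompact Y) (hXne : X.Nonempty) (hYne : Y.Nonempty) {l m : ℝ}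
    (hl : 0 ≤ l) (hm : 0 ≤ m) :
    l ^ 2 * (volume X).toReal + m ^ 2 * (volume Y).toReal +
        l * m * ((volume (X + Y)).toReal - (volume X).toReal - (volume Y).toReal) ≤
      (volume (l • X + m • Y)).toReal := by
  obtain ⟨x₀, x₁, hx, hIX⟩ := exists_strip hX hXc hXne
  obtain ⟨y₀, y₁, hy, hIY⟩ := exists_strip hY hYc hYne
  obtain ⟨cX, hcX⟩ := exists_absbound hXc
  obtain ⟨cY, hcY⟩ := exists_absbound hYc
  have hcX0 : 0 ≤ cX := by
    obtain ⟨p, hp⟩ := hXne
    exact (abs_nonneg _).trans (hcX p hp)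
  have hcY0 : 0 ≤ cY := by
    obtain ⟨p, hp⟩ := hYne
    exact (abs_nonneg _).trans (hcY p hp)
  lift l to ℝ≥0 using hl
  lift m to ℝ≥0 using hm
  obtain ⟨Z, hZ⟩ : ∃ Z : Set (ℝ × ℝ), Z = (l : ℝ) • X + (m : ℝ) • Y := ⟨_, rfl⟩
  rw [← hZ]
  have hZc : IsCompact Z := hZ ▸ (hXc.smul _).add (hYc.smul _)
  have hZconv : Convex ℝ Z := hZ ▸ (hX.smul _).add (hY.smul _)
  have hIZ : Prod.snd '' Z = Icc (l * x₀ + m * y₀) (l * x₁ + m * y₁) := by
    rw [hZ]
    exact snd_image_add (snd_image_smul hIX hx l.coe_nonneg) (snd_image_smul hIY hy m.coe_nonneg)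
      (mul_le_mul_of_nonneg_left hx l.coe_nonneg) (mul_le_mul_of_nonneg_left hy m.coe_nonneg)
  have hWc : IsCompact (X + Y) := hXc.add hYc
  have hWconv : Convex ℝ (X + Y) := hX.add hY
  have hIW := snd_image_add hIX hIY hx hy
  have hcW : ∀ p ∈ X + Y, |p.1| ≤ cX + cY := by
    rintro _ ⟨p, hp, q, hq, rfl⟩
    exact (abs_add_le _ _).trans (add_le_add (hcX p hp) (hcY q hq))
  have hZmem : ∀ p ∈ X, ∀ q ∈ Y, (l : ℝ) • p + (m : ℝ) • q ∈ Z := fun p hp q hq => by
    rw [hZ]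
    exact Set.add_mem_add (Set.smul_mem_smul_set hp) (Set.smul_mem_smul_set hq)
  have hcZ : ∀ p ∈ Z, |p.1| ≤ l * cX + m * cY := by
    rw [hZ]
    rintro _ ⟨_, ⟨p, hp, rfl⟩, _, ⟨q, hq, rfl⟩, rfl⟩
    have h1 : |(l : ℝ) * p.1| ≤ l * cX := by
      rw [abs_mul, abs_of_nonneg l.coe_nonneg]
      exact mul_le_mul_of_nonneg_left (hcX p hp) l.coe_nonneg
    have h2 : |(m : ℝ) * q.1| ≤ m * cY := by
      rw [abs_mul, abs_of_nonneg m.coe_nonneg]
      exact mul_le_mul_of_nonneg_left (hcY q hq) m.coe_nonneg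
    exact (abs_add_le _ _).trans (add_le_add h1 h2)
  -- right boundaries
  obtain ⟨ER, heqR, hineqR⟩ := rb_transport hX hY hXc hYc hIX hIY hx hy (cX := cX) (cY := cY)
    (fun p hp => by linarith [(abs_le.mp (hcX p hp)).1])
    (fun q hq => by linarith [(abs_le.mp (hcY q hq)).1])
  have hR := hineqR l m Z hZc hZmem
  -- left boundaries, by reflection
  obtain ⟨EL, heqL, hineqL⟩ := rb_transport (convex_flipX hX) (convex_flipX hY)
    (hXc.image continuous_flipX) (hYc.image continuous_flipX)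
    ((snd_image_flipX X).trans hIX) ((snd_image_flipX Y).trans hIY) hx hy (cX := cX) (cY := cY)
    (by
      rintro _ ⟨p, hp, rfl⟩
      have := (abs_le.mp (hcX p hp)).2
      simp only [flipX]
      linarith)
    (by
      rintro _ ⟨q, hq, rfl⟩
      have := (abs_le.mp (hcY q hq)).2
      simp only [flipX]
      linarith)
  have hL := hineqL l m (flipX '' Z) (hZc.image continuous_flipX) (by
    rintro _ ⟨p, hp, rfl⟩ _ ⟨q, hq, rfl⟩
    rw [← flipX_smul, ← flipX_smul, ← flipX_add]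
    exact mem_image_of_mem _ (hZmem p hp q hq))
  rw [← flipX_image_add] at heqL
  -- area splits
  have s1 := area_split hX hXc hIX hcX
  have s2 := area_split hY hYc hIY hcY
  have s3 := area_split hWconv hWc hIW hcW
  have s4 := area_split hZconv hZc hIZ hcZ
  have hlc : 0 ≤ (l : ℝ) * cX + m * cY :=
    add_nonneg (mul_nonneg l.coe_nonneg hcX0) (mul_nonneg m.coe_nonneg hcY0)
  obtain ⟨f1a, f1b, r1⟩ := split_real (by linarith) (by linarith) hXc.measure_lt_top.ne s1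
  obtain ⟨f2a, f2b, r2⟩ := split_real (by linarith) (by linarith) hYc.measure_lt_top.ne s2
  obtain ⟨f3a, f3b, r3⟩ := split_real (by linarith) (by linarith) hWc.measure_lt_top.ne s3
  obtain ⟨f4a, f4b, r4⟩ := split_real (by linarith)
    (by nlinarith [l.coe_nonneg, m.coe_nonneg]) hZc.measure_lt_top.ne s4
  obtain ⟨fER, r5⟩ := eq_real f3a heqR
  obtain ⟨fEL, r6⟩ := eq_real f3b heqL
  have r7 := ineq_real f1a f2a fER f4a hR
  have r8 := ineq_real f1b f2b fEL f4b hL
  exact steiner_algebra r1 r2 r3 r4 r5 r6 r7 r8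

/-- **Steiner polynomial, upper bound.** -/
theorem steiner_le {X Y : Set (ℝ × ℝ)} (hX : Convex ℝ X) (hY : Convex ℝ Y)
    (hXc : IsCompact X) (hYc : IsCompact Y) (hXne : X.Nonempty) (hYne : Y.Nonempty) {l m : ℝ}
    (hl : 0 ≤ l) (hm : 0 ≤ m) :
    (volume (l • X + m • Y)).toReal ≤
      l ^ 2 * (volume X).toReal + m ^ 2 * (volume Y).toReal +
        l * m * ((volume (X + Y)).toReal - (volume X).toReal - (volume Y).toReal) := by
  have hvs : ∀ (c : ℝ) (S : Set (ℝ × ℝ)), (volume (c • S)).toReal = c ^ 2 * (volume S).toReal :=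
    fun c S => by
      rw [volume_smul_planar, ENNReal.toReal_mul, ENNReal.toReal_ofReal (sq_nonneg c)]
  rcases hl.eq_or_lt with hl0 | hl0
  · rw [← hl0, zero_smul_set hXne, zero_add, hvs]
    simp
  rcases hm.eq_or_lt with hm0 | hm0
  · rw [← hm0, zero_smul_set hYne, add_zero, hvs]
    simp
  have key := steiner_ge (hX.smul l) (hY.smul m) (hXc.smul l) (hYc.smul m) (hXne.smul_set)
    (hYne.smul_set) (l := l⁻¹) (m := m⁻¹) (inv_nonneg.mpr hl) (inv_nonneg.mpr hm)
  rw [smul_smul, smul_smul, inv_mul_cancel₀ hl0.ne', inv_mul_cancel₀ hm0.ne', one_smul, one_smul,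
    hvs, hvs] at key
  have hlm : 0 < l * m := mul_pos hl0 hm0
  have e : l⁻¹ ^ 2 * (l ^ 2 * (volume X).toReal) + m⁻¹ ^ 2 * (m ^ 2 * (volume Y).toReal) +
      l⁻¹ * m⁻¹ * ((volume (l • X + m • Y)).toReal - l ^ 2 * (volume X).toReal -
        m ^ 2 * (volume Y).toReal) =
      (volume X).toReal + (volume Y).toReal + ((volume (l • X + m • Y)).toReal -
        l ^ 2 * (volume X).toReal - m ^ 2 * (volume Y).toReal) / (l * m) := by
    field_simp
  rw [e] at key
  have h2 : ((volume (l • X + m • Y)).toReal - l ^ 2 * (volume X).toReal -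
      m ^ 2 * (volume Y).toReal) / (l * m) ≤
      (volume (X + Y)).toReal - (volume X).toReal - (volume Y).toReal := by linarith
  rw [div_le_iff₀ hlm] at h2
  linarith

/-- The mixed term is monotone in the first set. -/
theorem mixed_mono {X X' Y : Set (ℝ × ℝ)} (hX : Convex ℝ X) (hX' : Convex ℝ X')
    (hY : Convex ℝ Y) (hXc : IsCompact X) (hXc' : IsCompact X') (hYc : IsCompact Y)
    (hXne : X.Nonempty) (hYne : Y.Nonempty) (hsub : X ⊆ X') :
    (volume (X + Y)).toReal - (volume X).toReal - (volume Y).toReal ≤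
      (volume (X' + Y)).toReal - (volume X').toReal - (volume Y).toReal := by
  have hXne' : X'.Nonempty := hXne.mono hsub
  by_contra hcon
  push Not at hcon
  obtain ⟨δ, hδ⟩ : ∃ δ : ℝ, δ = (volume (X + Y)).toReal - (volume X).toReal -
    (volume Y).toReal := ⟨_, rfl⟩
  obtain ⟨δ', hδ'⟩ : ∃ δ' : ℝ, δ' = (volume (X' + Y)).toReal - (volume X').toReal -
    (volume Y).toReal := ⟨_, rfl⟩
  rw [← hδ, ← hδ'] at hcon
  have hvle : (volume X).toReal ≤ (volume X').toReal :=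
    ENNReal.toReal_mono hXc'.measure_lt_top.ne (measure_mono hsub)
  obtain ⟨D, hD⟩ : ∃ D : ℝ, D = (volume X').toReal - (volume X).toReal := ⟨_, rfl⟩
  have hD0 : 0 ≤ D := by rw [hD]; linarith
  obtain ⟨ε, hε⟩ : ∃ ε : ℝ, ε = min 1 ((δ - δ') / (2 * (D + 1))) := ⟨_, rfl⟩
  have hq : 0 < (δ - δ') / (2 * (D + 1)) := div_pos (by linarith) (by linarith)
  have hε0 : 0 < ε := by rw [hε]; exact lt_min one_pos hq
  have hε2 : ε * (D + 1) ≤ (δ - δ') / 2 := by
    have h1 : ε ≤ (δ - δ') / (2 * (D + 1)) := by rw [hε]; exact min_le_right _ _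
    have h2 : ε * (2 * (D + 1)) ≤ δ - δ' := (le_div_iff₀ (by linarith)).mp h1
    linarith
  have g1 := steiner_ge hX hY hXc hYc hXne hYne hε0.le zero_le_one
  have g2 := steiner_le hX' hY hXc' hYc hXne' hYne hε0.le zero_le_one
  have hmono : (volume (ε • X + (1 : ℝ) • Y)).toReal ≤ (volume (ε • X' + (1 : ℝ) • Y)).toReal := by
    refine ENNReal.toReal_mono ((hXc'.smul ε).add (hYc.smul (1 : ℝ))).measure_lt_top.ne
      (measure_mono ?_)
    exact Set.add_subset_add_right (Set.smul_set_mono hsub)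
  rw [← hδ] at g1
  rw [← hδ'] at g2
  have h3 : ε * (δ - δ' - ε * D) ≤ 0 := by
    rw [hD]
    nlinarith
  have h4 : δ - δ' - ε * D ≤ 0 := by
    by_contra h
    push Not at h
    have := mul_pos hε0 h
    linarith
  nlinarith

/-- The mixed term of two sets is at most twice the area of a compact convex set containing
both. -/
theorem mixed_le_two_mul {A B C : Set (ℝ × ℝ)} (hA : Convex ℝ A) (hB : Convex ℝ B)
    (hC : Convex ℝ C) (hAc : IsCompact A) (hBc : IsCompact B) (hCc : IsCompact C)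
    (hAne : A.Nonempty) (hBne : B.Nonempty) (hAC : A ⊆ C) (hBC : B ⊆ C) :
    (volume (A + B)).toReal - (volume A).toReal - (volume B).toReal ≤
      2 * (volume C).toReal := by
  have hCne : C.Nonempty := hAne.mono hAC
  have h1 := mixed_mono hA hC hB hAc hCc hBc hAne hBne hAC
  have h2 := mixed_mono hB hC hC hBc hCc hCc hBne hCne hBC
  rw [add_comm C B] at h1
  have hCC : C + C = (2 : ℝ) • C := by
    have := hC.add_smul (show (0 : ℝ) ≤ 1 from zero_le_one) (show (0 : ℝ) ≤ 1 from zero_le_one)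
    rw [one_smul] at this
    rw [← this]
    norm_num
  rw [hCC, volume_smul_planar, ENNReal.toReal_mul, ENNReal.toReal_ofReal (by norm_num)] at h2
  linarith

end Vale.Agent.Lib.P237
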