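import Mathlib

/-!
# P237: transport along a monotone curve

Pure measure theory on the line.  For a continuous nondecreasing function `F` that is
constant outside `[η₀, η₁]`, the image of its Stieltjes measure under `F` is Lebesgue measure
on `[F η₀, F η₁]`.  Two continuous nondecreasing functions `u`, `v` with `u + v` the
identity on `[η₀, η₁]` therefore give, for nonnegative `f`, `g`, an exact formula for the
integral of `f ∘ u + g ∘ v` and a lower bound for the integral of any `F` that dominates
`l f ∘ u + m g ∘ v` along `l u + m v`.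
-/

namespace Vale.Agent.Lib.P237

open MeasureTheory Set Filter Topology
open scoped ENNReal NNReal

/-- The image of the Stieltjes measure of a continuous nondecreasing function `F`, constant
outside `[η₀, η₁]`, under `F` itself is Lebesgue measure on `[F η₀, F η₁]`. -/
theorem map_stieltjes_eq {F : StieltjesFunction ℝ} (hFc : Continuous F) {η₀ η₁ : ℝ}
    (h01 : η₀ ≤ η₁) (hlo : ∀ x, x ≤ η₀ → F x = F η₀) (hhi : ∀ x, η₁ ≤ x → F x = F η₁) :
    Measure.map F F.measure = volume.restrict (Icc (F η₀) (F η₁)) := by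
  have hbot : Tendsto F atBot (𝓝 (F η₀)) := by
    refine tendsto_const_nhds.congr' ?_
    filter_upwards [eventually_le_atBot η₀] with x hx
    exact (hlo x hx).symm
  have htop : Tendsto F atTop (𝓝 (F η₁)) := by
    refine tendsto_const_nhds.congr' ?_
    filter_upwards [eventually_ge_atTop η₁] with x hx
    exact (hhi x hx).symm
  have hFm : Measurable F := F.mono.measurable
  have : IsFiniteMeasure F.measure := F.isFiniteMeasure hbot htop
  refine Measure.ext_of_Iic _ _ (fun t => ?_)
  rw [Measure.map_apply hFm measurableSet_Iic, Measure.restrict_apply measurableSet_Iic]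
  have hge : ∀ x, F η₀ ≤ F x := fun x => by
    rcases le_total x η₀ with h | h
    · rw [hlo x h]
    · exact F.mono h
  have hle : ∀ x, F x ≤ F η₁ := fun x => by
    rcases le_total x η₁ with h | h
    · exact F.mono h
    · rw [hhi x h]
  rcases lt_or_ge t (F η₀) with h1 | h1
  · have e1 : F ⁻¹' Iic t = ∅ := by
      ext x
      simp only [mem_preimage, mem_Iic, mem_empty_iff_false, iff_false, not_le]
      exact h1.trans_le (hge x)
    have e2 : Iic t ∩ Icc (F η₀) (F η₁) = ∅ := by
      ext x
      simp only [mem_inter_iff, mem_Iic, mem_Icc, mem_empty_iff_false, iff_false]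
      rintro ⟨hx1, hx2, _⟩
      linarith
    rw [e1, e2, measure_empty, measure_empty]
  rcases le_or_gt (F η₁) t with h2 | h2
  · have e1 : F ⁻¹' Iic t = univ := by
      ext x
      simp only [mem_preimage, mem_Iic, mem_univ, iff_true]
      exact (hle x).trans h2
    have e2 : Iic t ∩ Icc (F η₀) (F η₁) = Icc (F η₀) (F η₁) := by
      ext x
      simp only [mem_inter_iff, mem_Iic, mem_Icc]
      constructor
      · exact fun h => h.2
      · exact fun h => ⟨h.2.trans h2, h⟩
    rw [e1, e2, F.measure_univ hbot htop, Real.volume_Icc]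
  · have hT : IsCompact (Icc η₀ η₁ ∩ F ⁻¹' Iic t) :=
      isCompact_Icc.inter_right (isClosed_Iic.preimage hFc)
    have hTne : (Icc η₀ η₁ ∩ F ⁻¹' Iic t).Nonempty := ⟨η₀, ⟨le_rfl, h01⟩, h1⟩
    obtain ⟨c, hc⟩ := hT.exists_isGreatest hTne
    have hc1 : c ∈ Icc η₀ η₁ := hc.1.1
    have hc2 : F c ≤ t := hc.1.2
    have hFc' : F c = t := by
      by_contra hne
      have hlt : F c < t := lt_of_le_of_ne hc2 hne
      have hcη : c ≤ η₁ := hc1.2
      obtain ⟨x, hx, hxt⟩ := intermediate_value_Icc hcη hFc.continuousOn ⟨hlt.le, h2.le⟩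
      have hxT : x ∈ Icc η₀ η₁ ∩ F ⁻¹' Iic t := ⟨⟨hc1.1.trans hx.1, hx.2⟩, hxt.le⟩
      have hxc : x ≤ c := hc.2 hxT
      have hxe : x = c := le_antisymm hxc hx.1
      rw [hxe] at hxt
      exact hne hxt
    have e1 : F ⁻¹' Iic t = Iic c := by
      ext x
      simp only [mem_preimage, mem_Iic]
      constructor
      · intro hx
        rcases le_total x η₀ with h | h
        · exact h.trans hc1.1
        · have hx1 : x ≤ η₁ := by
            by_contra hcon
            push Not at hcon
            have := hhi x hcon.le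
            linarith
          exact hc.2 ⟨⟨h, hx1⟩, hx⟩
      · intro hx
        exact (F.mono hx).trans hc2
    have e2 : Iic t ∩ Icc (F η₀) (F η₁) = Icc (F η₀) t := by
      ext x
      simp only [mem_inter_iff, mem_Iic, mem_Icc]
      constructor
      · exact fun h => ⟨h.2.1, h.1⟩
      · exact fun h => ⟨h.2, h.1, h.2.trans h2.le⟩
    rw [e1, e2, F.measure_Iic hbot, Real.volume_Icc, hFc']

/-- Integral of a composition against the Stieltjes measure. -/
theorem lintegral_comp_stieltjes {F : StieltjesFunction ℝ} (hFc : Continuous F) {η₀ η₁ : ℝ}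
    (h01 : η₀ ≤ η₁) (hlo : ∀ x, x ≤ η₀ → F x = F η₀) (hhi : ∀ x, η₁ ≤ x → F x = F η₁)
    {f : ℝ → ℝ≥0∞} (hf : Measurable f) :
    ∫⁻ η, f (F η) ∂F.measure = ∫⁻ t in Icc (F η₀) (F η₁), f t := by
  rw [← map_stieltjes_eq hFc h01 hlo hhi, lintegral_map hf F.mono.measurable]

section transport

variable {u v : StieltjesFunction ℝ} (huc : Continuous u) (hvc : Continuous v) {η₀ η₁ : ℝ}
  (h01 : η₀ ≤ η₁) (hsum : ∀ x, u x + v x = max η₀ (min x η₁))
  (hulo : ∀ x, x ≤ η₀ → u x = u η₀) (huhi : ∀ x, η₁ ≤ x → u x = u η₁)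
  (hvlo : ∀ x, x ≤ η₀ → v x = v η₀) (hvhi : ∀ x, η₁ ≤ x → v x = v η₁)
  {f g : ℝ → ℝ≥0∞} (hf : Measurable f) (hg : Measurable g)

include huc hvc h01 hsum hulo huhi hvlo hvhi hf hg in
/-- The exact formula for the integral of `f ∘ u + g ∘ v` over `[η₀, η₁]`. -/
theorem transport_eq :
    ∫⁻ η in Icc η₀ η₁, (f (u η) + g (v η)) =
      (∫⁻ t in Icc (u η₀) (u η₁), f t) + (∫⁻ t in Icc (v η₀) (v η₁), g t) +
        ((∫⁻ η, f (u η) ∂v.measure) + ∫⁻ η, g (v η) ∂u.measure) := by
  set w : StieltjesFunction ℝ := u + v with hw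
  have hwx : ∀ x, w x = max η₀ (min x η₁) := fun x => by
    rw [hw, StieltjesFunction.add_apply]
    exact hsum x
  have hwc : Continuous w := by
    have : (w : ℝ → ℝ) = fun x => u x + v x := by
      funext x
      rw [hw, StieltjesFunction.add_apply]
    rw [this]
    exact huc.add hvc
  have hw0 : w η₀ = η₀ := by
    rw [hwx, min_eq_left h01, max_self]
  have hw1 : w η₁ = η₁ := by
    rw [hwx, min_self, max_eq_right h01]
  have hwlo : ∀ x, x ≤ η₀ → w x = w η₀ := fun x hx => by
    rw [hw0, hwx, min_eq_left (hx.trans h01), max_eq_left hx]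
  have hwhi : ∀ x, η₁ ≤ x → w x = w η₁ := fun x hx => by
    rw [hw1, hwx, min_eq_right hx, max_eq_right h01]
  have huw : ∀ x, u (w x) = u x := fun x => by
    rcases le_total x η₀ with h | h
    · rw [hwlo x h, hw0, hulo x h]
    · rcases le_total x η₁ with h' | h'
      · rw [hwx, min_eq_left h', max_eq_right h]
      · rw [hwhi x h', hw1, huhi x h']
  have hvw : ∀ x, v (w x) = v x := fun x => by
    rcases le_total x η₀ with h | h
    · rw [hwlo x h, hw0, hvlo x h]
    · rcases le_total x η₁ with h' | h'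
      · rw [hwx, min_eq_left h', max_eq_right h]
      · rw [hwhi x h', hw1, hvhi x h']
  have hum : Measurable u := u.mono.measurable
  have hvm : Measurable v := v.mono.measurable
  have hG : Measurable fun η => f (u η) + g (v η) := (hf.comp hum).add (hg.comp hvm)
  have h1 := lintegral_comp_stieltjes hwc h01 hwlo hwhi hG
  rw [hw0, hw1] at h1
  rw [← h1]
  have e1 : ∀ η, f (u (w η)) + g (v (w η)) = f (u η) + g (v η) := fun η => by
    rw [huw, hvw]
  simp only [e1]
  have hfu : Measurable fun η => f (u η) := hf.comp hum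
  rw [hw, StieltjesFunction.measure_add, lintegral_add_measure,
    lintegral_add_left hfu, lintegral_add_left hfu,
    lintegral_comp_stieltjes huc h01 hulo huhi hf, lintegral_comp_stieltjes hvc h01 hvlo hvhi hg]
  ring

include huc hvc h01 hulo huhi hvlo hvhi hf hg in
/-- The lower bound for the integral of a function dominating `l f ∘ u + m g ∘ v` along
`l u + m v`. -/
theorem transport_ineq {l m : ℝ≥0} {F : ℝ → ℝ≥0∞} (hF : Measurable F)
    (hineq : ∀ η, (l : ℝ≥0∞) * f (u η) + m * g (v η) ≤ F (l * u η + m * v η)) :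
    (l : ℝ≥0∞) ^ 2 * (∫⁻ t in Icc (u η₀) (u η₁), f t) +
        (m : ℝ≥0∞) ^ 2 * (∫⁻ t in Icc (v η₀) (v η₁), g t) +
        l * m * ((∫⁻ η, f (u η) ∂v.measure) + ∫⁻ η, g (v η) ∂u.measure) ≤
      ∫⁻ ζ in Icc (l * u η₀ + m * v η₀) (l * u η₁ + m * v η₁), F ζ := by
  set S : StieltjesFunction ℝ := l • u + m • v with hS
  have hSx : ∀ x, S x = l * u x + m * v x := fun x => by
    rw [hS, StieltjesFunction.add_apply]
    rfl
  have hSc : Continuous S := by
    have : (S : ℝ → ℝ) = fun x => l * u x + m * v x := funext hSx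
    rw [this]
    exact (continuous_const.mul huc).add (continuous_const.mul hvc)
  have hSlo : ∀ x, x ≤ η₀ → S x = S η₀ := fun x hx => by
    rw [hSx, hSx, hulo x hx, hvlo x hx]
  have hShi : ∀ x, η₁ ≤ x → S x = S η₁ := fun x hx => by
    rw [hSx, hSx, huhi x hx, hvhi x hx]
  have hum : Measurable u := u.mono.measurable
  have hvm : Measurable v := v.mono.measurable
  have h1 := lintegral_comp_stieltjes hSc h01 hSlo hShi hF
  rw [hSx η₀, hSx η₁] at h1
  rw [← h1]
  have h2 : ∫⁻ η, ((l : ℝ≥0∞) * f (u η) + m * g (v η)) ∂S.measure ≤ ∫⁻ η, F (S η) ∂S.measure := by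
    refine lintegral_mono fun η => ?_
    rw [hSx]
    exact hineq η
  refine le_trans (le_of_eq ?_) h2
  have hfu : Measurable fun η => (l : ℝ≥0∞) * f (u η) := (hf.comp hum).const_mul _
  have hgv : Measurable fun η => (m : ℝ≥0∞) * g (v η) := (hg.comp hvm).const_mul _
  have hfu' : Measurable fun η => f (u η) := hf.comp hum
  have hgv' : Measurable fun η => g (v η) := hg.comp hvm
  rw [hS, StieltjesFunction.measure_add, StieltjesFunction.measure_smul,
    StieltjesFunction.measure_smul, lintegral_add_measure, lintegral_smul_measure,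
    lintegral_smul_measure, lintegral_add_left hfu, lintegral_add_left hfu,
    lintegral_const_mul _ hfu', lintegral_const_mul _ hgv',
    lintegral_const_mul _ hfu', lintegral_const_mul _ hgv',
    lintegral_comp_stieltjes huc h01 hulo huhi hf, lintegral_comp_stieltjes hvc h01 hvlo hvhi hg]
  simp only [ENNReal.smul_def, smul_eq_mul]
  ring

end transport

end Vale.Agent.Lib.P237
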