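import Vale.Agent.Lib.P237.Cone
import Vale.Agent.Lib.P237.Shift

/-!
# P237: the projection body of a convex set containing two parallel planar sets
-/

namespace Vale.Agent.Lib.P237

open MeasureTheory Set Vale.Agent.Lib.P243
open scoped Pointwise

/-- A planar convex set containing four points has at least the signed area of the
quadrilateral with these vertices: half the cross product of its diagonals. -/
theorem quad_le {W : Set (ℝ × ℝ)} (hW : Convex ℝ W) {v₁ v₂ v₃ v₄ : ℝ × ℝ} (h₁ : v₁ ∈ W)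
    (h₂ : v₂ ∈ W) (h₃ : v₃ ∈ W) (h₄ : v₄ ∈ W) :
    ENNReal.ofReal (((v₃.1 - v₁.1) * (v₄.2 - v₂.2) - (v₃.2 - v₁.2) * (v₄.1 - v₂.1)) / 2) ≤
      volume W := by
  set E₂ := (v₁.1 - v₂.1) * (v₃.2 - v₂.2) - (v₁.2 - v₂.2) * (v₃.1 - v₂.1) with hE₂
  set E₄ := (v₁.1 - v₄.1) * (v₃.2 - v₄.2) - (v₁.2 - v₄.2) * (v₃.1 - v₄.1) with hE₄
  have hS : ((v₃.1 - v₁.1) * (v₄.2 - v₂.2) - (v₃.2 - v₁.2) * (v₄.1 - v₂.1)) / 2 =
      -E₂ / 2 + E₄ / 2 := by
    rw [hE₂, hE₄]
    ring
  rw [hS]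
  have t₂ : ENNReal.ofReal (|E₂| / 2) ≤ volume W := tri_le hW h₂ h₁ h₃
  have t₄ : ENNReal.ofReal (|E₄| / 2) ≤ volume W := tri_le hW h₄ h₁ h₃
  by_cases c₂ : 0 ≤ E₂
  · refine le_trans (ENNReal.ofReal_le_ofReal ?_) t₄
    have := le_abs_self E₄
    linarith
  by_cases c₄ : E₄ ≤ 0
  · refine le_trans (ENNReal.ofReal_le_ofReal ?_) t₂
    have := neg_le_abs E₂
    linarith
  have hE₂neg : E₂ < 0 := not_le.mp c₂
  have hE₄pos : 0 < E₄ := not_le.mp c₄
  have hadd := tri_add_le hW h₂ h₁ h₃ (openTri_subset hW h₄ h₁ h₃) (s₀ := -1)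
    (by rw [← hE₂]; linarith)
    (by
      intro y hy
      have := openTri_side (c := v₄) (p := v₁) (q := v₃) (s₀ := 1)
        (by rw [← hE₄]; linarith) hy
      linarith)
  rw [volume_openTri, ← hE₂, ← hE₄, abs_of_neg hE₂neg, abs_of_pos hE₄pos] at hadd
  rw [ENNReal.ofReal_add (by linarith) (by linarith)]
  exact hadd

/-- The area of the convex hull of `A` and of the translate of `B` by `w`. -/
noncomputable def hullArea (A B : Set (ℝ × ℝ)) (w : ℝ × ℝ) : ℝ :=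
  (volume (convexHull ℝ (A ∪ (fun x => x + w) '' B))).toReal

theorem isBounded_hull {A B : Set (ℝ × ℝ)} (hAc : IsCompact A) (hBc : IsCompact B)
    (w : ℝ × ℝ) : Bornology.IsBounded (convexHull ℝ (A ∪ (fun x => x + w) '' B)) :=
  isBounded_convexHull.mpr
    (hAc.isBounded.union (hBc.image (continuous_id.add continuous_const)).isBounded)

theorem volume_hull {A B : Set (ℝ × ℝ)} (hAc : IsCompact A) (hBc : IsCompact B) (w : ℝ × ℝ) :
    volume (convexHull ℝ (A ∪ (fun x => x + w) '' B)) = ENNReal.ofReal (hullArea A B w) :=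
  (ENNReal.ofReal_toReal (isBounded_hull hAc hBc w).measure_lt_top.ne).symm

/-- The real form of the shift inequality for the hull areas. -/
theorem hullArea_add_ge {A B : Set (ℝ × ℝ)} (hAc : IsCompact A) (hBc : IsCompact B)
    {p₁ p₂ q₁ q₂ : ℝ × ℝ} (hp₁ : p₁ ∈ A) (hp₂ : p₂ ∈ A) (hq₁ : q₁ ∈ B) (hq₂ : q₂ ∈ B)
    (w w' : ℝ × ℝ) :
    (volume A + volume B).toReal + ((w'.1 - w.1) * ((p₁.2 + q₁.2) - (p₂.2 + q₂.2)) -
      (w'.2 - w.2) * ((p₁.1 + q₁.1) - (p₂.1 + q₂.1))) / 2 ≤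
      hullArea A B w + hullArea A B w' := by
  have key := shift_general hAc hBc (convex_convexHull ℝ _) (convex_convexHull ℝ _)
    (isBounded_hull hAc hBc w) (isBounded_hull hAc hBc w')
    ((subset_union_left).trans (subset_convexHull ℝ _))
    ((subset_union_left).trans (subset_convexHull ℝ _))
    (fun x hx => subset_convexHull ℝ _ (Or.inr (mem_image_of_mem _ hx)))
    (fun x hx => subset_convexHull ℝ _ (Or.inr (mem_image_of_mem _ hx)))
    hp₁ hp₂ hq₁ hq₂ (w := w) (w' := w')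
  rw [volume_hull hAc hBc w, volume_hull hAc hBc w'] at key
  set α := (volume A + volume B).toReal with hα
  have hfin : volume A + volume B ≠ ⊤ :=
    ENNReal.add_ne_top.mpr ⟨hAc.measure_lt_top.ne, hBc.measure_lt_top.ne⟩
  have hαe : volume A + volume B = ENNReal.ofReal α := (ENNReal.ofReal_toReal hfin).symm
  have hα0 : 0 ≤ α := ENNReal.toReal_nonneg
  have hF0 : 0 ≤ hullArea A B w := ENNReal.toReal_nonneg
  have hF0' : 0 ≤ hullArea A B w' := ENNReal.toReal_nonneg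
  rw [hαe, ← ENNReal.ofReal_add hF0 hF0'] at key
  set β := ((w'.1 - w.1) * ((p₁.2 + q₁.2) - (p₂.2 + q₂.2)) -
      (w'.2 - w.2) * ((p₁.1 + q₁.1) - (p₂.1 + q₂.1))) / 2 with hβ
  by_contra hlt
  have hlt' := not_le.mp hlt
  have hpos : 0 < α + β := lt_of_le_of_lt (add_nonneg hF0 hF0') hlt'
  have h1 : ENNReal.ofReal (hullArea A B w + hullArea A B w') < ENNReal.ofReal (α + β) :=
    (ENNReal.ofReal_lt_ofReal_iff hpos).mpr hlt'
  have h2 : ENNReal.ofReal (α + β) ≤ ENNReal.ofReal α + ENNReal.ofReal β :=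
    ENNReal.ofReal_add_le
  exact absurd (h2.trans key) (not_le.mpr h1)

/-- **Points of the projection body over a half difference of two points of `A + B`.**  Let
a convex set `K` of three-space contain the planar set `A` at height `0` and the planar set
`B` at height `h`.  A point whose first two coordinates are `h` times a quarter-turn of
`d = ((p₁ + q₁) - (p₂ + q₂)) / 2`, and whose third coordinate `z` differs from the cross
product of `d` and `w` by at most the area of the hull of `A` and `B + w`, for every `w`,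
lies in the projection body of `K`. -/
theorem mem_projBody_two {K : Set (Fin 3 → ℝ)} (hK : Convex ℝ K) {A B : Set (ℝ × ℝ)} {h : ℝ}
    (hAc : IsCompact A) (hBc : IsCompact B)
    (hbase : ∀ x ∈ A, (![x.1, x.2, 0] : Fin 3 → ℝ) ∈ K)
    (htop : ∀ x ∈ B, (![x.1, x.2, h] : Fin 3 → ℝ) ∈ K)
    {p₁ p₂ q₁ q₂ : ℝ × ℝ} (hp₁ : p₁ ∈ A) (hp₂ : p₂ ∈ A) (hq₁ : q₁ ∈ B) (hq₂ : q₂ ∈ B)
    {d₁ d₂ : ℝ} (hd₁ : d₁ = ((p₁.1 + q₁.1) - (p₂.1 + q₂.1)) / 2)
    (hd₂ : d₂ = ((p₁.2 + q₁.2) - (p₂.2 + q₂.2)) / 2) {X : Fin 3 → ℝ}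
    (hX0 : X 0 = -(h * d₂)) (hX1 : X 1 = h * d₁)
    (hX2 : ∀ w : ℝ × ℝ, |X 2 - (d₁ * w.2 - d₂ * w.1)| ≤ hullArea A B w) :
    X ∈ projBody K := by
  intro u e f hu he hf hue huf hef
  obtain ⟨σ, hσ, hn0, hn1, hn2⟩ := frame_cross hu he hf hue huf hef
  have hσabs : |σ| = 1 := by
    have h1 := abs_nonneg σ
    have h2 : |σ| ^ 2 = 1 := by rw [sq_abs]; exact hσ
    nlinarith
  set W : Set (ℝ × ℝ) := (fun P : Fin 3 → ℝ => (e ⬝ᵥ P, f ⬝ᵥ P)) '' K with hWdef
  have hWconv : Convex ℝ W := hK.linear_image (proj2 e f)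
  have hbaseW : ∀ x ∈ A, (e 0 * x.1 + e 1 * x.2, f 0 * x.1 + f 1 * x.2) ∈ W := by
    intro x hx
    refine ⟨![x.1, x.2, 0], hbase x hx, ?_⟩
    refine Prod.ext ?_ ?_ <;> simp [dotProduct, Fin.sum_univ_three]
  have htopW : ∀ x ∈ B,
      (e 0 * x.1 + e 1 * x.2 + h * e 2, f 0 * x.1 + f 1 * x.2 + h * f 2) ∈ W := by
    intro x hx
    refine ⟨![x.1, x.2, h], htop x hx, ?_⟩
    refine Prod.ext ?_ ?_
    · simp [dotProduct, Fin.sum_univ_three]
      ring
    · simp [dotProduct, Fin.sum_univ_three]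
      ring
  have hdot : X ⬝ᵥ u = h * (d₁ * u 1 - d₂ * u 0) + X 2 * u 2 := by
    simp only [dotProduct, Fin.sum_univ_three]
    rw [hX0, hX1]
    ring
  by_cases hu2 : u 2 = 0
  · -- the projection direction is horizontal: a quadrilateral
    have hdet0 : e 0 * f 1 - e 1 * f 0 = 0 := by rw [hn2, hu2, mul_zero]
    have hP₁ := hbaseW p₁ hp₁
    have hP₂ := hbaseW p₂ hp₂
    have hQ₁ := htopW q₁ hq₁
    have hQ₂ := htopW q₂ hq₂
    have hq_a := quad_le hWconv hP₂ hP₁ hQ₁ hQ₂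
    have hq_b := quad_le hWconv hP₁ hP₂ hQ₂ hQ₁
    have hσ' : σ = 1 ∨ σ = -1 := by
      have : (σ - 1) * (σ + 1) = 0 := by linear_combination hσ
      rcases mul_eq_zero.mp this with h1 | h1
      · exact Or.inl (by linarith)
      · exact Or.inr (by linarith)
    rw [hdot, hu2, mul_zero, add_zero]
    rcases hσ' with hs | hs
    · refine le_trans (le_of_eq ?_) hq_b
      congr 1
      simp only []
      rw [hs] at hn0 hn1
      rw [hd₁, hd₂]
      linear_combination (-((q₂.1 - p₁.1) * (q₁.2 - p₂.2) - (q₂.2 - p₁.2) * (q₁.1 - p₂.1)) / 2)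
        * hdet0 - (h * ((p₁.1 + q₁.1) - (p₂.1 + q₂.1)) / 2) * hn1 +
        (h * ((p₁.2 + q₁.2) - (p₂.2 + q₂.2)) / 2) * hn0
    · refine le_trans (le_of_eq ?_) hq_a
      congr 1
      simp only []
      rw [hs] at hn0 hn1
      rw [hd₁, hd₂]
      linear_combination (-((q₁.1 - p₂.1) * (q₂.2 - p₁.2) - (q₁.2 - p₂.2) * (q₂.1 - p₁.1)) / 2)
        * hdet0 + (h * ((p₁.1 + q₁.1) - (p₂.1 + q₂.1)) / 2) * hn1 -
        (h * ((p₁.2 + q₁.2) - (p₂.2 + q₂.2)) / 2) * hn0
  · -- the general direction: the hull of `A` and a translate of `B`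
    set w : ℝ × ℝ := (-(h * u 0 / u 2), -(h * u 1 / u 2)) with hw
    set M := lin2 (e 0) (e 1) (f 0) (f 1) with hM
    have hue' : u 0 * e 0 + u 1 * e 1 + u 2 * e 2 = 0 := by
      simpa [dotProduct, Fin.sum_univ_three] using hue
    have huf' : u 0 * f 0 + u 1 * f 1 + u 2 * f 2 = 0 := by
      simpa [dotProduct, Fin.sum_univ_three] using huf
    have hMw : M w = (h * e 2, h * f 2) := by
      rw [hM, lin2_apply, hw]
      refine Prod.ext ?_ ?_
      · show e 0 * -(h * u 0 / u 2) + e 1 * -(h * u 1 / u 2) = h * e 2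
        field_simp
        linear_combination (-h) * hue'
      · show f 0 * -(h * u 0 / u 2) + f 1 * -(h * u 1 / u 2) = h * f 2
        field_simp
        linear_combination (-h) * huf'
    have hsub : M '' convexHull ℝ (A ∪ (fun x => x + w) '' B) ⊆ W := by
      refine image_subset_iff.mpr (convexHull_min ?_ (hWconv.linear_preimage M))
      rintro x (hx | ⟨b, hb, rfl⟩)
      · show M x ∈ W
        rw [hM, lin2_apply]
        exact hbaseW x hx
      · show M (b + w) ∈ W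
        rw [map_add, hMw, hM, lin2_apply]
        exact htopW b hb
    have hvolimg : volume (M '' convexHull ℝ (A ∪ (fun x => x + w) '' B)) =
        ENNReal.ofReal (|u 2| * hullArea A B w) := by
      rw [hM, volume_image_lin2, hn2, abs_mul, hσabs, one_mul, volume_hull hAc hBc w,
        ← ENNReal.ofReal_mul (abs_nonneg _)]
    have hcr : d₁ * w.2 - d₂ * w.1 = -(h * (d₁ * u 1 - d₂ * u 0)) / u 2 := by
      rw [hw]
      show d₁ * -(h * u 1 / u 2) - d₂ * -(h * u 0 / u 2) = _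
      field_simp
      ring
    have hle : X ⬝ᵥ u ≤ |u 2| * hullArea A B w := by
      have e1 : X ⬝ᵥ u = u 2 * (X 2 - (d₁ * w.2 - d₂ * w.1)) := by
        rw [hdot, hcr]
        field_simp
        ring
      rw [e1]
      calc u 2 * (X 2 - (d₁ * w.2 - d₂ * w.1))
          ≤ |u 2 * (X 2 - (d₁ * w.2 - d₂ * w.1))| := le_abs_self _
        _ = |u 2| * |X 2 - (d₁ * w.2 - d₂ * w.1)| := abs_mul _ _
        _ ≤ |u 2| * hullArea A B w := mul_le_mul_of_nonneg_left (hX2 w) (abs_nonneg _)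
    calc ENNReal.ofReal (X ⬝ᵥ u) ≤ ENNReal.ofReal (|u 2| * hullArea A B w) :=
          ENNReal.ofReal_le_ofReal hle
      _ = volume (M '' convexHull ℝ (A ∪ (fun x => x + w) '' B)) := hvolimg.symm
      _ ≤ volume W := measure_mono hsub

/-- The fibre of the projection body over `h` times a quarter-turn of a half difference of
two points of `A + B` contains a segment of length `area A + area B`. -/
theorem exists_fiber_interval {A B : Set (ℝ × ℝ)} (hAc : IsCompact A) (hBc : IsCompact B)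
    {p₁ p₂ q₁ q₂ : ℝ × ℝ} (hp₁ : p₁ ∈ A) (hp₂ : p₂ ∈ A) (hq₁ : q₁ ∈ B) (hq₂ : q₂ ∈ B)
    {d₁ d₂ : ℝ} (hd₁ : d₁ = ((p₁.1 + q₁.1) - (p₂.1 + q₂.1)) / 2)
    (hd₂ : d₂ = ((p₁.2 + q₁.2) - (p₂.2 + q₂.2)) / 2) :
    ∃ z₀ : ℝ, ∀ z ∈ Icc z₀ (z₀ + (volume A + volume B).toReal), ∀ w : ℝ × ℝ,
      |z - (d₁ * w.2 - d₂ * w.1)| ≤ hullArea A B w := by
  set α := (volume A + volume B).toReal with hα
  have key : ∀ w w' : ℝ × ℝ, (d₁ * w.2 - d₂ * w.1 - hullArea A B w) + α ≤
      d₁ * w'.2 - d₂ * w'.1 + hullArea A B w' := by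
    intro w w'
    have h := hullArea_add_ge hAc hBc hp₁ hp₂ hq₁ hq₂ w w'
    rw [← hα] at h
    have e : ((w'.1 - w.1) * ((p₁.2 + q₁.2) - (p₂.2 + q₂.2)) -
        (w'.2 - w.2) * ((p₁.1 + q₁.1) - (p₂.1 + q₂.1))) / 2 =
        (w'.1 - w.1) * d₂ - (w'.2 - w.2) * d₁ := by
      rw [hd₁, hd₂]
      ring
    rw [e] at h
    linarith
  set Lo : Set ℝ := range fun w : ℝ × ℝ => d₁ * w.2 - d₂ * w.1 - hullArea A B w with hLo
  have hbdd : BddAbove Lo := by
    refine ⟨d₁ * (0 : ℝ × ℝ).2 - d₂ * (0 : ℝ × ℝ).1 + hullArea A B 0 - α, ?_⟩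
    rintro _ ⟨w, rfl⟩
    have := key w 0
    linarith
  have hne : Lo.Nonempty := range_nonempty _
  refine ⟨sSup Lo, fun z hz w => ?_⟩
  rw [abs_le]
  constructor
  · have h1 : d₁ * w.2 - d₂ * w.1 - hullArea A B w ≤ sSup Lo := le_csSup hbdd ⟨w, rfl⟩
    linarith [hz.1]
  · have h2 : sSup Lo ≤ d₁ * w.2 - d₂ * w.1 + hullArea A B w - α := by
      refine csSup_le hne ?_
      rintro _ ⟨w₀, rfl⟩
      have := key w₀ w
      linarith
    linarith [hz.2]

/-- **A projection inequality from two parallel planar sections.**  If a convex set `K` of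
three-space contains a planar compact convex set `A` at height `0` and a planar compact convex
set `B` at height `h`, then the volume of the projection body of `K` is at least `h ^ 2`
times the sum of the areas of `A` and `B` times the area of the Minkowski sum `A + B`. -/
theorem petty_two_sections {K : Set (Fin 3 → ℝ)} (hK : Convex ℝ K) {A B : Set (ℝ × ℝ)}
    (hA : Convex ℝ A) (hAc : IsCompact A) (hB : Convex ℝ B) (hBc : IsCompact B) {h : ℝ}
    (hbase : ∀ x ∈ A, (![x.1, x.2, 0] : Fin 3 → ℝ) ∈ K)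
    (htop : ∀ x ∈ B, (![x.1, x.2, h] : Fin 3 → ℝ) ∈ K) :
    ENNReal.ofReal (h ^ 2) * (volume A + volume B) * volume (A + B) ≤ volume (projBody K) := by
  rcases (A + B).eq_empty_or_nonempty with hAe | hne
  · rw [hAe, measure_empty, mul_zero]
    exact zero_le
  set α := (volume A + volume B).toReal with hα
  have hfin : volume A + volume B ≠ ⊤ :=
    ENNReal.add_ne_top.mpr ⟨hAc.measure_lt_top.ne, hBc.measure_lt_top.ne⟩
  have hαe : volume A + volume B = ENNReal.ofReal α := (ENNReal.ofReal_toReal hfin).symm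
  obtain ⟨hDc, hAD⟩ := volume_le_halfDiff (hA.add hB) (hAc.add hBc) hne
  set D : Set (ℝ × ℝ) :=
    {d | ∃ a ∈ A + B, ∃ a' ∈ A + B, d = ((a.1 - a'.1) / 2, (a.2 - a'.2) / 2)} with hD
  set G := lin2 0 (-h) h 0 with hG
  have hGD : IsCompact (G '' D) := hDc.image (LinearMap.continuous_of_finiteDimensional _)
  have hfib : ∀ y ∈ G '' D, ∃ z₀ : ℝ, ∀ z ∈ Icc z₀ (z₀ + α),
      (![y.1, y.2, z] : Fin 3 → ℝ) ∈ projBody K := by
    rintro _ ⟨_, ⟨m, hm, m', hm', rfl⟩, rfl⟩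
    obtain ⟨p₁, hp₁, q₁, hq₁, rfl⟩ := Set.mem_add.mp hm
    obtain ⟨p₂, hp₂, q₂, hq₂, rfl⟩ := Set.mem_add.mp hm'
    obtain ⟨z₀, hz₀⟩ := exists_fiber_interval hAc hBc hp₁ hp₂ hq₁ hq₂ rfl rfl
    refine ⟨z₀, fun z hz => ?_⟩
    refine mem_projBody_two hK hAc hBc hbase htop hp₁ hp₂ hq₁ hq₂ rfl rfl ?_ ?_ ?_
    · simp [hG, lin2_apply]
    · simp [hG, lin2_apply]
    · intro w
      simpa using hz₀ z hz w
  have hmain := volume_ge_of_fibers (isClosed_projBody K).measurableSet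
    hGD.isClosed.measurableSet hfib
  have hGvol : volume (G '' D) = ENNReal.ofReal (h ^ 2) * volume D := by
    rw [hG, volume_image_lin2]
    have e1 : |0 * 0 - -h * h| = h ^ 2 := by
      rw [abs_of_nonneg (by nlinarith [sq_nonneg h])]
      ring
    rw [e1]
  calc ENNReal.ofReal (h ^ 2) * (volume A + volume B) * volume (A + B)
      = ENNReal.ofReal α * (ENNReal.ofReal (h ^ 2) * volume (A + B)) := by
        rw [hαe]
        ring
    _ ≤ ENNReal.ofReal α * (ENNReal.ofReal (h ^ 2) * volume D) := by gcongr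
    _ = ENNReal.ofReal α * volume (G '' D) := by rw [hGvol]
    _ ≤ _ := hmain

end Vale.Agent.Lib.P237
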