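import Vale.Agent.Lib.P237.Steiner
import Vale.Agent.Lib.P237.TwoBase

/-!
# P237: Petty's inequality for convex hulls of two parallel planar convex sets

`twoHull A B h` is the convex hull of a planar compact convex set `A` placed in the plane
`x 2 = 0` and a planar compact convex set `B` placed in the plane `x 2 = h`.

* Its volume is at most `(h / 6) (area A + area B + area (A + B))` (the prismatoid formula;
  the slice at height `t h` is `(1 - t) A + t B`, whose area is given by the Steiner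
  polynomial of `Lib/P237/Steiner.lean`).
* The projection body contains, over the origin, a vertical segment of half-length
  `(area (A + B) - area A - area B) / 2` (the mixed area, which is at most the area of the
  convex hull of `A` and any translate of `B`), and over each point of a planar set of area
  at least `h ^ 2 area (A + B)` a vertical segment of length `area A + area B`.  Convexity
  gives a capped cone inside the projection body.
-/

namespace Vale.Agent.Lib.P237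

open MeasureTheory Set Filter Topology Vale.Agent.Lib.P243
open scoped ENNReal NNReal Pointwise

theorem convex_projBody (K : Set (Fin 3 → ℝ)) : Convex ℝ (projBody K) := by
  intro x hx y hy a b ha hb hab u e f hu he hf hue huf hef
  have h1 := hx u e f hu he hf hue huf hef
  have h2 := hy u e f hu he hf hue huf hef
  by_cases hV : volume ((fun p : Fin 3 → ℝ => (e ⬝ᵥ p, f ⬝ᵥ p)) '' K) = ⊤
  · rw [hV]
    exact le_top
  · rw [ENNReal.ofReal_le_iff_le_toReal hV] at h1 h2 ⊢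
    have e1 : (a • x + b • y) ⬝ᵥ u = a * (x ⬝ᵥ u) + b * (y ⬝ᵥ u) := by
      rw [add_dotProduct, smul_dotProduct, smul_dotProduct, smul_eq_mul, smul_eq_mul]
    rw [e1]
    calc a * (x ⬝ᵥ u) + b * (y ⬝ᵥ u)
        ≤ a * (volume ((fun p : Fin 3 → ℝ => (e ⬝ᵥ p, f ⬝ᵥ p)) '' K)).toReal +
          b * (volume ((fun p : Fin 3 → ℝ => (e ⬝ᵥ p, f ⬝ᵥ p)) '' K)).toReal :=
          add_le_add (mul_le_mul_of_nonneg_left h1 ha) (mul_le_mul_of_nonneg_left h2 hb)
      _ = (volume ((fun p : Fin 3 → ℝ => (e ⬝ᵥ p, f ⬝ᵥ p)) '' K)).toReal := by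
          rw [← add_mul, hab, one_mul]

/-- The convex hull of `A` at height `0` and `B` at height `h`. -/
def twoHull (A B : Set (ℝ × ℝ)) (h : ℝ) : Set (Fin 3 → ℝ) :=
  convexHull ℝ ((fun x : ℝ × ℝ => (![x.1, x.2, 0] : Fin 3 → ℝ)) '' A ∪
    (fun x : ℝ × ℝ => (![x.1, x.2, h] : Fin 3 → ℝ)) '' B)

/-- The union of the segments joining a point of `A` at height `0` to a point of `B` at
height `h`. -/
def twoPar (A B : Set (ℝ × ℝ)) (h : ℝ) : Set (Fin 3 → ℝ) :=
  (fun w : (ℝ × ℝ) × (ℝ × ℝ) × ℝ =>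
    (![(1 - w.2.2) * w.1.1 + w.2.2 * w.2.1.1, (1 - w.2.2) * w.1.2 + w.2.2 * w.2.1.2,
      w.2.2 * h] : Fin 3 → ℝ)) '' (A ×ˢ B ×ˢ Icc (0 : ℝ) 1)

theorem isCompact_twoPar {A B : Set (ℝ × ℝ)} (hAc : IsCompact A) (hBc : IsCompact B) (h : ℝ) :
    IsCompact (twoPar A B h) := by
  refine (hAc.prod (hBc.prod isCompact_Icc)).image ?_
  refine continuous_pi fun i => ?_
  fin_cases i
  · simp only [Fin.zero_eta, Matrix.cons_val_zero]
    fun_prop
  · simp only [Fin.mk_one, Matrix.cons_val_one, Matrix.cons_val_zero]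
    fun_prop
  · simp only [Fin.reduceFinMk, Matrix.cons_val_two, Matrix.tail_cons, Matrix.head_cons]
    fun_prop

theorem twoHull_subset_twoPar {A B : Set (ℝ × ℝ)} (hA : Convex ℝ A) (hB : Convex ℝ B)
    (hAne : A.Nonempty) (hBne : B.Nonempty) (h : ℝ) : twoHull A B h ⊆ twoPar A B h := by
  have c1 : Convex ℝ ((fun x : ℝ × ℝ => (![x.1, x.2, 0] : Fin 3 → ℝ)) '' A) := by
    rintro _ ⟨x, hx, rfl⟩ _ ⟨y, hy, rfl⟩ a b ha hb hab
    refine ⟨a • x + b • y, hA hx hy ha hb hab, ?_⟩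
    funext i
    fin_cases i <;> simp
  have c2 : Convex ℝ ((fun x : ℝ × ℝ => (![x.1, x.2, h] : Fin 3 → ℝ)) '' B) := by
    rintro _ ⟨x, hx, rfl⟩ _ ⟨y, hy, rfl⟩ a b ha hb hab
    refine ⟨a • x + b • y, hB hx hy ha hb hab, ?_⟩
    funext i
    fin_cases i
    · simp
    · simp
    · simp
      rw [← add_mul, hab, one_mul]
  rw [twoHull, convexHull_union (hAne.image _) (hBne.image _), c1.convexHull_eq,
    c2.convexHull_eq]
  intro P hP
  obtain ⟨_, ⟨x, hx, rfl⟩, _, ⟨y, hy, rfl⟩, a, b, ha, hb, hab, rfl⟩ := mem_convexJoin.mp hP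
  refine ⟨(x, y, b), ⟨hx, hy, hb, by linarith⟩, ?_⟩
  have ha' : a = 1 - b := by linarith
  funext i
  fin_cases i <;> simp [ha']

/-- The integral of the Steiner polynomial along the height. -/
theorem lintegral_steiner {h a b d : ℝ} (hh : 0 < h)
    (hq0 : ∀ t ∈ Icc (0 : ℝ) 1, 0 ≤ (1 - t) ^ 2 * a + t ^ 2 * b + (1 - t) * t * d) :
    ∫⁻ z in Icc (0 : ℝ) h,
        ENNReal.ofReal ((1 - z / h) ^ 2 * a + (z / h) ^ 2 * b + (1 - z / h) * (z / h) * d) =
      ENNReal.ofReal (h * (a + b) / 3 + h * d / 6) := by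
  have hcont : Continuous fun z : ℝ =>
      (1 - z / h) ^ 2 * a + (z / h) ^ 2 * b + (1 - z / h) * (z / h) * d := by fun_prop
  have hint : IntegrableOn (fun z : ℝ =>
      (1 - z / h) ^ 2 * a + (z / h) ^ 2 * b + (1 - z / h) * (z / h) * d) (Icc (0 : ℝ) h) :=
    hcont.continuousOn.integrableOn_Icc
  have hnn : 0 ≤ᵐ[volume.restrict (Icc (0 : ℝ) h)] fun z : ℝ =>
      (1 - z / h) ^ 2 * a + (z / h) ^ 2 * b + (1 - z / h) * (z / h) * d := by
    refine (ae_restrict_iff' measurableSet_Icc).mpr (Filter.Eventually.of_forall fun z hz => ?_)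
    exact hq0 (z / h) ⟨div_nonneg hz.1 hh.le, (div_le_one hh).mpr hz.2⟩
  rw [← ofReal_integral_eq_lintegral_ofReal hint hnn]
  congr 1
  rw [integral_Icc_eq_integral_Ioc, ← intervalIntegral.integral_of_le hh.le]
  have hne : h ≠ 0 := hh.ne'
  obtain ⟨c₁, hc₁⟩ : ∃ c₁ : ℝ, c₁ = (d - 2 * a) / (2 * h) := ⟨_, rfl⟩
  obtain ⟨c₂, hc₂⟩ : ∃ c₂ : ℝ, c₂ = (a + b - d) / (3 * h ^ 2) := ⟨_, rfl⟩
  have hderiv : ∀ z ∈ uIcc (0 : ℝ) h,
      HasDerivAt (fun z : ℝ => a * z + c₁ * z ^ 2 + c₂ * z ^ 3)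
        ((1 - z / h) ^ 2 * a + (z / h) ^ 2 * b + (1 - z / h) * (z / h) * d) z := by
    intro z _
    have h1 : HasDerivAt (fun z : ℝ => a * z) (a * 1) z := (hasDerivAt_id z).const_mul a
    have h2 : HasDerivAt (fun z : ℝ => c₁ * z ^ 2) (c₁ * ((2 : ℕ) * z ^ (2 - 1))) z :=
      (hasDerivAt_pow 2 z).const_mul c₁
    have h3 : HasDerivAt (fun z : ℝ => c₂ * z ^ 3) (c₂ * ((3 : ℕ) * z ^ (3 - 1))) z :=
      (hasDerivAt_pow 3 z).const_mul c₂
    exact ((h1.add h2).add h3).congr_deriv (by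
      simp only [Nat.cast_ofNat]
      rw [show (2 - 1 : ℕ) = 1 from rfl, show (3 - 1 : ℕ) = 2 from rfl, hc₁, hc₂]
      field_simp
      ring)
  rw [intervalIntegral.integral_eq_sub_of_hasDerivAt hderiv (hcont.intervalIntegrable _ _), hc₁,
    hc₂]
  field_simp
  ring

/-- The prismatoid bound for the union of the joining segments. -/
theorem volume_twoPar_le {A B : Set (ℝ × ℝ)} (hA : Convex ℝ A) (hB : Convex ℝ B)
    (hAc : IsCompact A) (hBc : IsCompact B) (hAne : A.Nonempty) (hBne : B.Nonempty) {h : ℝ}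
    (hh : 0 < h) :
    volume (twoPar A B h) ≤
      ENNReal.ofReal (h / 6) * (volume A + volume B + volume (A + B)) := by
  obtain ⟨a, ha⟩ : ∃ a : ℝ, a = (volume A).toReal := ⟨_, rfl⟩
  obtain ⟨b, hb⟩ : ∃ b : ℝ, b = (volume B).toReal := ⟨_, rfl⟩
  obtain ⟨m, hm⟩ : ∃ m : ℝ, m = (volume (A + B)).toReal := ⟨_, rfl⟩
  obtain ⟨d, hd⟩ : ∃ d : ℝ, d = m - a - b := ⟨_, rfl⟩
  have hst : ∀ t ∈ Icc (0 : ℝ) 1, (volume ((1 - t) • A + t • B)).toReal ≤
      (1 - t) ^ 2 * a + t ^ 2 * b + (1 - t) * t * d := by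
    intro t ht
    have := steiner_le hA hB hAc hBc hAne hBne (sub_nonneg.mpr ht.2) ht.1
    rw [hd, hm, ha, hb]
    exact this
  have hq0 : ∀ t ∈ Icc (0 : ℝ) 1, 0 ≤ (1 - t) ^ 2 * a + t ^ 2 * b + (1 - t) * t * d :=
    fun t ht => ENNReal.toReal_nonneg.trans (hst t ht)
  have hq : ∀ t ∈ Icc (0 : ℝ) 1, volume ((1 - t) • A + t • B) ≤
      ENNReal.ofReal ((1 - t) ^ 2 * a + t ^ 2 * b + (1 - t) * t * d) := by
    intro t ht
    rw [← ENNReal.ofReal_toReal (((hAc.smul (1 - t)).add (hBc.smul t)).measure_lt_top.ne)]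
    exact ENNReal.ofReal_le_ofReal (hst t ht)
  have h1 := volume_preserving_piFinSuccAbove (fun _ : Fin 3 => ℝ) (2 : Fin 3)
  have h2 := volume_preserving_finTwoArrow ℝ
  set Ψ := MeasurableEquiv.piFinSuccAbove (fun _ : Fin 3 => ℝ) (2 : Fin 3) with hΨ
  set S' : Set (ℝ × (Fin 2 → ℝ)) := Ψ.symm ⁻¹' twoPar A B h with hS'
  have hS'm : MeasurableSet S' :=
    Ψ.symm.measurable (isCompact_twoPar hAc hBc h).isClosed.measurableSet
  have hvol : volume (twoPar A B h) = volume S' :=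
    ((h1.symm Ψ).measure_preimage_equiv (twoPar A B h)).symm
  have hprod : volume S' = ∫⁻ z, volume (Prod.mk z ⁻¹' S') := by
    rw [Measure.volume_eq_prod]
    exact Measure.prod_apply hS'm
  have hslice : ∀ z : ℝ, volume (Prod.mk z ⁻¹' S') ≤
      (Icc (0 : ℝ) h).indicator (fun z => ENNReal.ofReal
        ((1 - z / h) ^ 2 * a + (z / h) ^ 2 * b + (1 - z / h) * (z / h) * d)) z := by
    intro z
    by_cases hz : z ∈ Icc (0 : ℝ) h
    · rw [indicator_of_mem hz]
      have ht : z / h ∈ Icc (0 : ℝ) 1 := ⟨div_nonneg hz.1 hh.le, (div_le_one hh).mpr hz.2⟩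
      have hsub : Prod.mk z ⁻¹' S' ⊆ MeasurableEquiv.finTwoArrow ⁻¹'
          ((1 - z / h) • A + (z / h) • B) := by
        intro g hg
        have hg' : Ψ.symm (z, g) ∈ twoPar A B h := hg
        rw [hΨ, piFinSuccAbove_symm_apply] at hg'
        obtain ⟨⟨x, y, s⟩, ⟨hx, hy, hs⟩, hP⟩ := hg'
        have e0 := congrFun hP 0
        have e1 := congrFun hP 1
        have e2 := congrFun hP 2
        simp at e0 e1 e2
        have hst' : s = z / h := by
          rw [← e2]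
          field_simp
        show (g 0, g 1) ∈ (1 - z / h) • A + (z / h) • B
        refine Set.mem_add.mpr ⟨(1 - z / h) • x, Set.smul_mem_smul_set hx, (z / h) • y,
          Set.smul_mem_smul_set hy, ?_⟩
        refine Prod.ext ?_ ?_
        · simp only [Prod.fst_add, Prod.smul_fst, smul_eq_mul]
          rw [← e0, hst']
        · simp only [Prod.snd_add, Prod.smul_snd, smul_eq_mul]
          rw [← e1, hst']
      calc volume (Prod.mk z ⁻¹' S')
          ≤ volume (MeasurableEquiv.finTwoArrow ⁻¹' ((1 - z / h) • A + (z / h) • B)) :=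
            measure_mono hsub
        _ = volume ((1 - z / h) • A + (z / h) • B) := h2.measure_preimage_equiv _
        _ ≤ _ := hq (z / h) ht
    · rw [indicator_of_notMem hz]
      have hempty : Prod.mk z ⁻¹' S' = ∅ := by
        ext g
        simp only [mem_preimage, mem_empty_iff_false, iff_false]
        intro hg
        have hg' : Ψ.symm (z, g) ∈ twoPar A B h := hg
        rw [hΨ, piFinSuccAbove_symm_apply] at hg'
        obtain ⟨⟨x, y, s⟩, ⟨hx, hy, hs⟩, hP⟩ := hg'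
        have e2 := congrFun hP 2
        simp at e2
        apply hz
        rw [← e2]
        exact ⟨mul_nonneg hs.1 hh.le, by nlinarith [hs.2]⟩
      rw [hempty, measure_empty]
  have hAfin : volume A ≠ ⊤ := hAc.measure_lt_top.ne
  have hBfin : volume B ≠ ⊤ := hBc.measure_lt_top.ne
  have hWfin : volume (A + B) ≠ ⊤ := (hAc.add hBc).measure_lt_top.ne
  calc volume (twoPar A B h) = ∫⁻ z, volume (Prod.mk z ⁻¹' S') := by rw [hvol, hprod]
    _ ≤ ∫⁻ z, (Icc (0 : ℝ) h).indicator (fun z => ENNReal.ofReal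
          ((1 - z / h) ^ 2 * a + (z / h) ^ 2 * b + (1 - z / h) * (z / h) * d)) z :=
        lintegral_mono hslice
    _ = ∫⁻ z in Icc (0 : ℝ) h, ENNReal.ofReal
          ((1 - z / h) ^ 2 * a + (z / h) ^ 2 * b + (1 - z / h) * (z / h) * d) :=
        lintegral_indicator measurableSet_Icc _
    _ = ENNReal.ofReal (h * (a + b) / 3 + h * d / 6) := lintegral_steiner hh hq0
    _ = ENNReal.ofReal (h / 6) * (volume A + volume B + volume (A + B)) := by
        have e : h * (a + b) / 3 + h * d / 6 = h / 6 * (a + b + m) := by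
          rw [hd]
          ring
        rw [e, ENNReal.ofReal_mul (by positivity), ha, hb, hm,
          ENNReal.ofReal_add (add_nonneg ENNReal.toReal_nonneg ENNReal.toReal_nonneg)
            ENNReal.toReal_nonneg,
          ENNReal.ofReal_add ENNReal.toReal_nonneg ENNReal.toReal_nonneg,
          ENNReal.ofReal_toReal hAfin, ENNReal.ofReal_toReal hBfin, ENNReal.ofReal_toReal hWfin]

/-- Fubini over the first two coordinates. -/
theorem volume_eq_lintegral_fib {S : Set (Fin 3 → ℝ)} (hS : MeasurableSet S) :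
    volume S = ∫⁻ y : ℝ × ℝ, volume {z : ℝ | (![y.1, y.2, z] : Fin 3 → ℝ) ∈ S} := by
  have h1 := volume_preserving_piFinSuccAbove (fun _ : Fin 3 => ℝ) (2 : Fin 3)
  have h2 := volume_preserving_finTwoArrow ℝ
  set Ψ := MeasurableEquiv.piFinSuccAbove (fun _ : Fin 3 => ℝ) (2 : Fin 3) with hΨ
  set S' : Set (ℝ × (Fin 2 → ℝ)) := Ψ.symm ⁻¹' S with hS'
  have hS'm : MeasurableSet S' := Ψ.symm.measurable hS
  have hvol : volume S = volume S' := ((h1.symm Ψ).measure_preimage_equiv S).symm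
  have hprod : volume S' = ∫⁻ g, volume ((fun x : ℝ => (x, g)) ⁻¹' S') := by
    rw [Measure.volume_eq_prod]
    exact Measure.prod_apply_symm hS'm
  rw [hvol, hprod]
  have hF : ∀ g : Fin 2 → ℝ, volume ((fun x : ℝ => (x, g)) ⁻¹' S') =
      (fun y : ℝ × ℝ => volume {z : ℝ | (![y.1, y.2, z] : Fin 3 → ℝ) ∈ S})
        (MeasurableEquiv.finTwoArrow g) := by
    intro g
    congr 1
    ext z
    show Ψ.symm (z, g) ∈ S ↔ _
    rw [hΨ, piFinSuccAbove_symm_apply]
    rfl
  rw [lintegral_congr hF]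
  exact h2.lintegral_comp_emb (MeasurableEquiv.measurableEmbedding _)
    (fun y : ℝ × ℝ => volume {z : ℝ | (![y.1, y.2, z] : Fin 3 → ℝ) ∈ S})

theorem lintegral_cap {s c : ℝ} (hs : 0 ≤ s) (hc : s < 2 * c) :
    ENNReal.ofReal (2 * (s + c) / 3) ≤
      ∫⁻ ℓ in Icc (0 : ℝ) (2 * c),
        ENNReal.ofReal ((min 1 ((2 * c - ℓ) / (2 * c - s))) ^ 2) := by
  obtain ⟨H, hH⟩ : ∃ H : ℝ, H = 2 * c - s := ⟨_, rfl⟩
  rw [← hH]
  have hHpos : 0 < H := by linarith
  have hsub : Icc (0 : ℝ) s ∪ Ioc s (2 * c) ⊆ Icc 0 (2 * c) := by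
    rintro x (hx | hx)
    · exact ⟨hx.1, by linarith [hx.2]⟩
    · exact ⟨by linarith [hx.1], hx.2⟩
  have hdisj : Disjoint (Icc (0 : ℝ) s) (Ioc s (2 * c)) := by
    rw [Set.disjoint_left]
    intro x hx hx'
    linarith [hx.2, hx'.1]
  have e1 : ∫⁻ ℓ in Icc (0 : ℝ) s, ENNReal.ofReal ((min 1 ((2 * c - ℓ) / H)) ^ 2) =
      ENNReal.ofReal s := by
    have hpt : ∀ ℓ ∈ Icc (0 : ℝ) s, ENNReal.ofReal ((min 1 ((2 * c - ℓ) / H)) ^ 2) = 1 := by
      intro ℓ hℓ
      have h1 : 1 ≤ (2 * c - ℓ) / H := by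
        rw [le_div_iff₀ hHpos]
        linarith [hℓ.2]
      rw [min_eq_left h1]
      simp
    rw [setLIntegral_congr_fun measurableSet_Icc hpt, setLIntegral_const, one_mul,
      Real.volume_Icc, sub_zero]
  have e2 : ∫⁻ ℓ in Ioc s (2 * c), ENNReal.ofReal ((min 1 ((2 * c - ℓ) / H)) ^ 2) =
      ENNReal.ofReal (H / 3) := by
    have hpt : ∀ ℓ ∈ Ioc s (2 * c), ENNReal.ofReal ((min 1 ((2 * c - ℓ) / H)) ^ 2) =
        ENNReal.ofReal (((2 * c - ℓ) / H) ^ 2) := by
      intro ℓ hℓ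
      have h1 : (2 * c - ℓ) / H ≤ 1 := by
        rw [div_le_one hHpos]
        linarith [hℓ.1]
      rw [min_eq_right h1]
    rw [setLIntegral_congr_fun measurableSet_Ioc hpt]
    have hcont : Continuous fun ℓ : ℝ => ((2 * c - ℓ) / H) ^ 2 := by fun_prop
    have hint : IntegrableOn (fun ℓ : ℝ => ((2 * c - ℓ) / H) ^ 2) (Ioc s (2 * c)) :=
      (hcont.continuousOn.integrableOn_Icc).mono_set Ioc_subset_Icc_self
    rw [← ofReal_integral_eq_lintegral_ofReal hint
      (Filter.Eventually.of_forall fun z => sq_nonneg _)]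
    congr 1
    rw [← intervalIntegral.integral_of_le hc.le]
    have hderiv : ∀ ℓ ∈ uIcc s (2 * c),
        HasDerivAt (fun ℓ : ℝ => -(1 / (3 * H ^ 2)) * (2 * c - ℓ) ^ 3)
          (((2 * c - ℓ) / H) ^ 2) ℓ := by
      intro ℓ _
      have h1 : HasDerivAt (fun x : ℝ => 2 * c - x) (-1) ℓ := by
        simpa using (hasDerivAt_id ℓ).const_sub (2 * c)
      have h2 := (h1.pow 3).const_mul (-(1 / (3 * H ^ 2)))
      refine h2.congr_deriv ?_
      simp only [Nat.cast_ofNat]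
      rw [show (3 - 1 : ℕ) = 2 from rfl]
      field_simp
    rw [intervalIntegral.integral_eq_sub_of_hasDerivAt hderiv (hcont.intervalIntegrable _ _),
      ← hH, sub_self]
    have hne : H ≠ 0 := hHpos.ne'
    field_simp
    ring
  calc ENNReal.ofReal (2 * (s + c) / 3) = ENNReal.ofReal s + ENNReal.ofReal (H / 3) := by
        rw [← ENNReal.ofReal_add hs (by positivity)]
        congr 1
        rw [hH]
        ring
    _ = (∫⁻ ℓ in Icc (0 : ℝ) s, ENNReal.ofReal ((min 1 ((2 * c - ℓ) / H)) ^ 2)) +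
          ∫⁻ ℓ in Ioc s (2 * c), ENNReal.ofReal ((min 1 ((2 * c - ℓ) / H)) ^ 2) := by
        rw [e1, e2]
    _ = ∫⁻ ℓ in Icc (0 : ℝ) s ∪ Ioc s (2 * c),
          ENNReal.ofReal ((min 1 ((2 * c - ℓ) / H)) ^ 2) :=
        (lintegral_union measurableSet_Ioc hdisj).symm
    _ ≤ _ := lintegral_mono_set hsub

/-- **Capped cone bound.**  A measurable convex set of three-space that contains the vertical
segment of half-length `c` through the origin and, over each point of a planar compact set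
`D`, a vertical segment of length `s < 2 c`, has volume at least `(2 / 3) (s + c)` times the
area of `D`. -/
theorem volume_ge_capped {S : Set (Fin 3 → ℝ)} (hS : MeasurableSet S) (hSconv : Convex ℝ S)
    {D : Set (ℝ × ℝ)} (hDc : IsCompact D) {s c : ℝ} (hs : 0 ≤ s) (hc : s < 2 * c)
    (hax : ∀ z : ℝ, |z| ≤ c → (![0, 0, z] : Fin 3 → ℝ) ∈ S)
    (hfib : ∀ y ∈ D, ∃ z₀ : ℝ, ∀ z ∈ Icc z₀ (z₀ + s), (![y.1, y.2, z] : Fin 3 → ℝ) ∈ S) :
    ENNReal.ofReal (2 * (s + c) / 3) * volume D ≤ volume S := by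
  obtain ⟨H, hH⟩ : ∃ H : ℝ, H = 2 * c - s := ⟨_, rfl⟩
  have hHpos : 0 < H := by linarith
  have hc0 : 0 < c := by linarith
  obtain ⟨τ, hτ⟩ : ∃ τ : ℝ → ℝ, τ = fun ℓ => min 1 ((2 * c - ℓ) / (2 * c - s)) := ⟨_, rfl⟩
  have hτc : Continuous τ := by
    rw [hτ]
    fun_prop
  obtain ⟨G, hG⟩ : ∃ G : Set ((ℝ × ℝ) × ℝ), G =
      (fun w : (ℝ × ℝ) × ℝ => (τ w.2 • w.1, w.2)) '' (D ×ˢ Icc (0 : ℝ) (2 * c)) := ⟨_, rfl⟩
  have hGc : IsCompact G := by
    rw [hG]
    exact (hDc.prod isCompact_Icc).image (by fun_prop)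
  have hGm : MeasurableSet G := hGc.isClosed.measurableSet
  have hτ01 : ∀ ℓ ∈ Icc (0 : ℝ) (2 * c), 0 ≤ τ ℓ ∧ τ ℓ ≤ 1 ∧ ℓ ≤ 2 * c - τ ℓ * H := by
    intro ℓ hℓ
    rw [hτ]
    simp only
    rw [← hH]
    refine ⟨le_min zero_le_one (div_nonneg (by linarith [hℓ.2]) hHpos.le), min_le_left _ _, ?_⟩
    have h1 : min 1 ((2 * c - ℓ) / H) ≤ (2 * c - ℓ) / H := min_le_right _ _
    have h2 : min 1 ((2 * c - ℓ) / H) * H ≤ 2 * c - ℓ := (le_div_iff₀ hHpos).mp h1
    linarith
  have hkey : ∀ (y : ℝ × ℝ) (ℓ : ℝ), (y, ℓ) ∈ G →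
      ENNReal.ofReal ℓ ≤ volume {z : ℝ | (![y.1, y.2, z] : Fin 3 → ℝ) ∈ S} := by
    intro y ℓ hyl
    rw [hG] at hyl
    obtain ⟨⟨d, ℓ'⟩, ⟨hd, hℓ'⟩, heq⟩ := hyl
    simp only [Prod.mk.injEq] at heq
    obtain ⟨hy, rfl⟩ := heq
    obtain ⟨h0, h1, h2⟩ := hτ01 ℓ' hℓ'
    obtain ⟨z₀, hz₀⟩ := hfib d hd
    obtain ⟨t, ht⟩ : ∃ t : ℝ, t = τ ℓ' := ⟨_, rfl⟩
    rw [← ht] at h0 h1 h2 hy
    have hy1 : y.1 = t * d.1 := by rw [← hy]; simp
    have hy2 : y.2 = t * d.2 := by rw [← hy]; simp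
    obtain ⟨lo, hlo⟩ : ∃ lo : ℝ, lo = t * z₀ - (1 - t) * c := ⟨_, rfl⟩
    obtain ⟨len, hlen⟩ : ∃ len : ℝ, len = t * s + (1 - t) * (2 * c) := ⟨_, rfl⟩
    have hlen' : ℓ' ≤ len := by
      rw [hlen]
      rw [hH] at h2
      linarith
    have hsub : Icc lo (lo + len) ⊆ {z : ℝ | (![y.1, y.2, z] : Fin 3 → ℝ) ∈ S} := by
      intro ζ hζ
      obtain ⟨θ, hθ0, hθ1, hθ⟩ := exists_interp hζ.1 hζ.2
      have hz' : (![0, 0, -c + 2 * c * θ] : Fin 3 → ℝ) ∈ S := by
        refine hax _ ?_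
        rw [abs_le]
        constructor
        · nlinarith [mul_nonneg hc0.le hθ0]
        · nlinarith [mul_nonneg hc0.le (sub_nonneg.mpr hθ1)]
      have hz : (![d.1, d.2, z₀ + s * θ] : Fin 3 → ℝ) ∈ S := by
        refine hz₀ _ ⟨?_, ?_⟩
        · nlinarith [mul_nonneg hs hθ0]
        · nlinarith [mul_nonneg hs (sub_nonneg.mpr hθ1)]
      have hcomb := hSconv hz' hz (sub_nonneg.mpr h1) h0 (by ring)
      have e : (1 - t) • (![0, 0, -c + 2 * c * θ] : Fin 3 → ℝ) +
          t • (![d.1, d.2, z₀ + s * θ] : Fin 3 → ℝ) = ![y.1, y.2, ζ] := by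
        funext i
        fin_cases i
        · simp [hy1]
        · simp [hy2]
        · simp
          rw [← hθ, hlo, hlen]
          ring
      rw [e] at hcomb
      exact hcomb
    calc ENNReal.ofReal ℓ' ≤ ENNReal.ofReal len := ENNReal.ofReal_le_ofReal hlen'
      _ = volume (Icc lo (lo + len)) := by
          rw [Real.volume_Icc]
          congr 1
          ring
      _ ≤ _ := measure_mono hsub
  have hfibG : ∀ y : ℝ × ℝ, volume (Prod.mk y ⁻¹' G) ≤
      volume {z : ℝ | (![y.1, y.2, z] : Fin 3 → ℝ) ∈ S} := by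
    intro y
    by_cases hVt : volume {z : ℝ | (![y.1, y.2, z] : Fin 3 → ℝ) ∈ S} = ⊤
    · rw [hVt]
      exact le_top
    · have hsub : Prod.mk y ⁻¹' G ⊆
          Icc 0 (volume {z : ℝ | (![y.1, y.2, z] : Fin 3 → ℝ) ∈ S}).toReal := by
        intro ℓ hℓ
        have h1 := hkey y ℓ hℓ
        have hℓ0 : 0 ≤ ℓ := by
          have hℓ' : (y, ℓ) ∈ G := hℓ
          rw [hG] at hℓ'
          obtain ⟨⟨d, ℓ'⟩, ⟨hd, hℓ''⟩, heq⟩ := hℓ'
          simp only [Prod.mk.injEq] at heq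
          rw [← heq.2]
          exact hℓ''.1
        exact ⟨hℓ0, (ENNReal.ofReal_le_iff_le_toReal hVt).mp h1⟩
      calc volume (Prod.mk y ⁻¹' G)
          ≤ volume (Icc 0 (volume {z : ℝ | (![y.1, y.2, z] : Fin 3 → ℝ) ∈ S}).toReal) :=
            measure_mono hsub
        _ = volume {z : ℝ | (![y.1, y.2, z] : Fin 3 → ℝ) ∈ S} := by
            rw [Real.volume_Icc, sub_zero, ENNReal.ofReal_toReal hVt]
  have hsl : ∀ ℓ ∈ Icc (0 : ℝ) (2 * c), ENNReal.ofReal (τ ℓ ^ 2) * volume D ≤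
      volume ((fun y : ℝ × ℝ => (y, ℓ)) ⁻¹' G) := by
    intro ℓ hℓ
    rw [← volume_smul_planar]
    refine measure_mono ?_
    rintro _ ⟨d, hd, rfl⟩
    show (τ ℓ • d, ℓ) ∈ G
    rw [hG]
    exact ⟨(d, ℓ), ⟨hd, hℓ⟩, rfl⟩
  have hcap := lintegral_cap hs hc
  have hτm : Measurable fun ℓ : ℝ => ENNReal.ofReal (τ ℓ ^ 2) :=
    (hτc.pow 2).measurable.ennreal_ofReal
  have hτe : ∀ ℓ : ℝ, ENNReal.ofReal ((min 1 ((2 * c - ℓ) / (2 * c - s))) ^ 2) =
      ENNReal.ofReal (τ ℓ ^ 2) := fun ℓ => by rw [hτ]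
  simp only [hτe] at hcap
  calc ENNReal.ofReal (2 * (s + c) / 3) * volume D
      ≤ (∫⁻ ℓ in Icc (0 : ℝ) (2 * c), ENNReal.ofReal (τ ℓ ^ 2)) * volume D := by gcongr
    _ = ∫⁻ ℓ in Icc (0 : ℝ) (2 * c), ENNReal.ofReal (τ ℓ ^ 2) * volume D := by
        rw [lintegral_mul_const _ hτm]
    _ ≤ ∫⁻ ℓ in Icc (0 : ℝ) (2 * c), volume ((fun y : ℝ × ℝ => (y, ℓ)) ⁻¹' G) :=
        setLIntegral_mono' measurableSet_Icc hsl
    _ ≤ ∫⁻ ℓ, volume ((fun y : ℝ × ℝ => (y, ℓ)) ⁻¹' G) := setLIntegral_le_lintegral _ _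
    _ = volume G := by
        rw [Measure.volume_eq_prod]
        exact (Measure.prod_apply_symm hGm).symm
    _ = ∫⁻ y, volume (Prod.mk y ⁻¹' G) := by
        rw [Measure.volume_eq_prod]
        exact Measure.prod_apply hGm
    _ ≤ ∫⁻ y, volume {z : ℝ | (![y.1, y.2, z] : Fin 3 → ℝ) ∈ S} := lintegral_mono hfibG
    _ = volume S := (volume_eq_lintegral_fib hS).symm

theorem volume_flat {S : Set (Fin 3 → ℝ)} {c : ℝ} (hS : ∀ p ∈ S, p 2 = c) : volume S = 0 := by
  have hsub : S ⊆ {p : Fin 3 → ℝ | (p 0, p 1) ∈ (univ : Set (ℝ × ℝ)) ∧ p 2 ∈ ({c} : Set ℝ)} :=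
    fun p hp => ⟨mem_univ _, hS p hp⟩
  refine measure_mono_null hsub ?_
  rw [volume_cyl, Real.volume_singleton, mul_zero]

theorem convex_level (c : ℝ) : Convex ℝ {p : Fin 3 → ℝ | p 2 = c} := by
  intro p hp q hq a b _ _ hab
  simp only [Set.mem_ofPred_eq] at hp hq ⊢
  simp only [Pi.add_apply, Pi.smul_apply, smul_eq_mul, hp, hq]
  rw [← add_mul, hab, one_mul]

/-- The area of the convex hull of `A` and any translate of `B` is at least the mixed area of
`A` and `B`. -/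
theorem hullArea_ge_mixed {A B : Set (ℝ × ℝ)} (hA : Convex ℝ A) (hAc : IsCompact A)
    (hB : Convex ℝ B) (hBc : IsCompact B) (hAne : A.Nonempty) (hBne : B.Nonempty) (w : ℝ × ℝ) :
    ((volume (A + B)).toReal - (volume A).toReal - (volume B).toReal) / 2 ≤ hullArea A B w := by
  have eBw : (fun x : ℝ × ℝ => x + w) '' B = B + {w} := Set.add_singleton.symm
  have hBwc : IsCompact (B + {w}) := hBc.add isCompact_singleton
  have hBwconv : Convex ℝ (B + {w}) := hB.add (convex_singleton w)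
  have hBwne : (B + {w}).Nonempty := hBne.add (singleton_nonempty w)
  have hvolBw : volume (B + {w}) = volume B := by
    rw [Set.add_singleton, image_add_right, measure_preimage_add_right]
  have hvolABw : volume (A + (B + {w})) = volume (A + B) := by
    rw [← add_assoc, Set.add_singleton, image_add_right, measure_preimage_add_right]
  obtain ⟨C, hC⟩ : ∃ C : Set (ℝ × ℝ), C = closure (convexHull ℝ (A ∪ (B + {w}))) := ⟨_, rfl⟩
  have hCconv : Convex ℝ C := hC ▸ (convex_convexHull ℝ _).closure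
  have hCc : IsCompact C := by
    rw [hC]
    have hb := isBounded_hull hAc hBc w
    rw [eBw] at hb
    exact hb.isCompact_closure
  have hAC : A ⊆ C := fun x hx => hC ▸ subset_closure (subset_convexHull ℝ _ (Or.inl hx))
  have hBC : B + {w} ⊆ C := fun x hx => hC ▸ subset_closure (subset_convexHull ℝ _ (Or.inr hx))
  have hvolC : (volume C).toReal = hullArea A B w := by
    rw [hC, volume_closure_convex (convex_convexHull ℝ _), hullArea, eBw]
  have key := mixed_le_two_mul hA hBwconv hCconv hAc hBwc hCc hAne hBwne hAC hBC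
  rw [hvolABw, hvolBw, hvolC] at key
  linarith

/-- **Petty's conjectured projection inequality, with the constant `8`, for the convex hull
of two compact convex sets in parallel planes.** -/
theorem petty_twoHull {A B : Set (ℝ × ℝ)} (hA : Convex ℝ A) (hAc : IsCompact A)
    (hB : Convex ℝ B) (hBc : IsCompact B) {h : ℝ} (hh : 0 < h) :
    volume (twoHull A B h) ≤ ENNReal.ofReal (h / 6) * (volume A + volume B + volume (A + B)) ∧
    8 * volume (twoHull A B h) ^ 2 ≤ volume (projBody (twoHull A B h)) := by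
  rcases A.eq_empty_or_nonempty with hAe | hAne
  · have h0 : volume (twoHull A B h) = 0 := by
      refine volume_flat (c := h) ?_
      rw [twoHull, hAe, image_empty, empty_union]
      exact fun p hp => convexHull_min (by rintro _ ⟨x, hx, rfl⟩; simp) (convex_level h) hp
    rw [h0]
    simp
  rcases B.eq_empty_or_nonempty with hBe | hBne
  · have h0 : volume (twoHull A B h) = 0 := by
      refine volume_flat (c := 0) ?_
      rw [twoHull, hBe, image_empty, union_empty]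
      exact fun p hp => convexHull_min (by rintro _ ⟨x, hx, rfl⟩; simp) (convex_level 0) hp
    rw [h0]
    simp
  obtain ⟨K, hK⟩ : ∃ K : Set (Fin 3 → ℝ), K = twoHull A B h := ⟨_, rfl⟩
  rw [← hK]
  have hKconv : Convex ℝ K := hK ▸ convex_convexHull ℝ _
  have hbase : ∀ x ∈ A, (![x.1, x.2, 0] : Fin 3 → ℝ) ∈ K := fun x hx =>
    hK ▸ subset_convexHull ℝ _ (Or.inl (mem_image_of_mem _ hx))
  have htop : ∀ x ∈ B, (![x.1, x.2, h] : Fin 3 → ℝ) ∈ K := fun x hx =>
    hK ▸ subset_convexHull ℝ _ (Or.inr (mem_image_of_mem _ hx))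
  have hvolK : volume K ≤ ENNReal.ofReal (h / 6) * (volume A + volume B + volume (A + B)) := by
    rw [hK]
    exact (measure_mono (twoHull_subset_twoPar hA hB hAne hBne h)).trans
      (volume_twoPar_le hA hB hAc hBc hAne hBne hh)
  refine ⟨hvolK, ?_⟩
  have hAfin : volume A ≠ ⊤ := hAc.measure_lt_top.ne
  have hBfin : volume B ≠ ⊤ := hBc.measure_lt_top.ne
  have hfin : volume A + volume B ≠ ⊤ := ENNReal.add_ne_top.mpr ⟨hAfin, hBfin⟩
  have hWc : IsCompact (A + B) := hAc.add hBc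
  obtain ⟨α, hα⟩ : ∃ α : ℝ, α = (volume A + volume B).toReal := ⟨_, rfl⟩
  obtain ⟨m, hm⟩ : ∃ m : ℝ, m = (volume (A + B)).toReal := ⟨_, rfl⟩
  have hαe : volume A + volume B = ENNReal.ofReal α := by
    rw [hα, ENNReal.ofReal_toReal hfin]
  have hme : volume (A + B) = ENNReal.ofReal m := by
    rw [hm, ENNReal.ofReal_toReal hWc.measure_lt_top.ne]
  have hα0 : 0 ≤ α := hα ▸ ENNReal.toReal_nonneg
  have hm0 : 0 ≤ m := hm ▸ ENNReal.toReal_nonneg
  have hαm : α ≤ 2 * m := by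
    obtain ⟨p, hp⟩ := hAne
    obtain ⟨q, hq⟩ := hBne
    have h1 : volume A ≤ volume (A + B) := by
      have hsub : (fun x => x + q) '' A ⊆ A + B := by
        rintro _ ⟨x, hx, rfl⟩
        exact Set.add_mem_add hx hq
      calc volume A = volume ((fun x => x + q) '' A) := by
            rw [image_add_right, measure_preimage_add_right]
        _ ≤ _ := measure_mono hsub
    have h2 : volume B ≤ volume (A + B) := by
      have hsub : (fun x => p + x) '' B ⊆ A + B := by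
        rintro _ ⟨x, hx, rfl⟩
        exact Set.add_mem_add hp hx
      calc volume B = volume ((fun x => p + x) '' B) := by
            rw [image_add_left, measure_preimage_add]
        _ ≤ _ := measure_mono hsub
    have h3 : volume A + volume B ≤ 2 * volume (A + B) := by
      rw [two_mul]
      exact add_le_add h1 h2
    rw [hαe, hme] at h3
    have e2 : (2 : ℝ≥0∞) = ENNReal.ofReal 2 := by norm_num
    rw [e2, ← ENNReal.ofReal_mul (by norm_num)] at h3
    exact (ENNReal.ofReal_le_ofReal_iff (by positivity)).mp h3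
  have hKle : volume K ≤ ENNReal.ofReal (h / 6 * (α + m)) := by
    rw [ENNReal.ofReal_mul (by positivity), ENNReal.ofReal_add hα0 hm0, ← hαe, ← hme]
    exact hvolK
  have h8 : 8 * volume K ^ 2 ≤ ENNReal.ofReal (2 / 9 * h ^ 2 * (α + m) ^ 2) := by
    calc 8 * volume K ^ 2 ≤ 8 * (ENNReal.ofReal (h / 6 * (α + m))) ^ 2 := by gcongr
      _ = ENNReal.ofReal (2 / 9 * h ^ 2 * (α + m) ^ 2) := by
          have e8 : (8 : ENNReal) = ENNReal.ofReal 8 := by norm_num
          rw [e8, ← ENNReal.ofReal_pow (by positivity), ← ENNReal.ofReal_mul (by norm_num)]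
          congr 1
          ring
  refine h8.trans ?_
  rcases le_or_gt m (2 * α) with hcase | hcase
  · have hmain := petty_two_sections hKconv hA hAc hB hBc hbase htop
    rw [hαe, hme, ← ENNReal.ofReal_mul (by positivity), ← ENNReal.ofReal_mul (by positivity)]
      at hmain
    refine le_trans (ENNReal.ofReal_le_ofReal ?_) hmain
    have h1 : 0 ≤ (2 * α - m) * (2 * m - α) := mul_nonneg (by linarith) (by linarith)
    have h2 : 0 ≤ h ^ 2 := sq_nonneg h
    nlinarith [mul_nonneg h2 h1]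
  · obtain ⟨c₀, hc₀⟩ : ∃ c₀ : ℝ, c₀ = (m - α) / 2 := ⟨_, rfl⟩
    have hcs : α < 2 * c₀ := by
      rw [hc₀]
      linarith
    have hαsplit : α = (volume A).toReal + (volume B).toReal := by
      rw [hα, ENNReal.toReal_add hAfin hBfin]
    have hhull : ∀ w : ℝ × ℝ, c₀ ≤ hullArea A B w := by
      intro w
      have := hullArea_ge_mixed hA hAc hB hBc hAne hBne w
      rw [hc₀, hαsplit, hm]
      linarith
    have hax : ∀ z : ℝ, |z| ≤ c₀ → (![0, 0, z] : Fin 3 → ℝ) ∈ projBody K := by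
      intro z hz
      obtain ⟨p, hp⟩ := hAne
      obtain ⟨q, hq⟩ := hBne
      refine mem_projBody_two hKconv hAc hBc hbase htop hp hp hq hq (d₁ := 0) (d₂ := 0)
        (by ring) (by ring) ?_ ?_ ?_
      · simp
      · simp
      · intro w
        have e : (![0, 0, z] : Fin 3 → ℝ) 2 - (0 * w.2 - 0 * w.1) = z := by simp
        rw [e]
        exact hz.trans (hhull w)
    have hne : (A + B).Nonempty := hAne.add hBne
    obtain ⟨hDc, hAD⟩ := volume_le_halfDiff (hA.add hB) hWc hne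
    obtain ⟨D, hD⟩ : ∃ D : Set (ℝ × ℝ), D =
      {d | ∃ a ∈ A + B, ∃ a' ∈ A + B, d = ((a.1 - a'.1) / 2, (a.2 - a'.2) / 2)} := ⟨_, rfl⟩
    rw [← hD] at hDc hAD
    obtain ⟨G, hG⟩ : ∃ G : ℝ × ℝ →ₗ[ℝ] ℝ × ℝ, G = lin2 0 (-h) h 0 := ⟨_, rfl⟩
    have hGD : IsCompact (G '' D) := hDc.image (LinearMap.continuous_of_finiteDimensional _)
    have hfib : ∀ y ∈ G '' D, ∃ z₀ : ℝ, ∀ z ∈ Icc z₀ (z₀ + α),
        (![y.1, y.2, z] : Fin 3 → ℝ) ∈ projBody K := by
      rw [hD]
      rintro _ ⟨_, ⟨m₁, hm₁, m₂, hm₂, rfl⟩, rfl⟩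
      obtain ⟨p₁, hp₁, q₁, hq₁, rfl⟩ := Set.mem_add.mp hm₁
      obtain ⟨p₂, hp₂, q₂, hq₂, rfl⟩ := Set.mem_add.mp hm₂
      obtain ⟨z₀, hz₀⟩ := exists_fiber_interval hAc hBc hp₁ hp₂ hq₁ hq₂ rfl rfl
      rw [← hα] at hz₀
      refine ⟨z₀, fun z hz => ?_⟩
      refine mem_projBody_two hKconv hAc hBc hbase htop hp₁ hp₂ hq₁ hq₂ rfl rfl ?_ ?_ ?_
      · simp [hG, lin2_apply]
      · simp [hG, lin2_apply]
      · intro w
        simpa using hz₀ z hz w
    have hmain := volume_ge_capped (isClosed_projBody K).measurableSet (convex_projBody K) hGD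
      hα0 hcs hax hfib
    have hGvol : volume (G '' D) = ENNReal.ofReal (h ^ 2) * volume D := by
      rw [hG, volume_image_lin2]
      have e1 : |0 * 0 - -h * h| = h ^ 2 := by
        rw [abs_of_nonneg (by nlinarith [sq_nonneg h])]
        ring
      rw [e1]
    have hc₀0 : 0 ≤ c₀ := by
      rw [hc₀]
      linarith
    calc ENNReal.ofReal (2 / 9 * h ^ 2 * (α + m) ^ 2)
        ≤ ENNReal.ofReal (2 * (α + c₀) / 3 * (h ^ 2 * m)) := by
          refine ENNReal.ofReal_le_ofReal ?_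
          rw [hc₀]
          have h2 : 0 ≤ h ^ 2 := sq_nonneg h
          nlinarith [mul_nonneg (mul_nonneg h2 (add_nonneg hα0 hm0)) (by linarith : 0 ≤ m - 2 * α)]
      _ = ENNReal.ofReal (2 * (α + c₀) / 3) * (ENNReal.ofReal (h ^ 2) * volume (A + B)) := by
          rw [ENNReal.ofReal_mul (by positivity), ENNReal.ofReal_mul (by positivity), hme]
      _ ≤ ENNReal.ofReal (2 * (α + c₀) / 3) * (ENNReal.ofReal (h ^ 2) * volume D) := by gcongr
      _ = ENNReal.ofReal (2 * (α + c₀) / 3) * volume (G '' D) := by rw [hGvol]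
      _ ≤ _ := hmain

end Vale.Agent.Lib.P237
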